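import Vale.Agent.Helper10.GenCount

/-!
# The block detector

Words over `Bool` are cut into consecutive blocks of length `m`.  The detector for a pattern
`s : ZMod m → Bool` follows the current block and its marked transitions are the completions
of the blocks which differ from `s`.  When `s` has no nontrivial period the automaton in
which the marked transitions lead to a sink is counter-free.
-/

namespace Vale.Agent.Helper10

section blockdet

variable {m : ℕ} (s : ZMod m → Bool)

/-- the block detector: the position inside the current block and the bit saying whether the
block agrees with the pattern so far -/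
def bd : ZMod m × Bool → Bool → ZMod m × Bool :=
  fun q b => (q.1 + 1, if q.1 + 1 = 0 then true else (q.2 && (b == s q.1)))

/-- the marked transitions: completions of blocks which differ from the pattern -/
def bdBad : ZMod m × Bool → Bool → Bool :=
  fun q b => decide (q.1 + 1 = 0) && !(q.2 && (b == s q.1))

theorem bd_base (q : ZMod m × Bool) (b : Bool) (h : bdBad s q b = true) :
    bd s q b = ((0 : ZMod m), true) := by
  unfold bdBad at h
  have h1 : q.1 + 1 = 0 := by
    by_contra hne
    simp [hne] at h
  unfold bd
  rw [if_pos h1, h1]

theorem bd_stepF (j : ZMod m) (b : Bool) :
    gOpt (bd s) (bdBad s) (some (j, false)) b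
      = if j + 1 = 0 then none else some (j + 1, false) := by
  by_cases h : j + 1 = 0
  · simp [gOpt, bdBad, h]
  · simp [gOpt, bdBad, bd, h]

theorem bd_stepT (j : ZMod m) (b : Bool) :
    gOpt (bd s) (bdBad s) (some (j, true)) b
      = if b = s j then some (j + 1, true)
        else (if j + 1 = 0 then none else some (j + 1, false)) := by
  by_cases hb : b = s j
  · by_cases h : j + 1 = 0
    · simp [gOpt, bdBad, bd, h, hb]
    · simp [gOpt, bdBad, bd, h, hb]
  · by_cases h : j + 1 = 0
    · simp [gOpt, bdBad, h, hb]
    · simp [gOpt, bdBad, bd, h, hb]

theorem zmod_val_add_nat [NeZero m] (j : ZMod m) (t : ℕ) (h : j.val + t < m) :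
    (j + (t : ZMod m)).val = j.val + t := by
  rw [ZMod.val_add, ZMod.val_natCast, Nat.add_mod_mod, Nat.mod_eq_of_lt h]

/-- a run which starts with the bit `false` keeps it and does not reach the end of the block -/
theorem bd_runF [NeZero m] : ∀ (v : List Bool) (j : ZMod m) (q' : ZMod m × Bool),
    run (gOpt (bd s) (bdBad s)) (some (j, false)) v = some q' →
      q' = (j + (v.length : ZMod m), false) ∧ j.val + v.length < m := by
  intro v
  induction v with
  | nil =>
    intro j q' h
    simp only [run_nil, Option.some.injEq] at h
    subst h
    simpa using ZMod.val_lt j
  | cons b v ih =>
    intro j q' h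
    rw [run_cons, bd_stepF] at h
    by_cases hj : j + 1 = 0
    · rw [if_pos hj, gOpt_none] at h
      exact absurd h (by simp)
    · rw [if_neg hj] at h
      obtain ⟨h1, h2⟩ := ih (j + 1) q' h
      have hv : (j + 1).val = j.val + 1 := zmod_val_succ m j hj
      constructor
      · rw [h1]
        simp only [List.length_cons, Nat.cast_add, Nat.cast_one]
        congr 1
        ring
      · simp only [List.length_cons]
        omega

/-- a run from the bit `true` to the bit `true` reads the pattern -/
theorem bd_runT [NeZero m] : ∀ (v : List Bool) (j j' : ZMod m),
    run (gOpt (bd s) (bdBad s)) (some (j, true)) v = some (j', true) →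
      (∀ (t : ℕ) (ht : t < v.length), v[t] = s (j + (t : ZMod m))) ∧
        j' = j + (v.length : ZMod m) := by
  intro v
  induction v with
  | nil =>
    intro j j' h
    simp only [run_nil, Option.some.injEq, Prod.mk.injEq, and_true] at h
    subst h
    constructor
    · intro t ht
      simp at ht
    · simp
  | cons b v ih =>
    intro j j' h
    rw [run_cons, bd_stepT] at h
    by_cases hb : b = s j
    · rw [if_pos hb] at h
      obtain ⟨h1, h2⟩ := ih (j + 1) j' h
      constructor
      · intro t ht
        cases t with
        | zero => simpa using hb
        | succ t =>
          have := h1 t (by simpa using ht)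
          simp only [List.getElem_cons_succ, Nat.cast_add, Nat.cast_one]
          rw [this]
          congr 1
          ring
      · rw [h2]
        simp only [List.length_cons, Nat.cast_add, Nat.cast_one]
        ring
    · rw [if_neg hb] at h
      by_cases hj : j + 1 = 0
      · rw [if_pos hj, gOpt_none] at h
        exact absurd h (by simp)
      · rw [if_neg hj] at h
        have := (bd_runF s v (j + 1) _ h).1
        simp at this


/-- the block detector of a pattern without nontrivial period is counter-free once its marked
transitions lead to a sink -/
theorem bd_cf [NeZero m] (hprim : ∀ g : ZMod m, (∀ i, s (i + g) = s i) → g = 0) :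
    CounterFree (gOpt (bd s) (bdBad s)) := by
  intro w q n hn hq
  cases q with
  | none => exact gOpt_none _ _ w
  | some q =>
    obtain ⟨j, ok⟩ := q
    by_cases hw : w = []
    · subst hw
      rfl
    have hlen : 0 < w.length := List.length_pos_iff.mpr hw
    have halive : ∀ k, k ≤ n → ∃ q', (fun x => run (gOpt (bd s) (bdBad s)) x w)^[k]
        (some (j, ok)) = some q' := by
      intro k hk
      cases h1 : (fun x => run (gOpt (bd s) (bdBad s)) x w)^[k] (some (j, ok)) with
      | some q' => exact ⟨q', rfl⟩
      | none =>
        exfalso
        have e : n = (n - k) + k := by omega
        rw [e, Function.iterate_add_apply, h1, gOpt_iter_none] at hq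
        exact absurd hq (by simp)
    cases ok with
    | false =>
      exfalso
      have key : ∀ k, k ≤ n → (fun x => run (gOpt (bd s) (bdBad s)) x w)^[k] (some (j, false))
          = some (j + ((k * w.length : ℕ) : ZMod m), false) ∧ j.val + k * w.length < m := by
        intro k
        induction k with
        | zero =>
          intro _
          simpa using ZMod.val_lt j
        | succ k ih =>
          intro hk
          obtain ⟨h1, h2⟩ := ih (by omega)
          obtain ⟨q', hq'⟩ := halive (k + 1) hk
          rw [Function.iterate_succ_apply', h1] at hq'
          obtain ⟨h3, h4⟩ := bd_runF s w _ q' hq'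
          rw [zmod_val_add_nat j _ h2] at h4
          constructor
          · rw [Function.iterate_succ_apply', h1, hq', h3]
            congr 2
            push_cast
            ring
          · calc j.val + (k + 1) * w.length = j.val + k * w.length + w.length := by ring
              _ < m := h4
      obtain ⟨h1, h2⟩ := key n le_rfl
      rw [hq] at h1
      have h3 : j = j + ((n * w.length : ℕ) : ZMod m) := (Prod.mk.inj (Option.some.inj h1)).1
      have h4 : ((n * w.length : ℕ) : ZMod m) = 0 := by
        have := h3.symm
        simpa using this
      have h5 : m ∣ n * w.length := (ZMod.natCast_eq_zero_iff _ _).mp h4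
      have h6 : n * w.length = 0 := Nat.eq_zero_of_dvd_of_lt h5 (by omega)
      have h7 : 0 < n * w.length := Nat.mul_pos hn hlen
      omega
    | true =>
      have hflag : ∀ k, k ≤ n → ∃ jk, (fun x => run (gOpt (bd s) (bdBad s)) x w)^[n - k]
          (some (j, true)) = some (jk, true) := by
        intro k
        induction k with
        | zero =>
          intro _
          exact ⟨j, by simpa using hq⟩
        | succ k ih =>
          intro hk
          obtain ⟨jk, hjk⟩ := ih (by omega)
          obtain ⟨q', hq'⟩ := halive (n - (k + 1)) (by omega)
          have e : n - k = (n - (k + 1)) + 1 := by omega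
          rw [e, Function.iterate_succ_apply', hq'] at hjk
          obtain ⟨j', ok'⟩ := q'
          cases ok' with
          | true => exact ⟨j', hq'⟩
          | false =>
            exfalso
            have := (bd_runF s w j' _ hjk).1
            simp at this
      have hall : ∀ k, k ≤ n → (fun x => run (gOpt (bd s) (bdBad s)) x w)^[k] (some (j, true))
          = some (j + ((k * w.length : ℕ) : ZMod m), true) := by
        intro k
        induction k with
        | zero =>
          intro _
          simp
        | succ k ih =>
          intro hk
          have h1 := ih (by omega)
          obtain ⟨jk, hjk⟩ := hflag (n - (k + 1)) (by omega)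
          have e : n - (n - (k + 1)) = k + 1 := by omega
          rw [e, Function.iterate_succ_apply', h1] at hjk
          have h2 := (bd_runT s w _ jk hjk).2
          rw [Function.iterate_succ_apply', h1, hjk, h2]
          congr 2
          push_cast
          ring
      have hlet : ∀ k, k < n → ∀ (t : ℕ) (ht : t < w.length),
          w[t] = s (j + ((k * w.length : ℕ) : ZMod m) + (t : ZMod m)) := by
        intro k hk t ht
        have h1 := hall k (by omega)
        have h2 := hall (k + 1) (by omega)
        rw [Function.iterate_succ_apply', h1] at h2
        exact (bd_runT s w _ _ h2).1 t ht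
      have hzero : ((n * w.length : ℕ) : ZMod m) = 0 := by
        have h1 := hall n le_rfl
        rw [hq] at h1
        have h3 : j = j + ((n * w.length : ℕ) : ZMod m) := (Prod.mk.inj (Option.some.inj h1)).1
        have := h3.symm
        simpa using this
      have hdvd : m ∣ n * w.length := (ZMod.natCast_eq_zero_iff _ _).mp hzero
      have hmle : m ≤ n * w.length := Nat.le_of_dvd (Nat.mul_pos hn hlen) hdvd
      have hper : ∀ i : ZMod m, s (i + (w.length : ZMod m)) = s i := by
        intro i
        obtain ⟨r, hr⟩ : ∃ r : ℕ, r = (i - j).val := ⟨_, rfl⟩
        have hrm : r < m := by
          rw [hr]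
          exact ZMod.val_lt _
        have hrn : r < n * w.length := lt_of_lt_of_le hrm hmle
        have hk : r / w.length < n := by
          apply Nat.div_lt_of_lt_mul
          rw [Nat.mul_comm]
          exact hrn
        have ht : r % w.length < w.length := Nat.mod_lt _ hlen
        have hrc : (r : ZMod m) = i - j := by
          rw [hr]
          exact ZMod.natCast_zmod_val _
        have e : r = (r / w.length) * w.length + r % w.length := by
          rw [Nat.mul_comm]
          exact (Nat.div_add_mod r w.length).symm
        have hi : j + (((r / w.length) * w.length : ℕ) : ZMod m) + ((r % w.length : ℕ) : ZMod m)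
            = i := by
          have e' : (((r / w.length) * w.length : ℕ) : ZMod m) + ((r % w.length : ℕ) : ZMod m)
              = (r : ZMod m) := by
            rw [← Nat.cast_add, ← e]
          rw [add_assoc, e', hrc]
          ring
        have h1 := hlet (r / w.length) hk (r % w.length) ht
        rw [hi] at h1
        by_cases hk' : r / w.length + 1 < n
        · have h2 := hlet (r / w.length + 1) hk' (r % w.length) ht
          have e2 : j + (((r / w.length + 1) * w.length : ℕ) : ZMod m)
              + ((r % w.length : ℕ) : ZMod m) = i + (w.length : ZMod m) := by
            rw [← hi]
            push_cast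
            ring
          rw [e2] at h2
          rw [← h2, h1]
        · have hkn : r / w.length + 1 = n := by omega
          have h2 := hlet 0 hn (r % w.length) ht
          have e2 : j + (((0 * w.length : ℕ)) : ZMod m) + ((r % w.length : ℕ) : ZMod m)
              = i + (w.length : ZMod m) := by
            have e3 : i + (w.length : ZMod m) = j + (((r / w.length + 1) * w.length : ℕ) : ZMod m)
                + ((r % w.length : ℕ) : ZMod m) := by
              rw [← hi]
              push_cast
              ring
            rw [e3, hkn, hzero]
            simp
          rw [e2] at h2
          rw [← h2, h1]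
      have hw0 : (w.length : ZMod m) = 0 := hprim _ hper
      have h1 := hall 1 (by omega)
      simp only [Function.iterate_one] at h1
      rw [h1]
      simp [hw0]

end blockdet

end Vale.Agent.Helper10
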