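import Vale.Agent.Helper10.OneBase

namespace Vale.Agent.Helper10

/-- A rank which never decreases, together with a projection onto a counter-free automaton
which commutes with the rank-preserving transitions and separates the states of equal rank,
makes an automaton counter-free. -/
theorem cf_of_proj {Q Q' α : Type} (δ : Q → α → Q) (δ' : Q' → α → Q') (rk : Q → ℕ)
    (π : Q → Q')
    (h1 : ∀ q a, rk q ≤ rk (δ q a))
    (h2 : ∀ q a, rk (δ q a) = rk q → π (δ q a) = δ' (π q) a)
    (h3 : ∀ q q', rk q = rk q' → π q = π q' → q = q')
    (hcf : CounterFree δ') : CounterFree δ := by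
  have hA : ∀ (w : List α) (q : Q), rk q ≤ rk (run δ q w) := by
    intro w
    induction w with
    | nil => intro q; exact le_rfl
    | cons a w ih => intro q; exact (h1 q a).trans (ih (δ q a))
  have hB : ∀ (w : List α) (q : Q), rk (run δ q w) = rk q →
      π (run δ q w) = run δ' (π q) w := by
    intro w
    induction w with
    | nil => intro q _; rfl
    | cons a w ih =>
      intro q hq
      rw [run_cons] at hq ⊢
      have e1 : rk (δ q a) = rk q :=
        le_antisymm (by rw [← hq]; exact hA w (δ q a)) (h1 q a)
      rw [ih (δ q a) (hq.trans e1.symm), h2 q a e1]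
      rfl
  intro w q n hn hq
  have hA' : ∀ (m : ℕ) (x : Q), rk x ≤ rk ((fun x => run δ x w)^[m] x) := by
    intro m
    induction m with
    | zero => intro x; exact le_rfl
    | succ m ih =>
      intro x
      rw [Function.iterate_succ_apply]
      exact (hA w x).trans (ih (run δ x w))
  have hD : ∀ (m : ℕ) (x : Q), rk ((fun x => run δ x w)^[m] x) = rk x →
      π ((fun x => run δ x w)^[m] x) = (fun x => run δ' x w)^[m] (π x) := by
    intro m
    induction m with
    | zero => intro x _; rfl
    | succ m ih =>
      intro x hx
      rw [Function.iterate_succ_apply] at hx ⊢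
      have e1 : rk (run δ x w) = rk x :=
        le_antisymm (by rw [← hx]; exact hA' m (run δ x w)) (hA w x)
      rw [ih (run δ x w) (hx.trans e1.symm), hB w x e1, Function.iterate_succ_apply]
  have hrk : rk ((fun x => run δ x w)^[n] q) = rk q := by rw [hq]
  have e1 : rk (run δ q w) = rk q := by
    obtain ⟨m, rfl⟩ : ∃ m, n = m + 1 := ⟨n - 1, by omega⟩
    rw [Function.iterate_succ_apply] at hrk
    exact le_antisymm (by rw [← hrk]; exact hA' m (run δ q w)) (hA w q)
  have e2 := hD n q hrk
  rw [hq] at e2
  have e3 := hcf w (π q) n hn e2.symm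
  exact h3 _ _ e1 ((hB w q e1).trans e3)

end Vale.Agent.Helper10
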