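import Vale.Agent.Helper10.SubwordPsum

namespace Vale.Agent.Helper10

/-- a property which only depends on finitely many finite-valued statistics all of whose
level sets have star height at most `h` has star height at most `h` -/
theorem HasGSH.of_list {α β : Type} [Finite β] {h : ℕ} (Fs : List (List α → β))
    (hF : ∀ F ∈ Fs, ∀ b, HasGSH h (fun w => F w = b)) (P : List α → Prop)
    (hP : ∀ w w', (∀ F ∈ Fs, F w = F w') → P w → P w') : HasGSH h P := by
  refine HasGSH.of_fun (fun (w : List α) (i : Fin Fs.length) => Fs.get i w)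
    (fun T => HasGSH.pi (fun (i : Fin Fs.length) (w : List α) => Fs.get i w)
      (fun i b => hF _ (List.get_mem Fs i) b) T) P ?_
  intro w w' hFw hw
  refine hP w w' (fun F hFm => ?_) hw
  obtain ⟨i, rfl⟩ := List.get_of_mem hFm
  exact congr_fun hFw i

theorem modeq_of_mul (q k k' a b : ℕ) (hk : k * k' = 6)
    (h : (k : ZMod (6 * q)) * (a : ZMod (6 * q)) = (k : ZMod (6 * q)) * (b : ZMod (6 * q))) :
    a ≡ b [MOD q] := by
  have h1 : ((k * a : ℕ) : ZMod (6 * q)) = ((k * b : ℕ) : ZMod (6 * q)) := by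
    push_cast
    exact h
  rw [ZMod.natCast_eq_natCast_iff] at h1
  have hk0 : k ≠ 0 := by
    rintro rfl
    simp at hk
  have e : 6 * q = k * (k' * q) := by rw [← hk]; ring
  rw [e] at h1
  have h2 := Nat.ModEq.mul_left_cancel' hk0 h1
  exact Nat.ModEq.of_mul_left k' h2

section final

variable {α : Type} [DecidableEq α]

theorem sw_gsh_of (u : List α) (q : ℕ) (k k' : ℕ) (hk : k * k' = 6)
    (Gs : List (List α → ZMod (6 * q)))
    (hG : ∀ G ∈ Gs, ∀ t, HasGSH 1 (fun w => G w = t))
    (hdet : ∀ w w', (∀ G ∈ Gs, G w = G w') →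
      (k : ZMod (6 * q)) * (sw u w : ZMod (6 * q)) = (k : ZMod (6 * q)) * (sw u w' : ZMod (6 * q)))
    (hq : 0 < q) (r : ℕ) : HasGSH 1 (fun w : List α => sw u w ≡ r [MOD q]) := by
  have : NeZero (6 * q) := ⟨by omega⟩
  refine HasGSH.of_list Gs hG _ ?_
  intro w w' hF hw
  exact (modeq_of_mul q k k' _ _ hk (hdet w w' hF)).symm.trans hw

variable [Finite α] (M : ℕ) [NeZero M]

theorem stN_gsh (a : α) (t : ZMod M) : HasGSH 1 (fun w : List α => stN M a w = t) :=
  psum_gsh M M (fun _ : α => False) (fun x => x = a) (fun _ _ h => h) _ 0 t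

theorem stId_gsh (a b : α) (hab : a ≠ b) (t : ZMod M) :
    HasGSH 1 (fun w : List α => stId M a b w = t) :=
  psum_gsh M M (fun x : α => x = a) (fun x => x = b)
    (fun _ hb ha => hab (ha.symm.trans hb)) _ 0 t

theorem stSq_gsh (a b : α) (hab : a ≠ b) (t : ZMod M) :
    HasGSH 1 (fun w : List α => stSq M a b w = t) :=
  psum_gsh M M (fun x : α => x = a) (fun x => x = b)
    (fun _ hb ha => hab (ha.symm.trans hb)) _ 0 t

theorem stSq2_gsh (a c b : α) (hab : a ≠ b) (hcb : c ≠ b) (t : ZMod M) :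
    HasGSH 1 (fun w : List α => stSq2 M a c b w = t) :=
  psum_gsh M M (fun x : α => x = a ∨ x = c) (fun x => x = b)
    (fun _ hb h => h.elim (fun ha => hab (ha.symm.trans hb)) (fun hc => hcb (hc.symm.trans hb)))
    _ 0 t

end final

section patterns

variable {α : Type} [DecidableEq α] [Finite α] (q : ℕ) (hq : 0 < q) (r : ℕ)

include hq

omit [Finite α] in
theorem sw_gsh_nil : HasGSH 1 (fun w : List α => sw [] w ≡ r [MOD q]) := by
  refine sw_gsh_of [] q 1 6 rfl [] (fun G hG => absurd hG (by simp)) ?_ hq r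
  intro w w' _
  rw [sw_nil, sw_nil]

theorem sw_gsh_a (a : α) : HasGSH 1 (fun w : List α => sw [a] w ≡ r [MOD q]) := by
  have : NeZero (6 * q) := ⟨by omega⟩
  refine sw_gsh_of [a] q 1 6 rfl [stN (6 * q) a] ?_ ?_ hq r
  · intro G hG t
    rw [List.mem_singleton] at hG
    rw [hG]
    exact stN_gsh (6 * q) a t
  · intro w w' h
    have h1 := h (stN (6 * q) a) (by simp)
    rw [stN_eq, stN_eq] at h1
    rw [sw_single, sw_single, h1]

theorem sw_gsh_aa (a : α) : HasGSH 1 (fun w : List α => sw [a, a] w ≡ r [MOD q]) := by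
  have : NeZero (6 * q) := ⟨by omega⟩
  refine sw_gsh_of [a, a] q 2 3 rfl [stN (6 * q) a] ?_ ?_ hq r
  · intro G hG t
    rw [List.mem_singleton] at hG
    rw [hG]
    exact stN_gsh (6 * q) a t
  · intro w w' h
    have h1 := h (stN (6 * q) a) (by simp)
    rw [stN_eq, stN_eq] at h1
    have e1 := sw_pair_self (R := ZMod (6 * q)) a w
    have e2 := sw_pair_self (R := ZMod (6 * q)) a w'
    push_cast
    rw [e1, e2, h1]

theorem sw_gsh_ab (a b : α) (hab : a ≠ b) :
    HasGSH 1 (fun w : List α => sw [a, b] w ≡ r [MOD q]) := by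
  have : NeZero (6 * q) := ⟨by omega⟩
  refine sw_gsh_of [a, b] q 1 6 rfl [stId (6 * q) a b] ?_ ?_ hq r
  · intro G hG t
    rw [List.mem_singleton] at hG
    rw [hG]
    exact stId_gsh (6 * q) a b hab t
  · intro w w' h
    have h1 := h (stId (6 * q) a b) (by simp)
    rw [stId_eq _ a b hab, stId_eq _ a b hab] at h1
    rw [h1]

theorem sw_gsh_aaa (a : α) : HasGSH 1 (fun w : List α => sw [a, a, a] w ≡ r [MOD q]) := by
  have : NeZero (6 * q) := ⟨by omega⟩
  refine sw_gsh_of [a, a, a] q 6 1 rfl [stN (6 * q) a] ?_ ?_ hq r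
  · intro G hG t
    rw [List.mem_singleton] at hG
    rw [hG]
    exact stN_gsh (6 * q) a t
  · intro w w' h
    have h1 := h (stN (6 * q) a) (by simp)
    rw [stN_eq, stN_eq] at h1
    have e1 := sw_triple_self (R := ZMod (6 * q)) a w
    have e2 := sw_triple_self (R := ZMod (6 * q)) a w'
    push_cast
    rw [e1, e2, h1]

theorem sw_gsh_aab (a b : α) (hab : a ≠ b) :
    HasGSH 1 (fun w : List α => sw [a, a, b] w ≡ r [MOD q]) := by
  have : NeZero (6 * q) := ⟨by omega⟩
  refine sw_gsh_of [a, a, b] q 2 3 rfl [stId (6 * q) a b, stSq (6 * q) a b] ?_ ?_ hq r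
  · intro G hG t
    simp only [List.mem_cons, List.mem_nil_iff, or_false] at hG
    rcases hG with rfl | rfl
    · exact stId_gsh (6 * q) a b hab t
    · exact stSq_gsh (6 * q) a b hab t
  · intro w w' h
    have h1 := h (stId (6 * q) a b) (by simp)
    have h2 := h (stSq (6 * q) a b) (by simp)
    rw [stId_eq _ a b hab, stId_eq _ a b hab] at h1
    rw [stSq_eq _ a b hab, stSq_eq _ a b hab] at h2
    push_cast
    linear_combination h2 - h1

theorem sw_gsh_aba (a b : α) (hab : a ≠ b) :
    HasGSH 1 (fun w : List α => sw [a, b, a] w ≡ r [MOD q]) := by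
  have : NeZero (6 * q) := ⟨by omega⟩
  refine sw_gsh_of [a, b, a] q 1 6 rfl
    [stN (6 * q) a, stId (6 * q) a b, stSq (6 * q) a b] ?_ ?_ hq r
  · intro G hG t
    simp only [List.mem_cons, List.mem_nil_iff, or_false] at hG
    rcases hG with rfl | rfl | rfl
    · exact stN_gsh (6 * q) a t
    · exact stId_gsh (6 * q) a b hab t
    · exact stSq_gsh (6 * q) a b hab t
  · intro w w' h
    have h0 := h (stN (6 * q) a) (by simp)
    have h1 := h (stId (6 * q) a b) (by simp)
    have h2 := h (stSq (6 * q) a b) (by simp)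
    rw [stN_eq, stN_eq] at h0
    rw [stId_eq _ a b hab, stId_eq _ a b hab] at h1
    rw [stSq_eq _ a b hab, stSq_eq _ a b hab] at h2
    have e1 := sw_aba (R := ZMod (6 * q)) a b hab w
    have e2 := sw_aba (R := ZMod (6 * q)) a b hab w'
    push_cast
    linear_combination e2 - e1 + (List.count a w' : ZMod (6 * q)) * h1
      + (sw [a, b] w : ZMod (6 * q)) * h0 - h2

theorem sw_gsh_abb (a b : α) (hab : a ≠ b) :
    HasGSH 1 (fun w : List α => sw [a, b, b] w ≡ r [MOD q]) := by
  have : NeZero (6 * q) := ⟨by omega⟩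
  have hba : b ≠ a := fun h => hab h.symm
  refine sw_gsh_of [a, b, b] q 2 3 rfl
    [stN (6 * q) a, stN (6 * q) b, stId (6 * q) b a, stSq (6 * q) b a] ?_ ?_ hq r
  · intro G hG t
    simp only [List.mem_cons, List.mem_nil_iff, or_false] at hG
    rcases hG with rfl | rfl | rfl | rfl
    · exact stN_gsh (6 * q) a t
    · exact stN_gsh (6 * q) b t
    · exact stId_gsh (6 * q) b a hba t
    · exact stSq_gsh (6 * q) b a hba t
  · intro w w' h
    have h0 := h (stN (6 * q) a) (by simp)
    have h0' := h (stN (6 * q) b) (by simp)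
    have h1 := h (stId (6 * q) b a) (by simp)
    have h2 := h (stSq (6 * q) b a) (by simp)
    rw [stN_eq, stN_eq] at h0 h0'
    rw [stId_eq _ b a hba, stId_eq _ b a hba] at h1
    rw [stSq_eq _ b a hba, stSq_eq _ b a hba] at h2
    have e1 := sw_abb (R := ZMod (6 * q)) a b hab w
    have e2 := sw_abb (R := ZMod (6 * q)) a b hab w'
    push_cast
    rw [← e1, ← e2, h0, h0', h1]
    linear_combination h2 - h1

theorem sw_gsh_abc (a b c : α) (hab : a ≠ b) (hac : a ≠ c) (hbc : b ≠ c) :
    HasGSH 1 (fun w : List α => sw [a, b, c] w ≡ r [MOD q]) := by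
  have : NeZero (6 * q) := ⟨by omega⟩
  have hcb : c ≠ b := fun h => hbc h.symm
  refine sw_gsh_of [a, b, c] q 2 3 rfl
    [stN (6 * q) c, stId (6 * q) a b, stSq2 (6 * q) a c b, stSq (6 * q) a b,
      stSq (6 * q) c b] ?_ ?_ hq r
  · intro G hG t
    simp only [List.mem_cons, List.mem_nil_iff, or_false] at hG
    rcases hG with rfl | rfl | rfl | rfl | rfl
    · exact stN_gsh (6 * q) c t
    · exact stId_gsh (6 * q) a b hab t
    · exact stSq2_gsh (6 * q) a c b hab hcb t
    · exact stSq_gsh (6 * q) a b hab t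
    · exact stSq_gsh (6 * q) c b hcb t
  · intro w w' h
    have h0 := h (stN (6 * q) c) (by simp)
    have h1 := h (stId (6 * q) a b) (by simp)
    have h2 := h (stSq2 (6 * q) a c b) (by simp)
    have h3 := h (stSq (6 * q) a b) (by simp)
    have h4 := h (stSq (6 * q) c b) (by simp)
    rw [stN_eq, stN_eq] at h0
    rw [stId_eq _ a b hab, stId_eq _ a b hab] at h1
    rw [stSq2_eq _ a c b hab hac hcb, stSq2_eq _ a c b hab hac hcb] at h2
    rw [stSq_eq _ a b hab, stSq_eq _ a b hab] at h3
    rw [stSq_eq _ c b hcb, stSq_eq _ c b hcb] at h4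
    have e1 := sw_shuffle3 (R := ZMod (6 * q)) a b c hac hbc w
    have e2 := sw_shuffle3 (R := ZMod (6 * q)) a b c hac hbc w'
    push_cast
    linear_combination 2 * e2 - 2 * e1 + 2 * (List.count c w' : ZMod (6 * q)) * h1
      + 2 * (sw [a, b] w : ZMod (6 * q)) * h0 - h2 + h3 + h4

/-- counting modulo `q` the occurrences of a word of length at most three as a scattered
subword gives a language of star height at most one -/
theorem sw_gsh (u : List α) (hu : u.length ≤ 3) :
    HasGSH 1 (fun w : List α => sw u w ≡ r [MOD q]) := by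
  match u, hu with
  | [], _ => exact sw_gsh_nil q hq r
  | [a], _ => exact sw_gsh_a q hq r a
  | [a, b], _ =>
    by_cases hab : a = b
    · subst hab
      exact sw_gsh_aa q hq r a
    · exact sw_gsh_ab q hq r a b hab
  | [a, b, c], _ =>
    by_cases hab : a = b
    · subst hab
      by_cases hac : a = c
      · subst hac
        exact sw_gsh_aaa q hq r a
      · exact sw_gsh_aab q hq r a c hac
    · by_cases hbc : b = c
      · subst hbc
        exact sw_gsh_abb q hq r a b hab
      · by_cases hac : a = c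
        · subst hac
          exact sw_gsh_aba q hq r a b hab
        · exact sw_gsh_abc q hq r a b c hab hac hbc
  | _ :: _ :: _ :: _ :: _, h => exact absurd h (by simp)

end patterns

end Vale.Agent.Helper10
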