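import Vale.Agent.Helper10.Taylor
import Vale.Agent.Helper10.SubwordFinal

namespace Vale.Agent.Helper10

section filt

variable {α : Type} [DecidableEq α]

theorem sw_filter (p : α → Bool) : ∀ (w u : List α),
    sw u (w.filter p) = if (∀ x ∈ u, p x = true) then sw u w else 0 := by
  intro w
  induction w with
  | nil =>
    intro u
    cases u with
    | nil => simp [sw_nil]
    | cons y u => simp [sw_cons_nil]
  | cons x w ih =>
    intro u
    cases u with
    | nil => simp [sw_nil]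
    | cons y u =>
      by_cases hx : p x = true
      · rw [List.filter_cons_of_pos hx, sw_cons_cons, ih, ih]
        by_cases hall : ∀ z ∈ y :: u, p z = true
        · have hu : ∀ z ∈ u, p z = true := fun z hz => hall z (List.mem_cons_of_mem _ hz)
          rw [if_pos hall, if_pos hu, if_pos hall, sw_cons_cons]
        · rw [if_neg hall, if_neg hall]
          by_cases hxy : x = y
          · have hu : ¬ ∀ z ∈ u, p z = true := by
              intro hu
              apply hall
              intro z hz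
              rcases List.mem_cons.1 hz with rfl | hz
              · rw [← hxy]; exact hx
              · exact hu z hz
            rw [if_pos hxy, if_neg hu]
          · rw [if_neg hxy]
      · rw [List.filter_cons_of_neg hx, ih]
        by_cases hall : ∀ z ∈ y :: u, p z = true
        · rw [if_pos hall, if_pos hall, sw_cons_cons]
          have hxy : ¬ x = y := by
            intro hxy
            apply hx
            rw [hxy]
            exact hall y (by simp)
          rw [if_neg hxy, add_zero]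
        · rw [if_neg hall, if_neg hall]

end filt

section class3

variable {G : Type} [Group G] {α : Type} [DecidableEq α] (f : α → G) (a : α)

/-- the product of the letters of `w` other than `a` -/
def fRest (w : List α) : G := ((w.filter (fun x => decide (x ≠ a))).map f).prod

/-- the correction term of the extraction of the letter `a` -/
def zG : List α → G
  | [] => 1
  | x :: w => f x * zG w * (f x)⁻¹ * (if x = a then f a * fRest f a w * (f a)⁻¹ * (fRest f a w)⁻¹ else 1)

theorem fRest_cons_self (w : List α) : fRest f a (a :: w) = fRest f a w := by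
  unfold fRest
  rw [List.filter_cons_of_neg (by simp)]

theorem fRest_cons_ne (x : α) (hx : x ≠ a) (w : List α) :
    fRest f a (x :: w) = f x * fRest f a w := by
  unfold fRest
  rw [List.filter_cons_of_pos (by simpa using hx), List.map_cons, List.prod_cons]

/-- extraction of the letter `a` -/
theorem extract (w : List α) :
    (w.map f).prod = zG f a w * fRest f a w * f a ^ (List.count a w) := by
  induction w with
  | nil => simp [zG, fRest]
  | cons x w ih =>
    rw [List.map_cons, List.prod_cons, ih]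
    by_cases hx : x = a
    · subst hx
      rw [fRest_cons_self, List.count_cons_self, pow_succ']
      simp only [zG, if_true]
      group
    · rw [fRest_cons_ne f a x hx, List.count_cons_of_ne (fun h => hx h)]
      simp only [zG, if_neg hx]
      group

end class3

section generic

variable {G : Type} [Group G]

theorem comm_mul_aux (x k k' : G)
    (h : (x * k' * x⁻¹ * k'⁻¹) * k⁻¹ = k⁻¹ * (x * k' * x⁻¹ * k'⁻¹)) :
    x * (k * k') * x⁻¹ * (k * k')⁻¹ = (x * k * x⁻¹ * k⁻¹) * (x * k' * x⁻¹ * k'⁻¹) := by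
  calc x * (k * k') * x⁻¹ * (k * k')⁻¹
      = (x * k * x⁻¹) * ((x * k' * x⁻¹ * k'⁻¹) * k⁻¹) := by group
    _ = (x * k * x⁻¹) * (k⁻¹ * (x * k' * x⁻¹ * k'⁻¹)) := by rw [h]
    _ = (x * k * x⁻¹ * k⁻¹) * (x * k' * x⁻¹ * k'⁻¹) := by group

theorem comm_step_aux (g y R : G)
    (h1 : (g * y * g⁻¹ * y⁻¹) * (g * R * g⁻¹ * R⁻¹) = (g * R * g⁻¹ * R⁻¹) * (g * y * g⁻¹ * y⁻¹))
    (h2 : (y * (g * R * g⁻¹ * R⁻¹) * y⁻¹ * (g * R * g⁻¹ * R⁻¹)⁻¹) * (g * R * g⁻¹ * R⁻¹)
      = (g * R * g⁻¹ * R⁻¹) * (y * (g * R * g⁻¹ * R⁻¹) * y⁻¹ * (g * R * g⁻¹ * R⁻¹)⁻¹)) :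
    g * (y * R) * g⁻¹ * (y * R)⁻¹ = (g * R * g⁻¹ * R⁻¹) * ((g * y * g⁻¹ * y⁻¹)
      * (y * (g * R * g⁻¹ * R⁻¹) * y⁻¹ * (g * R * g⁻¹ * R⁻¹)⁻¹)) := by
  calc g * (y * R) * g⁻¹ * (y * R)⁻¹
      = (g * y * g⁻¹ * y⁻¹) * ((y * (g * R * g⁻¹ * R⁻¹) * y⁻¹ * (g * R * g⁻¹ * R⁻¹)⁻¹)
          * (g * R * g⁻¹ * R⁻¹)) := by group
    _ = (g * y * g⁻¹ * y⁻¹) * ((g * R * g⁻¹ * R⁻¹)
          * (y * (g * R * g⁻¹ * R⁻¹) * y⁻¹ * (g * R * g⁻¹ * R⁻¹)⁻¹)) := by rw [h2]
    _ = ((g * y * g⁻¹ * y⁻¹) * (g * R * g⁻¹ * R⁻¹))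
          * (y * (g * R * g⁻¹ * R⁻¹) * y⁻¹ * (g * R * g⁻¹ * R⁻¹)⁻¹) := by
      simp only [mul_assoc]
    _ = ((g * R * g⁻¹ * R⁻¹) * (g * y * g⁻¹ * y⁻¹))
          * (y * (g * R * g⁻¹ * R⁻¹) * y⁻¹ * (g * R * g⁻¹ * R⁻¹)⁻¹) := by rw [h1]
    _ = _ := by simp only [mul_assoc]

theorem comm_conj_aux (x z : G) (h : (x * z * x⁻¹ * z⁻¹) * z = z * (x * z * x⁻¹ * z⁻¹)) :
    z * (x * z * x⁻¹ * z⁻¹) = x * z * x⁻¹ := by
  rw [← h]
  group

theorem comm_triv_aux (x c : G) (h : c * x = x * c) : x * c * x⁻¹ * c⁻¹ = 1 := by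
  rw [← h]
  group

end generic

section kpart

variable {G : Type} [Group G] {α : Type} [DecidableEq α] (f : α → G) (a : α)
  (K : Subgroup G) [K.Normal]
  (hcomm : ∀ x y : G, x * y * x⁻¹ * y⁻¹ ∈ K)
  (hab : ∀ k ∈ K, ∀ k' ∈ K, k * k' = k' * k)
  (hcen : ∀ k ∈ K, ∀ x t : G, (x * k * x⁻¹ * k⁻¹) * t = t * (x * k * x⁻¹ * k⁻¹))

include hcomm in
theorem zG_mem (w : List α) : zG f a w ∈ K := by
  induction w with
  | nil => exact K.one_mem
  | cons x w ih =>
    show f x * zG f a w * (f x)⁻¹ * _ ∈ K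
    refine K.mul_mem (Subgroup.Normal.conj_mem inferInstance _ ih _) ?_
    by_cases hx : x = a
    · rw [if_pos hx]
      exact hcomm _ _
    · rw [if_neg hx]
      exact K.one_mem

include hcomm hab hcen in
/-- the correction term only depends on the numbers of occurrences of the subwords of length
at most three -/
theorem zG_congr (e : ℕ) (he : ∀ x : G, x ^ e = 1) (w w' : List α)
    (h : ∀ u : List α, u.length ≤ 3 → sw u w ≡ sw u w' [MOD e]) :
    zG f a w = zG f a w' := by
  let iK : CommGroup K :=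
    { (inferInstance : Group K) with
      mul_comm := fun k k' => Subtype.ext (hab k k.2 k' k'.2) }
  have hmul : ∀ (x : G) (k k' : G), k ∈ K → k' ∈ K →
      x * (k * k') * x⁻¹ * (k * k')⁻¹ = (x * k * x⁻¹ * k⁻¹) * (x * k' * x⁻¹ * k'⁻¹) :=
    fun x k k' _ hk' => comm_mul_aux x k k' (hcen k' hk' x k⁻¹)
  let D : α → K →* K := fun x =>
    { toFun := fun k => ⟨f x * k * (f x)⁻¹ * (k : G)⁻¹, hcomm _ _⟩
      map_one' := Subtype.ext (by simp)
      map_mul' := fun k k' => Subtype.ext (hmul (f x) k k' k.2 k'.2) }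
  let c : α → K := fun y => ⟨f a * f y * (f a)⁻¹ * (f y)⁻¹, hcomm _ _⟩
  let κ : List α → K := fun v =>
    ⟨f a * fRest f a v * (f a)⁻¹ * (fRest f a v)⁻¹, hcomm _ _⟩
  let Z : List α → K := fun v => ⟨zG f a v, zG_mem f a K hcomm v⟩
  have hD : ∀ x y k, D x (D y k) = 1 := by
    intro x y k
    apply Subtype.ext
    exact comm_triv_aux (f x) (f y * k * (f y)⁻¹ * (k : G)⁻¹) (hcen k k.2 (f y) (f x))
  have hκ : ∀ y v, κ (y :: v) = κ v * (if y = a then 1 else c y * D y (κ v)) := by
    intro y v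
    by_cases hy : y = a
    · rw [if_pos hy, mul_one]
      apply Subtype.ext
      show f a * fRest f a (y :: v) * (f a)⁻¹ * (fRest f a (y :: v))⁻¹ = _
      rw [hy, fRest_cons_self]
    · rw [if_neg hy]
      apply Subtype.ext
      show f a * fRest f a (y :: v) * (f a)⁻¹ * (fRest f a (y :: v))⁻¹
        = (f a * fRest f a v * (f a)⁻¹ * (fRest f a v)⁻¹)
          * ((f a * f y * (f a)⁻¹ * (f y)⁻¹)
            * (f y * (f a * fRest f a v * (f a)⁻¹ * (fRest f a v)⁻¹) * (f y)⁻¹
              * (f a * fRest f a v * (f a)⁻¹ * (fRest f a v)⁻¹)⁻¹))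
      rw [fRest_cons_ne f a y hy]
      exact comm_step_aux (f a) (f y) (fRest f a v)
        (hab _ (hcomm (f a) (f y)) _ (hcomm (f a) (fRest f a v)))
        (hcen _ (hcomm (f a) (fRest f a v)) (f y)
          (f a * fRest f a v * (f a)⁻¹ * (fRest f a v)⁻¹))
  have hZ : ∀ x v, Z (x :: v) = Z v * D x (Z v) * (if x = a then κ v else 1) := by
    intro x v
    have e1 : Z v * D x (Z v) = ⟨f x * zG f a v * (f x)⁻¹, Subgroup.Normal.conj_mem inferInstance _
        (zG_mem f a K hcomm v) _⟩ := by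
      apply Subtype.ext
      exact comm_conj_aux (f x) (zG f a v)
        (hcen _ (zG_mem f a K hcomm v) (f x) (zG f a v))
    rw [e1]
    apply Subtype.ext
    by_cases hx : x = a
    · rw [if_pos hx]
      show zG f a (x :: v) = f x * zG f a v * (f x)⁻¹
        * (f a * fRest f a v * (f a)⁻¹ * (fRest f a v)⁻¹)
      simp only [zG, if_pos hx]
    · rw [if_neg hx]
      show zG f a (x :: v) = f x * zG f a v * (f x)⁻¹ * 1
      simp only [zG, if_neg hx]
  have hdeg := deg_extract a D hD c κ Z hκ hZ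
  have key := taylor Z 3 e hdeg
    (fun k => Subtype.ext (by rw [Subgroup.coe_pow, he]; rfl)) w w' h
  exact congrArg Subtype.val key

end kpart

end Vale.Agent.Helper10
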