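import Vale.Agent.Helper10.Class3

namespace Vale.Agent.Helper10

section main

variable {G : Type} [Group G] {α : Type} [DecidableEq α] (f : α → G)
  (K : Subgroup G) [K.Normal]
  (hcomm : ∀ x y : G, x * y * x⁻¹ * y⁻¹ ∈ K)
  (hab : ∀ k ∈ K, ∀ k' ∈ K, k * k' = k' * k)
  (hcen : ∀ k ∈ K, ∀ x t : G, (x * k * x⁻¹ * k⁻¹) * t = t * (x * k * x⁻¹ * k⁻¹))

include hcomm hab hcen in
theorem class3_aux (e : ℕ) (he : ∀ x : G, x ^ e = 1) : ∀ (S : Finset α) (w w' : List α),
    (∀ x ∈ w, x ∈ S) → (∀ x ∈ w', x ∈ S) →
    (∀ u : List α, u.length ≤ 3 → sw u w ≡ sw u w' [MOD e]) →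
    (w.map f).prod = (w'.map f).prod := by
  intro S
  induction S using Finset.induction_on with
  | empty =>
    intro w w' hw hw' _
    have e1 : w = [] := List.eq_nil_iff_forall_not_mem.2 (fun x hx => by simpa using hw x hx)
    have e2 : w' = [] := List.eq_nil_iff_forall_not_mem.2 (fun x hx => by simpa using hw' x hx)
    rw [e1, e2]
  | insert a S ha ih =>
    intro w w' hw hw' h
    rw [extract f a w, extract f a w']
    have h1 : zG f a w = zG f a w' := zG_congr f a K hcomm hab hcen e he w w' h
    have hmem : ∀ v : List α, (∀ x ∈ v, x ∈ insert a S) →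
        ∀ x ∈ v.filter (fun x => decide (x ≠ a)), x ∈ S := by
      intro v hv x hx
      rw [List.mem_filter] at hx
      have h2 := hv x hx.1
      rw [Finset.mem_insert] at h2
      rcases h2 with h2 | h2
      · exact absurd h2 (by simpa using hx.2)
      · exact h2
    have h2 : fRest f a w = fRest f a w' := by
      unfold fRest
      refine ih _ _ (hmem w hw) (hmem w' hw') ?_
      intro u hu
      rw [sw_filter, sw_filter]
      by_cases hall : ∀ x ∈ u, decide (x ≠ a) = true
      · rw [if_pos hall, if_pos hall]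
        exact h u hu
      · rw [if_neg hall, if_neg hall]
    have h3 : f a ^ List.count a w = f a ^ List.count a w' := by
      have h4 := h [a] (by simp)
      rw [sw_single, sw_single] at h4
      rw [pow_eq_pow_mod _ (he _), pow_eq_pow_mod (List.count a w') (he _)]
      exact congrArg _ h4
    rw [h1, h2, h3]

end main

/-- In a finite nilpotent group of class at most three, the product of the images of the
letters of a word only depends on the numbers, modulo the order of the group, of
occurrences of the subwords of length at most three. -/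
theorem class3_prod {G : Type} [Group G] [Finite G] [hG : Group.IsNilpotent G]
    (hc : Group.nilpotencyClass G ≤ 3) {α : Type} [DecidableEq α] [Fintype α] (f : α → G)
    (w w' : List α)
    (h : ∀ u : List α, u.length ≤ 3 → sw u w ≡ sw u w' [MOD Nat.card G]) :
    (w.map f).prod = (w'.map f).prod := by
  have h3 : Subgroup.lowerCentralSeries (⊤ : Subgroup G) 3 = ⊥ :=
    Subgroup.lowerCentralSeries_eq_bot_iff_nilpotencyClass_le.2 hc
  have h3' : ⁅⁅Subgroup.lowerCentralSeries (⊤ : Subgroup G) 1, (⊤ : Subgroup G)⁆,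
      (⊤ : Subgroup G)⁆ = ⊥ := h3
  have hcomm : ∀ x y : G, x * y * x⁻¹ * y⁻¹ ∈ Subgroup.lowerCentralSeries (⊤ : Subgroup G) 1 :=
    fun x y => Subgroup.commutator_mem_commutator (Subgroup.mem_top x) (Subgroup.mem_top y)
  have hKK : ⁅Subgroup.lowerCentralSeries (⊤ : Subgroup G) 1,
      Subgroup.lowerCentralSeries (⊤ : Subgroup G) 1⁆ = ⊥ := by
    have h1 : ⁅⁅(⊤ : Subgroup G), Subgroup.lowerCentralSeries (⊤ : Subgroup G) 1⁆,
        (⊤ : Subgroup G)⁆ = ⊥ := by
      rw [Subgroup.commutator_comm (⊤ : Subgroup G)]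
      exact h3'
    exact Subgroup.commutator_commutator_eq_bot_of_rotate h1 h3'
  have hab : ∀ k ∈ Subgroup.lowerCentralSeries (⊤ : Subgroup G) 1,
      ∀ k' ∈ Subgroup.lowerCentralSeries (⊤ : Subgroup G) 1, k * k' = k' * k := by
    intro k hk k' hk'
    have h1 := Subgroup.commutator_eq_bot_iff_le_centralizer.1 hKK hk
    exact (Subgroup.mem_centralizer_iff.1 h1 k' hk').symm
  have hcen : ∀ k ∈ Subgroup.lowerCentralSeries (⊤ : Subgroup G) 1, ∀ x t : G,
      (x * k * x⁻¹ * k⁻¹) * t = t * (x * k * x⁻¹ * k⁻¹) := by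
    intro k hk x t
    have h1 : k * x * k⁻¹ * x⁻¹ ∈ ⁅Subgroup.lowerCentralSeries (⊤ : Subgroup G) 1,
        (⊤ : Subgroup G)⁆ := Subgroup.commutator_mem_commutator hk (Subgroup.mem_top x)
    have h2 : x * k * x⁻¹ * k⁻¹ ∈ ⁅Subgroup.lowerCentralSeries (⊤ : Subgroup G) 1,
        (⊤ : Subgroup G)⁆ := by
      have e : x * k * x⁻¹ * k⁻¹ = (k * x * k⁻¹ * x⁻¹)⁻¹ := by group
      rw [e]
      exact Subgroup.inv_mem _ h1
    have h4 := Subgroup.commutator_eq_bot_iff_le_centralizer.1 h3' h2
    exact (Subgroup.mem_centralizer_iff.1 h4 t (Subgroup.mem_top t)).symm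
  exact class3_aux f (Subgroup.lowerCentralSeries (⊤ : Subgroup G) 1) hcomm hab hcen
    (Nat.card G) (fun x => pow_card_eq_one') Finset.univ w w'
    (fun x _ => Finset.mem_univ x) (fun x _ => Finset.mem_univ x) h

/-- every language recognised by a finite nilpotent group of class at most three has star
height at most one -/
theorem class3_gsh {G : Type} [Group G] [Finite G] [hG : Group.IsNilpotent G]
    (hc : Group.nilpotencyClass G ≤ 3) {α : Type} [Fintype α] (f : α → G) (T : Set G) :
    HasGSH 1 (fun w : List α => (w.map f).prod ∈ T) := by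
  classical
  have hN : 0 < Nat.card G := Nat.card_pos
  have : NeZero (Nat.card G) := ⟨hN.ne'⟩
  have hfin : Finite {u : List α // u.length ≤ 3} := List.finite_length_le α 3
  refine HasGSH.of_fun
    (fun (w : List α) (u : {u : List α // u.length ≤ 3}) => ((sw u.1 w : ℕ) : ZMod (Nat.card G)))
    (fun B => HasGSH.pi _ (fun u b => ?_) B) _ ?_
  · refine (sw_gsh (Nat.card G) hN b.val u.1 u.2).congr (fun w => ?_)
    rw [← ZMod.natCast_eq_natCast_iff, ZMod.natCast_zmod_val]
  · intro w w' hF hw
    have e : (w.map f).prod = (w'.map f).prod := by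
      refine class3_prod hc f w w' (fun u hu => ?_)
      have := congr_fun hF ⟨u, hu⟩
      exact (ZMod.natCast_eq_natCast_iff _ _ _).1 this
    rw [← e]
    exact hw

end Vale.Agent.Helper10
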