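import Vale.Agent.Helper10.GRE

namespace Vale.Agent.Helper10

variable {α : Type}

/-- The set of words satisfying `p` is denoted by an expression of star height at most `h`. -/
def HasGSH (h : ℕ) (p : List α → Prop) : Prop :=
  ∃ e : GRE α, e.height ≤ h ∧ ∀ w : List α, w ∈ e.lang ↔ p w

namespace HasGSH

theorem congr {h : ℕ} {p q : List α → Prop} (hp : HasGSH h p) (hpq : ∀ w, p w ↔ q w) :
    HasGSH h q := by
  obtain ⟨e, he, hl⟩ := hp
  exact ⟨e, he, fun w => (hl w).trans (hpq w)⟩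

theorem mono {h h' : ℕ} {p : List α → Prop} (hp : HasGSH h p) (hh : h ≤ h') : HasGSH h' p := by
  obtain ⟨e, he, hl⟩ := hp
  exact ⟨e, he.trans hh, hl⟩

theorem false_ (h : ℕ) : HasGSH h (fun _ : List α => False) :=
  ⟨GRE.zero, Nat.zero_le _, fun w => by simp [GRE.lang]⟩

theorem nil (h : ℕ) : HasGSH h (fun w : List α => w = []) :=
  ⟨GRE.one, Nat.zero_le _, fun w => by simp [GRE.lang, Language.mem_one]⟩

theorem single (h : ℕ) (a : α) : HasGSH h (fun w : List α => w = [a]) :=
  ⟨GRE.letter a, Nat.zero_le _, fun w => by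
    show w ∈ ({[a]} : Language α) ↔ w = [a]
    exact Iff.rfl⟩

theorem or {h : ℕ} {p q : List α → Prop} (hp : HasGSH h p) (hq : HasGSH h q) :
    HasGSH h (fun w => p w ∨ q w) := by
  obtain ⟨e, he, hl⟩ := hp
  obtain ⟨f, hf, hm⟩ := hq
  refine ⟨GRE.plus e f, by simp [GRE.height, he, hf], fun w => ?_⟩
  simp only [GRE.lang, Language.mem_add, hl, hm]

theorem not {h : ℕ} {p : List α → Prop} (hp : HasGSH h p) : HasGSH h (fun w => ¬ p w) := by
  obtain ⟨e, he, hl⟩ := hp
  refine ⟨GRE.compl e, by simpa [GRE.height] using he, fun w => ?_⟩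
  show w ∈ (e.lang)ᶜ ↔ ¬ p w
  rw [← hl w]
  exact Iff.rfl

theorem true_ (h : ℕ) : HasGSH h (fun _ : List α => True) :=
  ((false_ h).not).congr (fun _ => by simp)

theorem and {h : ℕ} {p q : List α → Prop} (hp : HasGSH h p) (hq : HasGSH h q) :
    HasGSH h (fun w => p w ∧ q w) :=
  ((hp.not.or hq.not).not).congr (fun w => by tauto)

theorem const (h : ℕ) (c : Prop) : HasGSH h (fun _ : List α => c) := by
  by_cases hc : c
  · exact (true_ h).congr (fun _ => by simp [hc])
  · exact (false_ h).congr (fun _ => by simp [hc])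

theorem cat {h : ℕ} {p q : List α → Prop} (hp : HasGSH h p) (hq : HasGSH h q) :
    HasGSH h (fun w => ∃ u v, w = u ++ v ∧ p u ∧ q v) := by
  obtain ⟨e, he, hl⟩ := hp
  obtain ⟨f, hf, hm⟩ := hq
  refine ⟨GRE.cat e f, by simp [GRE.height, he, hf], fun w => ?_⟩
  simp only [GRE.lang, Language.mem_mul]
  constructor
  · rintro ⟨u, hu, v, hv, rfl⟩
    exact ⟨u, v, rfl, (hl u).1 hu, (hm v).1 hv⟩
  · rintro ⟨u, v, rfl, hu, hv⟩
    exact ⟨u, (hl u).2 hu, v, (hm v).2 hv, rfl⟩

theorem star {h : ℕ} {p : List α → Prop} (hp : HasGSH h p) :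
    HasGSH (h + 1) (fun w => ∃ L : List (List α), w = L.flatten ∧ ∀ y ∈ L, p y) := by
  obtain ⟨e, he, hl⟩ := hp
  refine ⟨GRE.star e, by simpa [GRE.height] using he, fun w => ?_⟩
  simp only [GRE.lang, Language.mem_kstar]
  constructor
  · rintro ⟨L, rfl, hL⟩
    exact ⟨L, rfl, fun y hy => (hl y).1 (hL y hy)⟩
  · rintro ⟨L, rfl, hL⟩
    exact ⟨L, rfl, fun y hy => (hl y).2 (hL y hy)⟩

theorem exists_finset {ι : Type} {h : ℕ} (s : Finset ι) (p : ι → List α → Prop)
    (hp : ∀ i ∈ s, HasGSH h (p i)) : HasGSH h (fun w => ∃ i ∈ s, p i w) := by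
  classical
  induction s using Finset.induction_on with
  | empty => exact (false_ h).congr (fun w => by simp)
  | insert a s _ ih =>
    have h1 := hp a (Finset.mem_insert_self a s)
    have h2 := ih (fun i hi => hp i (Finset.mem_insert_of_mem hi))
    exact (h1.or h2).congr (fun w => by simp)

theorem exists_ {ι : Type} [Finite ι] {h : ℕ} (p : ι → List α → Prop)
    (hp : ∀ i, HasGSH h (p i)) : HasGSH h (fun w => ∃ i, p i w) := by
  classical
  have := Fintype.ofFinite ι
  exact (exists_finset Finset.univ p (fun i _ => hp i)).congr (fun w => by simp)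

theorem forall_ {ι : Type} [Finite ι] {h : ℕ} (p : ι → List α → Prop)
    (hp : ∀ i, HasGSH h (p i)) : HasGSH h (fun w => ∀ i, p i w) :=
  ((exists_ (fun i w => ¬ p i w) (fun i => (hp i).not)).not).congr (fun w => by
    simp)

/-- words all of whose letters satisfy `P` -/
theorem letters [Finite α] (h : ℕ) (P : α → Prop) :
    HasGSH h (fun w : List α => ∀ a ∈ w, P a) := by
  have h1 : HasGSH h (fun w : List α => ∃ a : α, ∃ u v, w = u ++ v ∧ True ∧
      ∃ u' v', v = u' ++ v' ∧ (¬ P a ∧ u' = [a]) ∧ True) :=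
    exists_ _ (fun a => (true_ h).cat ((((const h (¬ P a)).and (single h a))).cat (true_ h)))
  refine h1.not.congr (fun w => ?_)
  constructor
  · intro hw a ha
    by_contra hP
    obtain ⟨u, v, rfl⟩ := List.append_of_mem ha
    exact hw ⟨a, u, a :: v, rfl, trivial, [a], v, rfl, ⟨hP, rfl⟩, trivial⟩
  · rintro hw ⟨a, u, v, rfl, -, u', v', rfl, ⟨hP, rfl⟩, -⟩
    exact hP (hw a (by simp))

end HasGSH

end Vale.Agent.Helper10
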