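import Vale.Agent.Helper10.Closure

namespace Vale.Agent.Helper10

/-- `cnt dg sp x c w`: read `w` from left to right with a running class which starts at `c`
and is increased by `dg a` at every letter `a`; the result is the number of letters
satisfying `sp` that are read while the running class equals `x`. -/
def cnt {α A : Type} [AddCommGroup A] [DecidableEq A] (dg : α → A) (sp : α → Prop)
    [DecidablePred sp] (x : A) : A → List α → ℕ
  | _, [] => 0
  | c, a :: w => (if sp a ∧ c = x then 1 else 0) + cnt dg sp x (c + dg a) w

namespace HasGSH

variable {α : Type}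

/-- a property which only depends on a finite-valued statistic all of whose level sets have
star height at most `h` has star height at most `h` -/
theorem of_fun {β : Type} [Finite β] {h : ℕ} (F : List α → β)
    (hF : ∀ b, HasGSH h (fun w => F w = b)) (P : List α → Prop)
    (hP : ∀ w w', F w = F w' → P w → P w') : HasGSH h P := by
  have h1 : HasGSH h (fun w : List α => ∃ b : β, (∃ w', F w' = b ∧ P w') ∧ F w = b) :=
    exists_ _ (fun b => (const h _).and (hF b))
  refine h1.congr (fun w => ?_)
  constructor
  · rintro ⟨b, ⟨w', hw', hPw'⟩, hw⟩
    exact hP w' w (hw'.trans hw.symm) hPw'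
  · intro hw
    exact ⟨F w, ⟨w, rfl, hw⟩, rfl⟩

/-- finitely many finite-valued statistics can be bundled -/
theorem pi {ι : Type} [Finite ι] {β : ι → Type} {h : ℕ} (F : ∀ i, List α → β i)
    (hF : ∀ i b, HasGSH h (fun w => F i w = b)) (T : ∀ i, β i) :
    HasGSH h (fun w => (fun i => F i w) = T) :=
  (forall_ (fun i w => F i w = T i) (fun i => hF i (T i))).congr
    (fun _ => funext_iff.symm)

end HasGSH

end Vale.Agent.Helper10
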