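import Mathlib

namespace Vale.Agent.Helper10

/-- Generalized regular expressions over an alphabet `α`: the constants `0` and `1`,
letters, union, concatenation, complement and Kleene star. -/
inductive GRE (α : Type) : Type
  | zero : GRE α
  | one : GRE α
  | letter : α → GRE α
  | plus : GRE α → GRE α → GRE α
  | cat : GRE α → GRE α → GRE α
  | compl : GRE α → GRE α
  | star : GRE α → GRE α

namespace GRE

variable {α : Type}

/-- The language denoted by a generalized regular expression
(complement is taken in the set of all words over `α`). -/
def lang : GRE α → Language α
  | zero => 0
  | one => 1
  | letter a => {[a]}
  | plus P Q => lang P + lang Q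
  | cat P Q => lang P * lang Q
  | compl P => (lang P)ᶜ
  | star P => KStar.kstar (lang P)

/-- The star height of a generalized regular expression. -/
def height : GRE α → ℕ
  | zero => 0
  | one => 0
  | letter _ => 0
  | plus P Q => max (height P) (height Q)
  | cat P Q => max (height P) (height Q)
  | compl P => height P
  | star P => height P + 1

end GRE

end Vale.Agent.Helper10
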