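import Vale.Agent.Helper10.PosDefs

/-!
# Statistics of an automaton with marked transitions

If the automaton in which the marked transitions lead to a sink is counter-free and all marked
transitions lead to one state, then every property of the pair (number of marked transitions
modulo `M`, state reached) has star height at most one.
-/

namespace Vale.Agent.Helper10

section gstat

variable {I α : Type} (δ : I → α → I) (bad : I → α → Bool) (i0 : I) (M : ℕ)

theorem gstat_gsh [Finite I] [Finite α] [NeZero M] (hcf : CounterFree (gOpt δ bad))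
    (h0 : ∀ i a, bad i a = true → δ i a = i0) (i : I) (P : ZMod M × I → Prop) :
    HasGSH 1 (fun w : List α => P ((bcount δ bad i w : ZMod M), run δ i w)) := by
  classical
  have hcf' := gStep_cf δ bad i0 M hcf
  refine HasGSH.of_fun (fun w : List α => run (gStep δ bad i0 M) ((0 : ZMod M), i) w) ?_ _ ?_
  · intro q
    exact one_base _ _ hcf' _ q
  · intro w w' hF hw
    rw [gStep_run δ bad i0 M h0, gStep_run δ bad i0 M h0] at hF
    simp only [zero_add] at hF
    rw [← hF]
    exact hw

theorem bcount_append (i : I) (u v : List α) :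
    bcount δ bad i (u ++ v) = bcount δ bad i u + bcount δ bad (run δ i u) v := by
  induction u generalizing i with
  | nil => simp [bcount]
  | cons a u ih =>
    rw [List.cons_append, bcount, bcount, ih, run_cons, add_assoc]

end gstat

/-- the class of integer statistics all of whose residues have star height at most one is
closed under sums -/
theorem Meas.add {α : Type} {F G : List α → ℤ} (hF : Meas F) (hG : Meas G) :
    Meas (fun w => F w + G w) := by
  intro e _ r
  have h1 : HasGSH 1 (fun w : List α => ∃ p : ZMod e × ZMod e, p.1 + p.2 = r ∧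
      (((F w : ℤ) : ZMod e) = p.1 ∧ ((G w : ℤ) : ZMod e) = p.2)) :=
    HasGSH.exists_ _ (fun p => (HasGSH.const 1 _).and ((hF e p.1).and (hG e p.2)))
  refine h1.congr (fun w => ?_)
  constructor
  · rintro ⟨p, hp, h1, h2⟩
    rw [Int.cast_add, h1, h2, hp]
  · intro h
    exact ⟨(((F w : ℤ) : ZMod e), ((G w : ℤ) : ZMod e)), by rw [← h, Int.cast_add], rfl, rfl⟩

theorem Meas.smul {α : Type} {F : List α → ℤ} (k : ℤ) (hF : Meas F) :
    Meas (fun w => k * F w) := by
  intro e _ r
  have h1 : HasGSH 1 (fun w : List α => ∃ p : ZMod e, (k : ZMod e) * p = r ∧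
      ((F w : ℤ) : ZMod e) = p) :=
    HasGSH.exists_ _ (fun p => (HasGSH.const 1 _).and (hF e p))
  refine h1.congr (fun w => ?_)
  constructor
  · rintro ⟨p, hp, h1⟩
    rw [Int.cast_mul, h1, hp]
  · intro h
    exact ⟨((F w : ℤ) : ZMod e), by rw [← h, Int.cast_mul], rfl⟩

theorem Meas.neg {α : Type} {F : List α → ℤ} (hF : Meas F) : Meas (fun w => - F w) := by
  have := hF.smul (-1)
  simpa using this

theorem Meas.sub {α : Type} {F G : List α → ℤ} (hF : Meas F) (hG : Meas G) :
    Meas (fun w => F w - G w) := by
  have := hF.add hG.neg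
  simpa [sub_eq_add_neg] using this

theorem Meas.congr {α : Type} {F G : List α → ℤ} (hF : Meas F) (h : ∀ w, F w = G w) :
    Meas G := by
  have : F = G := funext h
  rw [← this]
  exact hF

theorem Meas.zero {α : Type} : Meas (fun _ : List α => (0 : ℤ)) := by
  intro e _ r
  exact HasGSH.const 1 _

theorem Meas.sum {α ι : Type} (s : Finset ι) (F : ι → List α → ℤ) (hF : ∀ i ∈ s, Meas (F i)) :
    Meas (fun w => ∑ i ∈ s, F i w) := by
  classical
  induction s using Finset.induction_on with
  | empty => simpa using Meas.zero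
  | insert a s ha ih =>
    have h1 := (hF a (Finset.mem_insert_self a s)).add
      (ih (fun i hi => hF i (Finset.mem_insert_of_mem hi)))
    refine h1.congr (fun w => ?_)
    rw [Finset.sum_insert ha]

/-- division by a positive integer -/
theorem Meas.div {α : Type} {F : List α → ℤ} (k : ℕ) (hk : 0 < k)
    (hF : Meas (fun w => (k : ℤ) * F w)) : Meas F := by
  intro e he r
  have hne : NeZero (k * e) := ⟨Nat.mul_ne_zero hk.ne' he.out⟩
  have h1 := hF (k * e) (((k : ℤ) * (r.val : ℤ) : ℤ) : ZMod (k * e))
  refine h1.congr (fun w => ?_)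
  have hr : r = (((r.val : ℕ) : ℤ) : ZMod e) := by
    rw [Int.cast_natCast, ZMod.natCast_zmod_val]
  have hk' : (k : ℤ) ≠ 0 := by exact_mod_cast hk.ne'
  have e1 : (k : ℤ) * ((r.val : ℤ) - F w) = (k : ℤ) * (r.val : ℤ) - (k : ℤ) * F w := by ring
  constructor
  · intro h
    rw [ZMod.intCast_eq_intCast_iff_dvd_sub] at h
    rw [hr, ZMod.intCast_eq_intCast_iff_dvd_sub]
    have h2 : ((k : ℤ) * (e : ℤ)) ∣ (k : ℤ) * ((r.val : ℤ) - F w) := by
      rw [e1]
      exact_mod_cast h
    exact (mul_dvd_mul_iff_left hk').1 h2
  · intro h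
    rw [hr, ZMod.intCast_eq_intCast_iff_dvd_sub] at h
    rw [ZMod.intCast_eq_intCast_iff_dvd_sub]
    have h2 := mul_dvd_mul_left (k : ℤ) h
    rw [e1] at h2
    exact_mod_cast h2

end Vale.Agent.Helper10
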