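import Vale.Agent.Helper10.Rounds
import Vale.Agent.Helper10.Cnt

namespace Vale.Agent.Helper10

section general

variable {I α : Type} (δ : I → α → I) (bad : I → α → Bool) (i0 : I) (M : ℕ)

/-- an automaton together with a counter modulo `M` which advances at the marked
transitions; a marked transition leads to the state `i0` -/
def gStep : ZMod M × I → α → ZMod M × I :=
  fun q a => if bad q.2 a then (q.1 + 1, i0) else (q.1, δ q.2 a)

/-- the automaton in which the marked transitions lead to a sink -/
def gOpt : Option I → α → Option I
  | none, _ => none
  | some i, a => if bad i a then none else some (δ i a)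

theorem gOpt_none (w : List α) : run (gOpt δ bad) none w = none := by
  induction w with
  | nil => rfl
  | cons a w ih => rw [run_cons]; exact ih

theorem gOpt_iter_none (w : List α) (m : ℕ) :
    (fun q => run (gOpt δ bad) q w)^[m] none = none := by
  induction m with
  | zero => rfl
  | succ m ih => rw [Function.iterate_succ_apply, gOpt_none, ih]

theorem gOpt_some : ∀ (w : List α) (i j : I), run (gOpt δ bad) (some i) w = some j →
    run δ i w = j := by
  intro w
  induction w with
  | nil =>
    intro i j h
    simpa using h
  | cons a w ih =>
    intro i j h
    rw [run_cons] at h ⊢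
    by_cases hb : bad i a = true
    · have : gOpt δ bad (some i) a = none := by simp [gOpt, hb]
      rw [this, gOpt_none] at h
      exact absurd h (by simp)
    · have : gOpt δ bad (some i) a = some (δ i a) := by simp [gOpt, hb]
      rw [this] at h
      exact ih _ _ h

/-- killing transitions of a counter-free automaton keeps it counter-free -/
theorem gOpt_cf (h : CounterFree δ) : CounterFree (gOpt δ bad) := by
  intro w q n hn hq
  cases q with
  | none => exact gOpt_none δ bad w
  | some i =>
    have hsome : ∀ m, m ≤ n → ∃ j, (fun q => run (gOpt δ bad) q w)^[m] (some i) = some j := by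
      intro m hm
      cases h1 : (fun q => run (gOpt δ bad) q w)^[m] (some i) with
      | some j => exact ⟨j, rfl⟩
      | none =>
        exfalso
        have e : n = (n - m) + m := by omega
        rw [e, Function.iterate_add_apply, h1, gOpt_iter_none] at hq
        exact absurd hq (by simp)
    have hit : ∀ m, m ≤ n → ∀ j, (fun q => run (gOpt δ bad) q w)^[m] (some i) = some j →
        (fun q => run δ q w)^[m] i = j := by
      intro m
      induction m with
      | zero =>
        intro _ j hj
        simpa using hj
      | succ m ih =>
        intro hm j hj
        obtain ⟨j', hj'⟩ := hsome m (by omega)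
        rw [Function.iterate_succ_apply', hj'] at hj
        rw [Function.iterate_succ_apply', ih (by omega) j' hj']
        exact gOpt_some δ bad w _ _ hj
    have h1 := hit n le_rfl i hq
    have h2 := h w i n hn h1
    obtain ⟨j, hj⟩ := hsome 1 (by omega)
    simp only [Function.iterate_one] at hj
    rw [hj]
    have := gOpt_some δ bad w _ _ hj
    rw [h2] at this
    rw [this]

/-- the composite automaton is counter-free once its base state is made absorbing -/
theorem gStep_cf [DecidableEq I] [NeZero M] (h : CounterFree (gOpt δ bad)) :
    CounterFree (absorb (gStep δ bad i0 M) ((0 : ZMod M), i0)) := by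
  refine cf_of_proj _ (gOpt δ bad)
    (fun q => if q = ((0 : ZMod M), i0) then M else q.1.val)
    (fun q => if q = ((0 : ZMod M), i0) then none else some q.2) ?_ ?_ ?_ h
  · intro q a
    by_cases hq : q = ((0 : ZMod M), i0)
    · have : absorb (gStep δ bad i0 M) ((0 : ZMod M), i0) q a
          = ((0 : ZMod M), i0) := by rw [hq]; simp [absorb]
      rw [this, hq]
    · rw [absorb_of_ne _ _ _ _ hq, if_neg hq]
      by_cases hq' : gStep δ bad i0 M q a = ((0 : ZMod M), i0)
      · rw [if_pos hq']
        exact (ZMod.val_lt q.1).le
      · rw [if_neg hq']
        unfold gStep at hq' ⊢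
        by_cases hb : bad q.2 a = true
        · rw [if_pos hb] at hq' ⊢
          have h0 : q.1 + 1 ≠ 0 := by
            intro h0
            apply hq'
            rw [h0]
          show q.1.val ≤ (q.1 + 1).val
          rw [zmod_val_succ M q.1 h0]
          omega
        · rw [if_neg hb]
  · intro q a
    by_cases hq : q = ((0 : ZMod M), i0)
    · have : absorb (gStep δ bad i0 M) ((0 : ZMod M), i0) q a
          = ((0 : ZMod M), i0) := by rw [hq]; simp [absorb]
      intro _
      rw [this, hq]
      simp [gOpt]
    · rw [absorb_of_ne _ _ _ _ hq, if_neg hq]
      by_cases hq' : gStep δ bad i0 M q a = ((0 : ZMod M), i0)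
      · rw [if_pos hq']
        intro h
        exact absurd h (ZMod.val_lt q.1).ne'
      · rw [if_neg hq', if_neg hq']
        intro h
        unfold gStep at hq' h ⊢
        by_cases hb : bad q.2 a = true
        · exfalso
          rw [if_pos hb] at hq' h
          have h0 : q.1 + 1 ≠ 0 := by
            intro h0
            apply hq'
            rw [h0]
          have h' : (q.1 + 1).val = q.1.val := h
          rw [zmod_val_succ M q.1 h0] at h'
          omega
        · have hb' : bad q.2 a = false := by simpa using hb
          rw [if_neg hb, if_neg hq]
          simp [gOpt, hb']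
  · intro q q' h1 h2
    by_cases hq : q = ((0 : ZMod M), i0)
    · by_cases hq' : q' = ((0 : ZMod M), i0)
      · rw [hq, hq']
      · rw [if_pos hq, if_neg hq'] at h2
        exact absurd h2 (by simp)
    · by_cases hq' : q' = ((0 : ZMod M), i0)
      · rw [if_neg hq, if_pos hq'] at h2
        exact absurd h2 (by simp)
      · rw [if_neg hq, if_neg hq'] at h1 h2
        exact Prod.ext (ZMod.val_injective M h1) (Option.some.inj h2)

/-- the number of marked transitions along the run from `i` -/
def bcount : I → List α → ℕ
  | _, [] => 0
  | i, a :: w => (if bad i a then 1 else 0) + bcount (δ i a) w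

theorem gStep_run (h0 : ∀ i a, bad i a = true → δ i a = i0) :
    ∀ (w : List α) (k : ZMod M) (i : I),
      run (gStep δ bad i0 M) (k, i) w = (k + (bcount δ bad i w : ZMod M), run δ i w) := by
  intro w
  induction w with
  | nil => intro k i; simp [bcount]
  | cons a w ih =>
    intro k i
    rw [run_cons, run_cons]
    by_cases hb : bad i a = true
    · have e : gStep δ bad i0 M (k, i) a = (k + 1, δ i a) := by
        show (if bad i a = true then (k + 1, i0) else (k, δ i a)) = _
        rw [if_pos hb, h0 i a hb]
      rw [e, ih]
      simp only [bcount, hb, if_true]
      push_cast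
      rw [add_assoc]
    · have e : gStep δ bad i0 M (k, i) a = (k, δ i a) := by
        show (if bad i a = true then (k + 1, i0) else (k, δ i a)) = _
        rw [if_neg hb]
      rw [e, ih]
      simp only [bcount, hb]
      simp

/-- counting the marked transitions of a counter-free automaton modulo `M` -/
theorem bcount_gsh [Finite I] [Finite α] [NeZero M] (hcf : CounterFree δ)
    (h0 : ∀ i a, bad i a = true → δ i a = i0) (i : I) (r : ZMod M) :
    HasGSH 1 (fun w : List α => (bcount δ bad i w : ZMod M) = r) := by
  classical
  have hcf' := gStep_cf δ bad i0 M (gOpt_cf δ bad hcf)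
  refine HasGSH.of_fun (fun w : List α => run (gStep δ bad i0 M) ((0 : ZMod M), i) w) ?_ _ ?_
  · intro q
    exact one_base _ _ hcf' _ q
  · intro w w' hF hw
    rw [gStep_run δ bad i0 M h0, gStep_run δ bad i0 M h0] at hF
    have := congrArg Prod.fst hF
    simp only [zero_add] at this
    rw [← this]
    exact hw

end general

end Vale.Agent.Helper10
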