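import Vale.Agent.Helper10.OneBase

namespace Vale.Agent.Helper10

/-- A levelled grading makes an automaton counter-free: the rank never decreases along
a transition, and inside a level every letter shifts an integer coordinate by a fixed
amount, the coordinate separating the states of the level. -/
theorem cf_of_grading {Q α : Type} (δ : Q → α → Q) (rk : Q → ℕ) (h : Q → ℤ)
    (s : ℕ → α → ℤ)
    (h1 : ∀ q a, rk q ≤ rk (δ q a))
    (h2 : ∀ q a, rk (δ q a) = rk q → h (δ q a) = h q + s (rk q) a)
    (h3 : ∀ q q', rk q = rk q' → h q = h q' → q = q') : CounterFree δ := by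
  have hA : ∀ (w : List α) (q : Q), rk q ≤ rk (run δ q w) := by
    intro w
    induction w with
    | nil => intro q; exact le_rfl
    | cons a w ih => intro q; exact (h1 q a).trans (ih (δ q a))
  have hB : ∀ (w : List α) (q : Q), rk (run δ q w) = rk q →
      h (run δ q w) = h q + (w.map (s (rk q))).sum := by
    intro w
    induction w with
    | nil => intro q _; simp
    | cons a w ih =>
      intro q hq
      rw [run_cons] at hq ⊢
      have e1 : rk (δ q a) = rk q :=
        le_antisymm (by rw [← hq]; exact hA w (δ q a)) (h1 q a)
      rw [ih (δ q a) (hq.trans e1.symm), h2 q a e1, e1]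
      simp [add_assoc]
  intro w q n hn hq
  have hA' : ∀ (m : ℕ) (x : Q), rk x ≤ rk ((fun x => run δ x w)^[m] x) := by
    intro m
    induction m with
    | zero => intro x; exact le_rfl
    | succ m ih =>
      intro x
      rw [Function.iterate_succ_apply]
      exact (hA w x).trans (ih (run δ x w))
  have hD : ∀ (m : ℕ) (x : Q), rk ((fun x => run δ x w)^[m] x) = rk x →
      h ((fun x => run δ x w)^[m] x) = h x + m * (w.map (s (rk x))).sum := by
    intro m
    induction m with
    | zero => intro x _; simp
    | succ m ih =>
      intro x hx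
      rw [Function.iterate_succ_apply] at hx ⊢
      have e1 : rk (run δ x w) = rk x :=
        le_antisymm (by rw [← hx]; exact hA' m (run δ x w)) (hA w x)
      rw [ih (run δ x w) (hx.trans e1.symm), hB w x e1, e1]
      push_cast
      ring
  have hrk : rk ((fun x => run δ x w)^[n] q) = rk q := by rw [hq]
  have e1 : rk (run δ q w) = rk q := by
    obtain ⟨m, rfl⟩ : ∃ m, n = m + 1 := ⟨n - 1, by omega⟩
    rw [Function.iterate_succ_apply] at hrk
    exact le_antisymm (by rw [← hrk]; exact hA' m (run δ q w)) (hA w q)
  have e2 := hD n q hrk
  rw [hq] at e2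
  have e3 : (n : ℤ) * (w.map (s (rk q))).sum = 0 := by linarith
  have e4 : (w.map (s (rk q))).sum = 0 := by
    rcases mul_eq_zero.1 e3 with h0 | h0
    · exfalso
      have : n = 0 := by exact_mod_cast h0
      omega
    · exact h0
  have e5 := hB w q e1
  rw [e4, add_zero] at e5
  exact h3 _ _ e1 e5

end Vale.Agent.Helper10
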