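import Vale.Agent.Helper10.OneBase
import Mathlib.Computability.DFA

/-!
# Every regular language is an inverse morphic image of a language of star height at most one

* `cf_of_rank`: a rank criterion for the one-base tool.  If every letter sends every state
  other than `q0` to `q0`, to itself or to a state of strictly larger rank, then the automaton
  is counter-free once `q0` is made absorbing.
* `regular_inv_morph`: for every regular language `L` over `α` there are a finite alphabet `β`,
  a substitution `h` of words over `β` for the letters of `α` and a language `K` over `β` of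
  generalized star height at most one such that `w ∈ L ↔ h(w) ∈ K`.

The automaton for `K` has a base state, a low copy and a high copy of the states of a
deterministic automaton for `L`.  A letter `up x` moves the low copy to the high copy along the
transition of `x`; the letters `dn q`, `en q` move the high state `q` to the base and the base
to the low state `q`.  The word `h x` is `up x` followed by all the pairs `dn q`, `en q`.
-/

namespace Vale.Agent.Helper10

section rank

variable {Q α : Type} [DecidableEq Q]

/-- the relation used in the rank criterion -/
def RankRel (q0 : Q) (ρ : Q → ℕ) (s t : Q) : Prop := t = q0 ∨ t = s ∨ ρ s < ρ t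

omit [DecidableEq Q] in
theorem RankRel.trans {q0 : Q} {ρ : Q → ℕ} {s t u : Q} (h1 : RankRel q0 ρ s t)
    (h2 : RankRel q0 ρ t u) (h0 : t = q0 → u = q0) : RankRel q0 ρ s u := by
  rcases h1 with h1 | h1 | h1
  · exact Or.inl (h0 h1)
  · rw [h1] at h2
    exact h2
  · rcases h2 with h2 | h2 | h2
    · exact Or.inl h2
    · rw [h2]
      exact Or.inr (Or.inr h1)
    · exact Or.inr (Or.inr (lt_trans h1 h2))

/-- **Rank criterion.**  If every letter sends every state other than `q0` to `q0`, to itself
or to a state of strictly larger rank, then the automaton in which `q0` has been made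
absorbing is counter-free. -/
theorem cf_of_rank (δ : Q → α → Q) (q0 : Q) (ρ : Q → ℕ)
    (h : ∀ s a, s ≠ q0 → δ s a = q0 ∨ δ s a = s ∨ ρ s < ρ (δ s a)) :
    CounterFree (absorb δ q0) := by
  have hstep : ∀ s a, RankRel q0 ρ s (absorb δ q0 s a) := by
    intro s a
    by_cases hs : s = q0
    · subst hs
      exact Or.inl (by simp [absorb])
    · rw [absorb_of_ne δ q0 s a hs]
      exact h s a hs
  have hrun : ∀ (w : List α) (s : Q), RankRel q0 ρ s (run (absorb δ q0) s w) := by
    intro w
    induction w with
    | nil => intro s; exact Or.inr (Or.inl rfl)
    | cons a w ih =>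
      intro s
      rw [run_cons]
      refine (hstep s a).trans (ih _) (fun h0 => ?_)
      rw [h0]
      exact absorb_base δ q0 w
  intro w q n hn hq
  have hit : ∀ (k : ℕ) (s : Q),
      RankRel q0 ρ s ((fun x => run (absorb δ q0) x w)^[k] s) := by
    intro k
    induction k with
    | zero => intro s; exact Or.inr (Or.inl rfl)
    | succ k ih =>
      intro s
      rw [Function.iterate_succ_apply']
      refine (ih s).trans (hrun w _) (fun h0 => ?_)
      rw [h0]
      exact absorb_base δ q0 w
  have hbase : ∀ k : ℕ, (fun x => run (absorb δ q0) x w)^[k] q0 = q0 := by
    intro k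
    induction k with
    | zero => rfl
    | succ k ih =>
      rw [Function.iterate_succ_apply', ih]
      exact absorb_base δ q0 w
  obtain ⟨m, rfl⟩ : ∃ m, n = m + 1 := ⟨n - 1, by omega⟩
  rw [Function.iterate_succ_apply] at hq
  rcases hrun w q with h1 | h1 | h1
  · rw [h1, hbase] at hq
    rw [h1, hq]
  · exact h1
  · rcases hit m (run (absorb δ q0) q w) with h2 | h2 | h2
    · rw [hq] at h2
      rw [h2] at h1
      rw [absorb_base] at h1
      exact absurd h1 (lt_irrefl _)
    · rw [hq] at h2
      exact h2.symm
    · rw [hq] at h2
      exact absurd (lt_trans h1 h2) (lt_irrefl _)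

end rank

section reduce

variable {α σ : Type} [DecidableEq σ]

/-- the transition function of the simulating automaton: states are the base `none`, the low
copy `some (false, q)` and the high copy `some (true, q)`; letters are `up x = Sum.inl x`,
`dn q = Sum.inr (Sum.inl q)` and `en q = Sum.inr (Sum.inr q)`. -/
def simStep (step : σ → α → σ) : Option (Bool × σ) → α ⊕ (σ ⊕ σ) → Option (Bool × σ)
  | some (false, q), Sum.inl x => some (true, step q x)
  | some (true, q), Sum.inl _ => some (true, q)
  | none, Sum.inl _ => none
  | some (true, q), Sum.inr (Sum.inl q') => if q = q' then none else some (true, q)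
  | some (false, q), Sum.inr (Sum.inl _) => some (false, q)
  | none, Sum.inr (Sum.inl _) => none
  | some s, Sum.inr (Sum.inr _) => some s
  | none, Sum.inr (Sum.inr q') => some (false, q')

/-- the rank: base 0, low copy 1, high copy 2 -/
def simRank : Option (Bool × σ) → ℕ
  | none => 0
  | some (false, _) => 1
  | some (true, _) => 2

theorem sim_cf (step : σ → α → σ) : CounterFree (absorb (simStep step) none) := by
  refine cf_of_rank (simStep step) none simRank ?_
  intro s a hs
  match s, a, hs with
  | some (false, q), Sum.inl x, _ => exact Or.inr (Or.inr (by simp [simStep, simRank]))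
  | some (true, q), Sum.inl _, _ => exact Or.inr (Or.inl rfl)
  | some (true, q), Sum.inr (Sum.inl q'), _ =>
    by_cases hq : q = q'
    · exact Or.inl (by simp [simStep, hq])
    · exact Or.inr (Or.inl (by simp [simStep, hq]))
  | some (false, q), Sum.inr (Sum.inl _), _ => exact Or.inr (Or.inl rfl)
  | some (b, q), Sum.inr (Sum.inr _), _ => exact Or.inr (Or.inl (by cases b <;> rfl))

/-- the pairs `dn q`, `en q` for the states in a list -/
def downWord (l : List σ) : List (α ⊕ (σ ⊕ σ)) :=
  l.flatMap (fun q => [Sum.inr (Sum.inl q), Sum.inr (Sum.inr q)])

theorem down_low (step : σ → α → σ) : ∀ (l : List σ) (q : σ),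
    run (simStep step) (some (false, q)) (downWord (α := α) l) = some (false, q) := by
  intro l
  induction l with
  | nil => intro q; rfl
  | cons p l ih =>
    intro q
    show run (simStep step) (some (false, q))
      ([Sum.inr (Sum.inl p), Sum.inr (Sum.inr p)] ++ downWord l) = _
    rw [run_append]
    exact ih q

theorem down_high (step : σ → α → σ) : ∀ (l : List σ) (q : σ), q ∈ l →
    run (simStep step) (some (true, q)) (downWord (α := α) l) = some (false, q) := by
  intro l
  induction l with
  | nil => intro q hq; exact absurd hq (by simp)
  | cons p l ih =>
    intro q hq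
    show run (simStep step) (some (true, q))
      ([Sum.inr (Sum.inl p), Sum.inr (Sum.inr p)] ++ downWord l) = _
    rw [run_append]
    by_cases hqp : q = p
    · subst hqp
      have e : run (simStep step) (some (true, q))
          [Sum.inr (Sum.inl q), Sum.inr (Sum.inr q)] = some (false, q) := by
        simp [run, simStep]
      rw [e]
      exact down_low step l q
    · have e : run (simStep step) (some (true, q))
          [Sum.inr (Sum.inl p), Sum.inr (Sum.inr p)] = some (true, q) := by
        simp [run, simStep, hqp]
      rw [e]
      refine ih q ?_
      rcases List.mem_cons.1 hq with h | h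
      · exact absurd h hqp
      · exact h

/-- the word which simulates the letter `x` -/
noncomputable def simWord [Fintype σ] (x : α) : List (α ⊕ (σ ⊕ σ)) :=
  Sum.inl x :: downWord (Finset.univ : Finset σ).toList

theorem sim_letter [Fintype σ] (step : σ → α → σ) (q : σ) (x : α) :
    run (simStep step) (some (false, q)) (simWord (σ := σ) x) = some (false, step q x) := by
  show run (simStep step) (some (false, q))
    (Sum.inl x :: downWord (Finset.univ : Finset σ).toList) = _
  rw [run_cons]
  exact down_high step _ _ (by simp)

theorem sim_word [Fintype σ] (step : σ → α → σ) : ∀ (w : List α) (q : σ),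
    run (simStep step) (some (false, q)) (w.flatMap (simWord (σ := σ)))
      = some (false, List.foldl step q w) := by
  intro w
  induction w with
  | nil => intro q; rfl
  | cons x w ih =>
    intro q
    rw [List.flatMap_cons, run_append, sim_letter, ih]
    rfl

end reduce

/-- **Every regular language is an inverse morphic image of a language of generalized star
height at most one.**  For a regular language `L` over a finite alphabet `α` there are a finite
alphabet `β`, a word `h x` over `β` for every letter `x` of `α`, and a generalized regular
expression `e` over `β` of star height at most one, denoting a regular language, such that a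
word `w` belongs to `L` if and only if the word obtained from `w` by replacing every letter
`x` by `h x` belongs to the language of `e`. -/
theorem regular_inv_morph {α : Type} [Fintype α] (L : Language α) (hL : L.IsRegular) :
    ∃ (β : Type) (_ : Fintype β) (h : α → List β) (e : GRE β),
      e.height ≤ 1 ∧ e.lang.IsRegular ∧ ∀ w : List α, w ∈ L ↔ w.flatMap h ∈ e.lang := by
  classical
  obtain ⟨σ, _, M, rfl⟩ := hL
  have hP : HasGSH 1 (fun v : List (α ⊕ (σ ⊕ σ)) => ∃ q : σ, q ∈ M.accept ∧
      run (simStep M.step) (some (false, M.start)) v = some (false, q)) :=
    HasGSH.exists_ _ (fun q => (HasGSH.const 1 (q ∈ M.accept)).and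
      (one_base (simStep M.step) none (sim_cf M.step) _ _))
  obtain ⟨e, he, hl⟩ := hP
  refine ⟨α ⊕ (σ ⊕ σ), inferInstance, simWord (σ := σ), e, he, ?_, fun w => ?_⟩
  · refine ⟨Option (Bool × σ), inferInstance,
      ⟨simStep M.step, some (false, M.start), {s | ∃ q : σ, q ∈ M.accept ∧ s = some (false, q)}⟩,
      ?_⟩
    ext v
    rw [hl]
    rfl
  · rw [hl]
    show List.foldl M.step M.start w ∈ M.accept ↔ ∃ q : σ, q ∈ M.accept ∧
        run (simStep M.step) (some (false, M.start)) (w.flatMap (simWord (σ := σ)))
          = some (false, q)
    rw [sim_word]
    constructor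
    · intro hw
      exact ⟨_, hw, rfl⟩
    · rintro ⟨q, hq, h⟩
      have h2 : List.foldl M.step M.start w = q := by
        simpa using h
      rw [h2]
      exact hq

/-- the inverse image of a regular language under a substitution of words for letters is
regular -/
theorem regular_comap {α β : Type} (h : α → List β) (K : Language β) (hK : K.IsRegular) :
    Language.IsRegular ({w : List α | w.flatMap h ∈ K} : Language α) := by
  obtain ⟨σ, _, M, rfl⟩ := hK
  refine ⟨σ, inferInstance, ⟨fun s x => List.foldl M.step s (h x), M.start, M.accept⟩, ?_⟩
  have key : ∀ (w : List α) (s : σ),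
      List.foldl (fun s x => List.foldl M.step s (h x)) s w
        = List.foldl M.step s (w.flatMap h) := by
    intro w
    induction w with
    | nil => intro s; rfl
    | cons x w ih =>
      intro s
      rw [List.flatMap_cons, List.foldl_append, List.foldl_cons, ih]
  ext w
  show List.foldl (fun s x => List.foldl M.step s (h x)) M.start w ∈ M.accept
    ↔ List.foldl M.step M.start (w.flatMap h) ∈ M.accept
  rw [key]

/-- **The generalized star-height problem and inverse morphisms.**  Every regular language
(over every finite alphabet) has generalized star height at most one if and only if the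
regular languages of generalized star height at most one are closed under inverse images by
substitutions of words for letters. -/
theorem inv_morph_iff :
    (∀ (α : Type) [Fintype α] (L : Language α), L.IsRegular →
      ∃ e : GRE α, e.height ≤ 1 ∧ e.lang = L) ↔
    (∀ (α β : Type) [Fintype α] [Fintype β] (h : α → List β) (e : GRE β), e.height ≤ 1 →
      e.lang.IsRegular →
      ∃ e' : GRE α, e'.height ≤ 1 ∧ ∀ w : List α, w ∈ e'.lang ↔ w.flatMap h ∈ e.lang) := by
  constructor
  · intro hall α β _ _ h e _ hreg
    obtain ⟨e', he', hl⟩ := hall α _ (regular_comap h e.lang hreg)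
    refine ⟨e', he', fun w => ?_⟩
    rw [hl]
    rfl
  · intro hcl α _ L hL
    obtain ⟨β, _, h, e, he, hreg, hw⟩ := regular_inv_morph L hL
    obtain ⟨e', he', hw'⟩ := hcl α β h e he hreg
    refine ⟨e', he', ?_⟩
    ext w
    rw [hw' w, ← hw w]

end Vale.Agent.Helper10
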