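import Vale.Agent.Helper10.Two4

/-!
# Letters commuting modulo an abelian normal subgroup, class at most four

Let `N` be an abelian normal subgroup of a nilpotent group `G` of class at most four, and let
the letters be sent to elements of `G` which commute modulo `N`.  Along a word the product of
the images is collected as an element of `N` times an ordered product of powers of the images
of the letters; the element of `N` is a product, over the positions, of values of maps of the
vector of the numbers of the earlier letters which are products of powers with exponents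
products of binomial coefficients of total degree at most three.  Such positional sums are
determined by positional counts along clocks with steps `0`, `1` and `-1`.
-/

namespace Vale.Agent.Helper10

section nat

variable {α : Type} [DecidableEq α] (M : ℕ)

/-- the sum over the occurrences of `a` of a function of the vector of the numbers of the
earlier letters -/
def vsum (a : α) (m : (α → ℕ) → ℕ) : (α → ℕ) → List α → ℕ
  | _, [] => 0
  | X, b :: w => (if b = a then m X else 0) + vsum a m (X + Pi.single b 1) w

theorem vsum_wsum (a : α) (m : (α → ℕ) → ℕ) (k : ℕ) (F : (α → ZMod M) → ZMod M)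
    (hF : ∀ X : α → ℕ, ((k * m X : ℕ) : ZMod M) = F (fun x => (X x : ZMod M))) :
    ∀ (w : List α) (X : α → ℕ),
      ((k * vsum a m X w : ℕ) : ZMod M) = wsum M a F (fun x => (X x : ZMod M)) w := by
  intro w
  induction w with
  | nil => intro X; simp [vsum, wsum]
  | cons b w ih =>
    intro X
    have hc : (fun x => (((X + Pi.single b 1 : α → ℕ) x : ℕ) : ZMod M))
        = (fun x => (X x : ZMod M)) + Pi.single b 1 := by
      funext x
      simp only [Pi.add_apply, Pi.single_apply]
      split_ifs <;> simp
    simp only [vsum, wsum]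
    rw [mul_add, Nat.cast_add, ih (X + Pi.single b 1), hc]
    congr 1
    by_cases hb : b = a
    · rw [if_pos hb, if_pos hb]
      exact hF X
    · rw [if_neg hb, if_neg hb]
      simp

/-- products of binomial coefficients of the coordinates: degree, multiplier, the function on
the natural numbers and the corresponding polynomial function modulo `M` -/
inductive BM : ℕ → ℕ → ((α → ℕ) → ℕ) → ((α → ZMod M) → ZMod M) → Prop
  | one : BM 0 1 (fun _ => 1) (fun _ => 1)
  | mul1 (l : α) {d K : ℕ} {m : (α → ℕ) → ℕ} {F : (α → ZMod M) → ZMod M} :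
      BM d K m F → BM (d + 1) K (fun X => X l * m X) (fun y => y l * F y)
  | mul2 (l : α) {d K : ℕ} {m : (α → ℕ) → ℕ} {F : (α → ZMod M) → ZMod M} :
      BM d K m F → BM (d + 2) (2 * K) (fun X => (X l).choose 2 * m X)
        (fun y => y l * (y l - 1) * F y)
  | mul3 (l : α) {d K : ℕ} {m : (α → ℕ) → ℕ} {F : (α → ZMod M) → ZMod M} :
      BM d K m F → BM (d + 3) (6 * K) (fun X => (X l).choose 3 * m X)
        (fun y => y l * (y l - 1) * (y l - 2) * F y)

variable {M}

omit [DecidableEq α] in
theorem BM.cast {d K : ℕ} {m : (α → ℕ) → ℕ} {F : (α → ZMod M) → ZMod M} (h : BM M d K m F) :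
    ∀ X : α → ℕ, ((K * m X : ℕ) : ZMod M) = F (fun x => (X x : ZMod M)) := by
  induction h with
  | one => intro X; simp
  | mul1 l _ ih =>
    intro X
    beta_reduce
    rw [← ih X]
    push_cast
    ring
  | mul2 l _ ih =>
    intro X
    beta_reduce
    rw [← ih X, ← choose_two_cast]
    push_cast
    ring
  | mul3 l _ ih =>
    intro X
    beta_reduce
    rw [← ih X, ← choose_three_cast]
    push_cast
    ring

omit [DecidableEq α] in
theorem BM.dvd {d K : ℕ} {m : (α → ℕ) → ℕ} {F : (α → ZMod M) → ZMod M} (h : BM M d K m F) :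
    K ∣ d.factorial := by
  induction h with
  | one => simp
  | mul1 l _ ih => exact ih.trans (Nat.factorial_dvd_factorial (Nat.le_succ _))
  | @mul2 l d K m F _ ih =>
    have h1 : Nat.factorial 2 * Nat.factorial d ∣ Nat.factorial (2 + d) :=
      Nat.factorial_mul_factorial_dvd_factorial_add 2 d
    rw [add_comm d 2]
    exact (mul_dvd_mul (by decide : 2 ∣ Nat.factorial 2) ih).trans h1
  | @mul3 l d K m F _ ih =>
    have h1 : Nat.factorial 3 * Nat.factorial d ∣ Nat.factorial (3 + d) :=
      Nat.factorial_mul_factorial_dvd_factorial_add 3 d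
    rw [add_comm d 3]
    exact (mul_dvd_mul (by decide : 6 ∣ Nat.factorial 3) ih).trans h1

end nat

section gdmon

variable {α : Type} [DecidableEq α] {M : ℕ} [NeZero M] {a : α} {w w' : List α}
variable (hst : ∀ v : α → ZMod M, (∀ x, v x = 0 ∨ v x = 1 ∨ v x = -1) → ∀ t : ZMod M,
    (cnt v (fun b => b = a) t 0 w : ZMod M) = (cnt v (fun b => b = a) t 0 w' : ZMod M))

include hst

theorem gd_mon : ∀ (mon : List α), mon.length ≤ 3 → ∀ c : ZMod M,
    Gd M a w w' (fun y => 6 * c * (mon.map y).prod) := by
  intro mon hl c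
  match mon, hl with
  | [], _ => exact (Gd.one hst a (fun _ => 6 * c)).of_eq (fun y => by simp)
  | [b], _ => exact (Gd.one hst b (fun t => 6 * c * t)).of_eq (fun y => by simp)
  | [b, b'], _ =>
    exact ((Gd.mul2 hst b b').smul (3 * c)).of_eq (fun y => by
      simp only [List.map_cons, List.map_nil, List.prod_cons, List.prod_nil]
      ring)
  | [b, b', b''], _ =>
    exact ((Gd.mul3 hst b b' b'').smul c).of_eq (fun y => by
      simp only [List.map_cons, List.map_nil, List.prod_cons, List.prod_nil]
      ring)
  | _ :: _ :: _ :: _ :: _, h =>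
    simp only [List.length_cons] at h
    omega

theorem BM.gd {d K : ℕ} {m : (α → ℕ) → ℕ} {F : (α → ZMod M) → ZMod M} (h : BM M d K m F) :
    ∀ (mon : List α) (c : ZMod M), mon.length + d ≤ 3 →
      Gd M a w w' (fun y => 6 * c * (mon.map y).prod * F y) := by
  induction h with
  | one =>
    intro mon c hl
    exact (gd_mon hst mon (by omega) c).of_eq (fun y => by ring)
  | mul1 l _ ih =>
    intro mon c hl
    exact (ih (l :: mon) c (by simp only [List.length_cons]; omega)).of_eq (fun y => by
      simp only [List.map_cons, List.prod_cons]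
      ring)
  | mul2 l _ ih =>
    intro mon c hl
    exact ((ih (l :: l :: mon) c (by simp only [List.length_cons]; omega)).add
      (ih (l :: mon) (-c) (by simp only [List.length_cons]; omega))).of_eq (fun y => by
      simp only [List.map_cons, List.prod_cons]
      ring)
  | mul3 l _ ih =>
    intro mon c hl
    exact (((ih (l :: l :: l :: mon) c (by simp only [List.length_cons]; omega)).add
      (ih (l :: l :: mon) (-3 * c) (by simp only [List.length_cons]; omega))).add
      (ih (l :: mon) (2 * c) (by simp only [List.length_cons]; omega))).of_eq (fun y => by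
      simp only [List.map_cons, List.prod_cons]
      ring)

end gdmon

section det4

variable {α : Type} [DecidableEq α] (E : ℕ) [NeZero (36 * E)] {a : α} {w w' : List α}

/-- the positional sums of the products of binomial coefficients of degree at most three are
determined modulo `E` -/
theorem vsum_modEq
    (hst : ∀ v : α → ZMod (36 * E), (∀ x, v x = 0 ∨ v x = 1 ∨ v x = -1) → ∀ t : ZMod (36 * E),
      (cnt v (fun b => b = a) t 0 w : ZMod (36 * E))
        = (cnt v (fun b => b = a) t 0 w' : ZMod (36 * E)))
    {d K : ℕ} {m : (α → ℕ) → ℕ} {F : (α → ZMod (36 * E)) → ZMod (36 * E)}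
    (h : BM (36 * E) d K m F) (hd : d ≤ 3) :
    vsum a m 0 w ≡ vsum a m 0 w' [MOD E] := by
  have hK : K ∣ 6 := h.dvd.trans (Nat.factorial_dvd_factorial hd)
  obtain ⟨q, hq⟩ := hK
  have hz : (fun x => (((0 : α → ℕ) x : ℕ) : ZMod (36 * E))) = 0 := by
    funext x
    simp
  have e1 := vsum_wsum (36 * E) a m K F h.cast w 0
  have e2 := vsum_wsum (36 * E) a m K F h.cast w' 0
  rw [hz] at e1 e2
  have g : Gd (36 * E) a w w' (fun y => (6 : ZMod (36 * E)) * F y) :=
    (h.gd hst [] 1 (by simp only [List.length_nil]; omega)).of_eq (fun y => by simp)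
  unfold Gd at g
  rw [wsum_smul, wsum_smul, ← e1, ← e2] at g
  refine modEq_of_cast E (6 * K) q (by rw [mul_assoc, ← hq]; norm_num) _ _ ?_
  push_cast at g ⊢
  linear_combination g

end det4

section pol

variable {K ι α : Type} [CommGroup K] [DecidableEq α] (Φ : ι → K → K) (M : ℕ)

/-- `Dep Φ j k`: every composition of at least `j` of the difference maps `z ↦ Φ i z * z⁻¹`
sends `k` to `1` -/
def Dep (j : ℕ) (k : K) : Prop :=
  ∀ l : List ι, j ≤ l.length → l.foldr (fun i z => Φ i z * z⁻¹) k = 1

variable {Φ}

omit [DecidableEq α] in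
theorem Dep.step {j : ℕ} {k : K} (h : Dep Φ j k) (i : ι) : Dep Φ (j - 1) (Φ i k * k⁻¹) := by
  intro l hl
  have h1 := h (l ++ [i]) (by simp only [List.length_append, List.length_singleton]; omega)
  rwa [List.foldr_append] at h1

omit [DecidableEq α] in
theorem Dep.iter {j : ℕ} {k : K} (h : Dep Φ j k) (i : ι) (s : ℕ) :
    Dep Φ (j - s) ((fun x => Φ i x * x⁻¹)^[s] k) := by
  induction s generalizing j k with
  | zero => exact h
  | succ s ih =>
    rw [Function.iterate_succ_apply]
    have h2 := ih (h.step i)
    have e : j - (s + 1) = j - 1 - s := by omega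
    rw [e]
    exact h2

omit [DecidableEq α] in
theorem Dep.zero {k : K} (h : Dep Φ 0 k) : k = 1 := h [] (le_refl _)

variable (Φ)

/-- maps from the vectors of numbers of letters into `K` which are products of powers, with
exponents products of binomial coefficients, of elements of suitable depth -/
inductive Pol : ((α → ℕ) → K) → Prop
  | one : Pol (fun _ => 1)
  | term (k : K) (j d K₀ : ℕ) (m : (α → ℕ) → ℕ) (Fz : (α → ZMod M) → ZMod M) :
      Dep Φ j k → BM M d K₀ m Fz → d + j ≤ 4 → Pol (fun X => k ^ m X)
  | mul {F F' : (α → ℕ) → K} : Pol F → Pol F' → Pol (fun X => F X * F' X)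

variable {Φ M}

omit [DecidableEq α] in
theorem Pol.dterm (i : ι) (k : K) (j : ℕ) (hk : Dep Φ j k) (s : ℕ) {d K' : ℕ}
    {m' : (α → ℕ) → ℕ} {Fz' : (α → ZMod M) → ZMod M} (hbm : BM M d K' m' Fz')
    (hdj : d + j ≤ 4 + s) :
    Pol Φ M (fun X => ((fun x => Φ i x * x⁻¹)^[s] k) ^ m' X) := by
  by_cases hs : s ≤ j
  · exact Pol.term _ (j - s) d K' m' Fz' (hk.iter i s) hbm (by omega)
  · have h0 := hk.iter i s
    have e : j - s = 0 := by omega
    rw [e] at h0
    have h1 := h0.zero
    have e2 : (fun X : α → ℕ => ((fun x => Φ i x * x⁻¹)^[s] k) ^ m' X) = fun _ => 1 := by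
      funext X
      rw [h1, one_pow]
    rw [e2]
    exact Pol.one

variable (hΦ : ∀ i x y, Φ i (x * y) = Φ i x * Φ i y)
  (h4 : ∀ i (k : K), (fun x => Φ i x * x⁻¹)^[4] k = 1)

include hΦ in
theorem iter_one' (i : ι) (n : ℕ) : (Φ i)^[n] 1 = 1 := by
  have h1 : Φ i 1 = 1 := by
    have h := hΦ i 1 1
    rw [mul_one] at h
    exact (mul_eq_left.mp h.symm)
  exact Function.iterate_fixed h1 n

omit [DecidableEq α] in
include hΦ h4 in
/-- the maps `Pol` are stable under the application of `X l` times a map `Φ i` -/
theorem Pol.conj (i : ι) (l : α) {F : (α → ℕ) → K} (hF : Pol Φ M F) :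
    Pol Φ M (fun X => (Φ i)^[X l] (F X)) := by
  induction hF with
  | one =>
    have e : (fun X : α → ℕ => (Φ i)^[X l] (1 : K)) = fun _ => 1 := by
      funext X
      exact iter_one' hΦ i _
    rw [e]
    exact Pol.one
  | term k j d K₀ m Fz hk hbm hdj =>
    have e : (fun X : α → ℕ => (Φ i)^[X l] (k ^ m X))
        = fun X => (((fun x => Φ i x * x⁻¹)^[0] k) ^ (m X)
            * ((fun x => Φ i x * x⁻¹)^[1] k) ^ (X l * m X))
            * ((fun x => Φ i x * x⁻¹)^[2] k) ^ ((X l).choose 2 * m X)
            * ((fun x => Φ i x * x⁻¹)^[3] k) ^ ((X l).choose 3 * m X) := by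
      funext X
      have hp : (Φ i)^[X l] (k ^ m X) = ((Φ i)^[X l] k) ^ m X :=
        map_pow_of_mul _ (fun x y => iter_mul (Φ i) (hΦ i) (X l) x y) k (m X)
      rw [hp, iter_unip (Φ i) (hΦ i) (h4 i) (X l) k]
      simp only [Finset.prod_range_succ, Finset.prod_range_zero, one_mul, mul_pow, ← pow_mul,
        Nat.choose_zero_right, Nat.choose_one_right]
    rw [e]
    exact Pol.mul (Pol.mul (Pol.mul (Pol.dterm i k j hk 0 hbm (by omega))
      (Pol.dterm i k j hk 1 (BM.mul1 l hbm) (by omega)))
      (Pol.dterm i k j hk 2 (BM.mul2 l hbm) (by omega)))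
      (Pol.dterm i k j hk 3 (BM.mul3 l hbm) (by omega))
  | mul _ _ ih ih' =>
    rename_i F F' _ _
    have e : (fun X : α → ℕ => (Φ i)^[X l] (F X * F' X))
        = fun X => (Φ i)^[X l] (F X) * (Φ i)^[X l] (F' X) := by
      funext X
      exact iter_mul (Φ i) (hΦ i) (X l) _ _
    rw [e]
    exact Pol.mul ih ih'

omit [DecidableEq α] in
include hΦ h4 in
/-- the commutator of a power with a fixed element, as a map of the exponent -/
theorem Pol.base (i : ι) (l : α) (c : K) (hc : Dep Φ 3 c) :
    Pol Φ M (fun X : α → ℕ => ∏ t ∈ Finset.range (X l), (Φ i)^[t] c) := by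
  have e : (fun X : α → ℕ => ∏ t ∈ Finset.range (X l), (Φ i)^[t] c)
      = fun X => (((fun x => Φ i x * x⁻¹)^[0] c) ^ (X l * 1)
          * ((fun x => Φ i x * x⁻¹)^[1] c) ^ ((X l).choose 2 * 1))
          * ((fun x => Φ i x * x⁻¹)^[2] c) ^ ((X l).choose 3 * 1)
          * ((fun x => Φ i x * x⁻¹)^[3] c) ^ ((X l).choose 4 * 1) := by
    funext X
    rw [prange_eq (Φ i) (hΦ i) (h4 i) c (X l)]
    simp only [Finset.prod_range_succ, Finset.prod_range_zero, one_mul, mul_one,
      Nat.choose_one_right, zero_add, Nat.reduceAdd]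
  have h3 : (fun x => Φ i x * x⁻¹)^[3] c = 1 := by
    have h0 := hc.iter i 3
    exact h0.zero
  have e3 : (fun X : α → ℕ => ((fun x => Φ i x * x⁻¹)^[3] c) ^ ((X l).choose 4 * 1))
      = fun _ => 1 := by
    funext X
    rw [h3, one_pow]
  rw [e]
  refine Pol.mul (Pol.mul (Pol.mul (Pol.dterm i c 3 hc 0 (BM.mul1 l BM.one) (by omega))
    (Pol.dterm i c 3 hc 1 (BM.mul2 l BM.one) (by omega)))
    (Pol.dterm i c 3 hc 2 (BM.mul3 l BM.one) (by omega))) ?_
  rw [e3]
  exact Pol.one

end pol

section good

variable {K ι α : Type} [CommGroup K] [DecidableEq α]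

/-- the product over the occurrences of `a` of a map of the vector of the numbers of the
earlier letters -/
def vprod (a : α) (F : (α → ℕ) → K) : (α → ℕ) → List α → K
  | _, [] => 1
  | X, b :: w => (if b = a then F X else 1) * vprod a F (X + Pi.single b 1) w

theorem vprod_one (a : α) : ∀ (w : List α) (X : α → ℕ), vprod a (fun _ => (1 : K)) X w = 1 := by
  intro w
  induction w with
  | nil => intro X; rfl
  | cons b w ih =>
    intro X
    simp only [vprod, ih]
    split_ifs <;> simp

theorem vprod_mul (a : α) (F F' : (α → ℕ) → K) : ∀ (w : List α) (X : α → ℕ),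
    vprod a (fun X => F X * F' X) X w = vprod a F X w * vprod a F' X w := by
  intro w
  induction w with
  | nil => intro X; simp [vprod]
  | cons b w ih =>
    intro X
    simp only [vprod, ih]
    split_ifs
    · exact mul_mul_mul_comm _ _ _ _
    · simp

theorem vprod_pow (a : α) (k : K) (m : (α → ℕ) → ℕ) : ∀ (w : List α) (X : α → ℕ),
    vprod a (fun X => k ^ m X) X w = k ^ vsum a m X w := by
  intro w
  induction w with
  | nil => intro X; simp [vprod, vsum]
  | cons b w ih =>
    intro X
    simp only [vprod, vsum, ih, pow_add]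
    split_ifs <;> simp

variable {Φ : ι → K → K}

/-- the positional products of the maps `Pol` are determined by the positional counts along
the clocks with steps `0`, `1` and `-1` -/
theorem Pol.good (E : ℕ) [NeZero (36 * E)] (hE : ∀ k : K, k ^ E = 1) {a : α} {w w' : List α}
    (hst : ∀ v : α → ZMod (36 * E), (∀ x, v x = 0 ∨ v x = 1 ∨ v x = -1) → ∀ t : ZMod (36 * E),
      (cnt v (fun b => b = a) t 0 w : ZMod (36 * E))
        = (cnt v (fun b => b = a) t 0 w' : ZMod (36 * E)))
    {F : (α → ℕ) → K} (hF : Pol Φ (36 * E) F) : vprod a F 0 w = vprod a F 0 w' := by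
  induction hF with
  | one => rw [vprod_one, vprod_one]
  | term k j d K₀ m Fz hk hbm hdj =>
    rw [vprod_pow, vprod_pow]
    by_cases hj : j = 0
    · subst hj
      rw [hk.zero, one_pow, one_pow]
    · rw [pow_eq_pow_mod _ (hE k), pow_eq_pow_mod (vsum a m 0 w') (hE k)]
      exact congrArg _ (vsum_modEq E hst hbm (by omega))
  | mul _ _ ih ih' => rw [vprod_mul, vprod_mul, ih, ih']

end good

section grp

variable {G α : Type} [Group G] [DecidableEq α]

/-- the ordered product of the powers of the images of the letters of a list -/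
def rsec (f : α → G) (L : List α) (X : α → ℕ) : G := (L.map (fun b => f b ^ X b)).prod

omit [DecidableEq α] in
theorem rsec_congr (f : α → G) (L : List α) (X X' : α → ℕ) (h : ∀ b ∈ L, X b = X' b) :
    rsec f L X = rsec f L X' := by
  unfold rsec
  congr 1
  exact List.map_congr_left (fun b hb => by rw [h b hb])

omit [DecidableEq α] in
theorem rsec_cons (f : α → G) (l : α) (L : List α) (X : α → ℕ) :
    rsec f (l :: L) X = f l ^ X l * rsec f L X := by
  simp [rsec]

omit [DecidableEq α] in
theorem rsec_zero (f : α → G) (L : List α) : rsec f L 0 = 1 := by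
  induction L with
  | nil => rfl
  | cons l L ih =>
    rw [rsec_cons, ih]
    simp

/-- the vector of the numbers of letters after a word -/
def endv : (α → ℕ) → List α → (α → ℕ)
  | X, [] => X
  | X, b :: w => endv (X + Pi.single b 1) w

theorem endv_apply (x : α) : ∀ (w : List α) (X X' : α → ℕ),
    endv X w x = X x + vsum x (fun _ => 1) X' w := by
  intro w
  induction w with
  | nil => intro X X'; simp [endv, vsum]
  | cons b w ih =>
    intro X X'
    simp only [endv, vsum]
    rw [ih (X + Pi.single b 1) (X' + Pi.single b 1)]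
    simp only [Pi.add_apply, Pi.single_apply]
    by_cases hb : b = x
    · subst hb
      simp only [if_true]
      ring
    · have hx : ¬ x = b := fun h => hb h.symm
      simp [hb, hx]

/-- the clock statistics determine the product, for letters commuting modulo an abelian normal
subgroup on which all fourfold commutators are trivial, the commutators of the letters having
trivial threefold commutators -/
theorem meta4_prod_eq [Fintype α] (N : Subgroup G) [N.Normal]
    (hab : ∀ a ∈ N, ∀ b ∈ N, a * b = b * a) (f : α → G)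
    (hfc : ∀ a b : α, f a * f b * (f a)⁻¹ * (f b)⁻¹ ∈ N)
    (hD4 : ∀ n ∈ N, ∀ l : List G, 4 ≤ l.length → l.foldr cm n = 1)
    (hD3 : ∀ a b : α, ∀ l : List G, 3 ≤ l.length →
      l.foldr cm (f a * f b * (f a)⁻¹ * (f b)⁻¹) = 1)
    (E : ℕ) [NeZero (36 * E)] (hE : ∀ z : G, z ^ E = 1) (w w' : List α)
    (hst : ∀ (a : α) (v : α → ZMod (36 * E)), (∀ x, v x = 0 ∨ v x = 1 ∨ v x = -1) →
      ∀ t : ZMod (36 * E), (cnt v (fun b => b = a) t 0 w : ZMod (36 * E))
        = (cnt v (fun b => b = a) t 0 w' : ZMod (36 * E))) :
    (w.map f).prod = (w'.map f).prod := by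
  classical
  let _ : CommGroup N :=
    { (inferInstance : Group N) with
      mul_comm := fun a b => Subtype.ext (hab a a.2 b b.2) }
  let Φ : G → N → N := fun g k => ⟨g * k * g⁻¹, (inferInstance : N.Normal).conj_mem k k.2 g⟩
  have hΦ : ∀ g (a b : N), Φ g (a * b) = Φ g a * Φ g b := by
    intro g a b
    apply Subtype.ext
    show g * ((a * b : N) : G) * g⁻¹ = (g * a * g⁻¹) * (g * b * g⁻¹)
    rw [Subgroup.coe_mul]
    group
  have hfold : ∀ (l : List G) (k : N),
      ((l.foldr (fun g z => Φ g z * z⁻¹) k : N) : G) = l.foldr cm (k : G) := by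
    intro l
    induction l with
    | nil => intro k; rfl
    | cons g l ih =>
      intro k
      rw [List.foldr_cons, List.foldr_cons, ← ih k]
      rfl
  have hDep4 : ∀ k : N, Dep Φ 4 k := by
    intro k l hl
    apply Subtype.ext
    rw [hfold]
    exact hD4 k k.2 l hl
  have hDep3 : ∀ a b : α, Dep Φ 3 (⟨f a * f b * (f a)⁻¹ * (f b)⁻¹, hfc a b⟩ : N) := by
    intro a b l hl
    apply Subtype.ext
    rw [hfold]
    exact hD3 a b l hl
  have h4 : ∀ g (k : N), (fun x => Φ g x * x⁻¹)^[4] k = 1 := by
    intro g k
    have h0 := (hDep4 k).iter g 4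
    exact h0.zero
  have hiter : ∀ (g : G) (C : ℕ) (k : N), (((Φ g)^[C] k : N) : G) = g ^ C * k * (g ^ C)⁻¹ := by
    intro g C
    induction C with
    | zero => intro k; simp
    | succ C ih =>
      intro k
      rw [Function.iterate_succ_apply']
      show g * (((Φ g)^[C] k : N) : G) * g⁻¹ = _
      rw [ih, pow_succ']
      group
  have hbase : ∀ (a b : α) (n : ℕ),
      ((∏ t ∈ Finset.range n,
          (Φ (f a))^[t] (⟨f a * f b * (f a)⁻¹ * (f b)⁻¹, hfc a b⟩ : N) : N) : G)
        = f a ^ n * f b * (f a ^ n)⁻¹ * (f b)⁻¹ := by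
    intro a b n
    induction n with
    | zero => simp
    | succ n ih =>
      rw [Finset.prod_range_succ, mul_comm, Subgroup.coe_mul, hiter, ih, pow_succ]
      group
  have hA : ∀ (L : List α) (a : α), ∃ F : (α → ℕ) → N, Pol Φ (36 * E) F ∧
      ∀ X, ((F X : N) : G) = rsec f L X * f a * (rsec f L X)⁻¹ * (f a)⁻¹ := by
    intro L a
    induction L with
    | nil => exact ⟨fun _ => 1, Pol.one, fun X => by simp [rsec]⟩
    | cons l L ih =>
      obtain ⟨F', hP, hF'⟩ := ih
      refine ⟨fun X => (Φ (f l))^[X l] (F' X) * ∏ t ∈ Finset.range (X l),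
          (Φ (f l))^[t] (⟨f l * f a * (f l)⁻¹ * (f a)⁻¹, hfc l a⟩ : N),
        Pol.mul (hP.conj hΦ h4 (f l) l) (Pol.base hΦ h4 (f l) l _ (hDep3 l a)), fun X => ?_⟩
      rw [Subgroup.coe_mul, hiter, hF', hbase, rsec_cons]
      group
  have hB : ∀ (L : List α), L.Nodup → ∀ b ∈ L, ∃ F : (α → ℕ) → N, Pol Φ (36 * E) F ∧
      ∀ X, ((F X : N) : G) = rsec f L X * f b * (rsec f L (X + Pi.single b 1))⁻¹ := by
    intro L
    induction L with
    | nil => intro _ b hb; simp at hb
    | cons l L ih =>
      intro hnd b hb
      have hl : l ∉ L := (List.nodup_cons.1 hnd).1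
      have hnd' : L.Nodup := (List.nodup_cons.1 hnd).2
      by_cases hbl : b = l
      · subst hbl
        obtain ⟨F', hP, hF'⟩ := hA L b
        refine ⟨fun X => (Φ (f b))^[X b] (F' X), hP.conj hΦ h4 (f b) b, fun X => ?_⟩
        have e1 : rsec f L (X + Pi.single b 1) = rsec f L X :=
          rsec_congr f L _ _ (fun x hx => by
            have hxb : x ≠ b := fun h => hl (h ▸ hx)
            simp [hxb])
        have e2 : (X + Pi.single b 1 : α → ℕ) b = X b + 1 := by simp
        rw [hiter, hF', rsec_cons, rsec_cons, e1, e2, pow_succ]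
        group
      · have hb' : b ∈ L := by
          rcases List.mem_cons.1 hb with h | h
          · exact absurd h hbl
          · exact h
        obtain ⟨F', hP, hF'⟩ := ih hnd' b hb'
        refine ⟨fun X => (Φ (f l))^[X l] (F' X), hP.conj hΦ h4 (f l) l, fun X => ?_⟩
        have e2 : (X + Pi.single b 1 : α → ℕ) l = X l := by
          have hlb : l ≠ b := fun h => hbl h.symm
          simp [hlb]
        rw [hiter, hF', rsec_cons, rsec_cons, e2]
        group
  have hall : ∀ b : α, ∃ F : (α → ℕ) → N, Pol Φ (36 * E) F ∧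
      ∀ X, ((F X : N) : G) = rsec f Finset.univ.toList X * f b
        * (rsec f Finset.univ.toList (X + Pi.single b 1))⁻¹ :=
    fun b => hB _ (Finset.nodup_toList _) b (by simp)
  choose Fb hFbP hFb using hall
  have key : ∀ (u : List α) (X : α → ℕ), rsec f Finset.univ.toList X * (u.map f).prod
      = ((∏ b : α, vprod b (Fb b) X u : N) : G) * rsec f Finset.univ.toList (endv X u) := by
    intro u
    induction u with
    | nil => intro X; simp [vprod, endv]
    | cons b u ih =>
      intro X
      have e : (∏ a : α, vprod a (Fb a) X (b :: u))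
          = Fb b X * ∏ a : α, vprod a (Fb a) (X + Pi.single b 1) u := by
        simp only [vprod, Finset.prod_mul_distrib]
        congr 1
        rw [Finset.prod_ite_eq]
        simp
      have hih := ih (X + Pi.single b 1)
      rw [e, Subgroup.coe_mul, hFb]
      simp only [List.map_cons, List.prod_cons, endv]
      rw [mul_assoc (rsec f Finset.univ.toList X * f b
        * (rsec f Finset.univ.toList (X + Pi.single b 1))⁻¹), ← hih]
      group
  have hEN : ∀ k : N, k ^ E = 1 := fun k => Subtype.ext (by
    rw [Subgroup.coe_pow, hE]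
    rfl)
  have k1 := key w 0
  have k2 := key w' 0
  rw [rsec_zero, one_mul] at k1 k2
  have e1 : (∏ b : α, vprod b (Fb b) 0 w) = ∏ b : α, vprod b (Fb b) 0 w' :=
    Finset.prod_congr rfl (fun b _ => (hFbP b).good E hEN (hst b))
  have e2 : rsec f Finset.univ.toList (endv 0 w) = rsec f Finset.univ.toList (endv 0 w') := by
    unfold rsec
    congr 1
    refine List.map_congr_left (fun b _ => ?_)
    rw [pow_eq_pow_mod _ (hE (f b)), pow_eq_pow_mod (endv 0 w' b) (hE (f b))]
    congr 1
    rw [endv_apply b w 0 0, endv_apply b w' 0 0]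
    exact (vsum_modEq E (hst b) BM.one (by norm_num)).add_left _
  rw [k1, k2, e1, e2]

end grp

section main4

/-- **Letters commuting modulo an abelian normal subgroup.**  Let `G` be a group of finite
exponent, `N` an abelian normal subgroup on which all fourfold commutators are trivial, and
let the letters be sent to elements which commute modulo `N`, their commutators having trivial
threefold commutators.  Then the languages recognised through the letter map have generalized
star height at most one. -/
theorem meta4_gsh_exp {G α : Type} [Group G] (E : ℕ) (hEpos : 0 < E)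
    (hE : ∀ z : G, z ^ E = 1) [Finite α] (N : Subgroup G) [N.Normal]
    (hab : ∀ a ∈ N, ∀ b ∈ N, a * b = b * a) (f : α → G)
    (hfc : ∀ a b : α, f a * f b * (f a)⁻¹ * (f b)⁻¹ ∈ N)
    (hD4 : ∀ n ∈ N, ∀ l : List G, 4 ≤ l.length → l.foldr cm n = 1)
    (hD3 : ∀ a b : α, ∀ l : List G, 3 ≤ l.length →
      l.foldr cm (f a * f b * (f a)⁻¹ * (f b)⁻¹) = 1) (T : Set G) :
    HasGSH 1 (fun w : List α => (w.map f).prod ∈ T) := by
  classical
  cases nonempty_fintype α
  have : NeZero (36 * E) := ⟨by omega⟩
  let V : Type := {v : α → ZMod (36 * E) // ∀ x, v x = 0 ∨ v x = 1 ∨ v x = -1}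
  let F : α × V × ZMod (36 * E) → List α → ZMod (36 * E) := fun i w =>
    (cnt i.2.1.1 (fun b => b = i.1) i.2.2 0 w : ZMod (36 * E))
  have hF : ∀ i b, HasGSH 1 (fun w => F i w = b) := fun i b =>
    count_pm α (36 * E) i.2.1.1 i.2.1.2 (fun b => b = i.1) (36 * E) i.2.2 b
  refine HasGSH.of_fun (fun w => (fun i => F i w)) (fun S => HasGSH.pi F hF S) _ ?_
  intro w w' hww' hw
  have hst : ∀ (a : α) (v : α → ZMod (36 * E)), (∀ x, v x = 0 ∨ v x = 1 ∨ v x = -1) →
      ∀ t : ZMod (36 * E), (cnt v (fun b => b = a) t 0 w : ZMod (36 * E))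
        = (cnt v (fun b => b = a) t 0 w' : ZMod (36 * E)) :=
    fun a v hv t => congrFun hww' (a, ⟨v, hv⟩, t)
  have hprod : (w.map f).prod = (w'.map f).prod :=
    meta4_prod_eq N hab f hfc hD4 hD3 E hE w w' hst
  rw [← hprod]
  exact hw

/-- **Nilpotent groups of class at most four, letters commuting modulo an abelian normal
subgroup.**  If `G` is a finite nilpotent group of class at most four, `N` an abelian normal
subgroup and the images of the letters commute modulo `N`, then the languages recognised have
generalized star height at most one.  In particular this holds for every finite nilpotent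
group of class at most four whose commutator subgroup is abelian, with arbitrary letter
maps. -/
theorem class4_meta_gsh {G α : Type} [Group G] [Finite G] [hG : Group.IsNilpotent G]
    (hc : Group.nilpotencyClass G ≤ 4) [Finite α] (N : Subgroup G) [N.Normal]
    (hab : ∀ a ∈ N, ∀ b ∈ N, a * b = b * a) (f : α → G)
    (hfc : ∀ a b : α, f a * f b * (f a)⁻¹ * (f b)⁻¹ ∈ N) (T : Set G) :
    HasGSH 1 (fun w : List α => (w.map f).prod ∈ T) := by
  have h4 : Subgroup.lowerCentralSeries (⊤ : Subgroup G) 4 = ⊥ :=
    Subgroup.lowerCentralSeries_eq_bot_iff_nilpotencyClass_le.2 hc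
  have hstep : ∀ (i : ℕ) (g z : G), z ∈ Subgroup.lowerCentralSeries (⊤ : Subgroup G) i →
      cm g z ∈ Subgroup.lowerCentralSeries (⊤ : Subgroup G) (i + 1) := by
    intro i g z hz
    have h1 : z * g * z⁻¹ * g⁻¹ ∈ ⁅Subgroup.lowerCentralSeries (⊤ : Subgroup G) i,
        (⊤ : Subgroup G)⁆ := Subgroup.commutator_mem_commutator hz (Subgroup.mem_top g)
    have e : cm g z = (z * g * z⁻¹ * g⁻¹)⁻¹ := by
      unfold cm
      group
    rw [e]
    exact Subgroup.inv_mem _ h1
  have hfold : ∀ (l : List G) (i : ℕ) (z : G),
      z ∈ Subgroup.lowerCentralSeries (⊤ : Subgroup G) i →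
      l.foldr cm z ∈ Subgroup.lowerCentralSeries (⊤ : Subgroup G) (i + l.length) := by
    intro l
    induction l with
    | nil => intro i z hz; simpa using hz
    | cons g l ih =>
      intro i z hz
      rw [List.foldr_cons, List.length_cons, ← add_assoc]
      exact hstep _ g _ (ih i z hz)
  have hbot : ∀ i : ℕ, 4 ≤ i → ∀ z ∈ Subgroup.lowerCentralSeries (⊤ : Subgroup G) i, z = 1 := by
    intro i hi z hz
    have h := Subgroup.lowerCentralSeries_antitone _ hi hz
    rw [h4] at h
    exact Subgroup.mem_bot.mp h
  refine meta4_gsh_exp (Nat.card G) Nat.card_pos (fun _ => pow_card_eq_one') N hab f hfc ?_ ?_ T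
  · intro n _ l hl
    exact hbot (0 + l.length) (by omega) _ (hfold l 0 n (Subgroup.mem_top n))
  · intro a b l hl
    exact hbot (1 + l.length) (by omega) _ (hfold l 1 _
      (Subgroup.commutator_mem_commutator (Subgroup.mem_top (f a)) (Subgroup.mem_top (f b))))

end main4

end Vale.Agent.Helper10
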