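import Vale.Agent.Helper10.SF2

namespace Vale.Agent.Helper10

variable {Q α : Type} [DecidableEq Q]

/-- the automaton in which the state `q0` has been made absorbing -/
def absorb (δ : Q → α → Q) (q0 : Q) : Q → α → Q :=
  fun q a => if q = q0 then q0 else δ q a

theorem absorb_base (δ : Q → α → Q) (q0 : Q) (w : List α) : run (absorb δ q0) q0 w = q0 := by
  induction w with
  | nil => rfl
  | cons a w ih =>
    rw [run_cons]
    have : absorb δ q0 q0 a = q0 := by simp [absorb]
    rw [this, ih]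

theorem absorb_of_ne (δ : Q → α → Q) (q0 : Q) (p : Q) (a : α) (hp : p ≠ q0) :
    absorb δ q0 p a = δ p a := by
  simp [absorb, hp]

theorem absorb_ne (δ : Q → α → Q) (q0 : Q) : ∀ (w : List α) (p : Q),
    run (absorb δ q0) p w ≠ q0 → run δ p w = run (absorb δ q0) p w := by
  intro w
  induction w with
  | nil => intro p _; rfl
  | cons a w ih =>
    intro p h
    by_cases hp : p = q0
    · subst hp
      exact absurd (absorb_base δ p (a :: w)) h
    · rw [run_cons, run_cons, absorb_of_ne δ q0 p a hp] at *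
      exact ih (δ p a) h

theorem first_hit (δ : Q → α → Q) (q0 : Q) : ∀ (w : List α) (p : Q), p ≠ q0 →
    run (absorb δ q0) p w = q0 →
    ∃ x c y, w = x ++ c :: y ∧ run (absorb δ q0) p x ≠ q0 ∧
      δ (run (absorb δ q0) p x) c = q0 := by
  intro w
  induction w with
  | nil => intro p hp h; exact absurd h hp
  | cons a w ih =>
    intro p hp h
    by_cases h1 : δ p a = q0
    · exact ⟨[], a, w, rfl, hp, h1⟩
    · rw [run_cons, absorb_of_ne δ q0 p a hp] at h
      obtain ⟨x, c, y, rfl, hx1, hx2⟩ := ih (δ p a) h1 h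
      refine ⟨a :: x, c, y, rfl, ?_, ?_⟩
      · rw [run_cons, absorb_of_ne δ q0 p a hp]; exact hx1
      · rw [run_cons, absorb_of_ne δ q0 p a hp]; exact hx2

/-- the walk from `p` reaches `q0` for the first time exactly at the end of `w` -/
def Hit (δ : Q → α → Q) (q0 : Q) (p : Q) (w : List α) : Prop :=
  ∃ x d, w = x ++ [d] ∧ run (absorb δ q0) p x ≠ q0 ∧ δ (run (absorb δ q0) p x) d = q0

/-- the first-return words of the state `q0` -/
def Ret (δ : Q → α → Q) (q0 : Q) (w : List α) : Prop :=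
  ∃ c y, w = c :: y ∧ ((δ q0 c = q0 ∧ y = []) ∨ (δ q0 c ≠ q0 ∧ Hit δ q0 (δ q0 c) y))

/-- the walks leaving `q0` and ending in `q` without coming back -/
def Out (δ : Q → α → Q) (q0 : Q) (q : Q) (w : List α) : Prop :=
  ∃ c y, w = c :: y ∧ δ q0 c ≠ q0 ∧ run (absorb δ q0) (δ q0 c) y = q

theorem hit_run (δ : Q → α → Q) (q0 p : Q) (w : List α) (h : Hit δ q0 p w) :
    run δ p w = q0 := by
  obtain ⟨x, d, rfl, h1, h2⟩ := h
  rw [run_append, absorb_ne δ q0 x p h1]
  exact h2

theorem ret_run (δ : Q → α → Q) (q0 : Q) (w : List α) (h : Ret δ q0 w) :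
    run δ q0 w = q0 := by
  obtain ⟨c, y, rfl, ⟨h1, rfl⟩ | ⟨_, h2⟩⟩ := h
  · exact h1
  · rw [run_cons]; exact hit_run δ q0 _ y h2

theorem star_run (δ : Q → α → Q) (q0 : Q) (L : List (List α)) (h : ∀ y ∈ L, Ret δ q0 y) :
    run δ q0 L.flatten = q0 := by
  induction L with
  | nil => rfl
  | cons y L ih =>
    rw [List.flatten_cons, run_append, ret_run δ q0 y (h y (by simp))]
    exact ih (fun z hz => h z (List.mem_cons_of_mem y hz))

theorem base_decomp (δ : Q → α → Q) (q0 : Q) : ∀ (n : ℕ) (w : List α), w.length ≤ n →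
    ∃ L : List (List α), (∀ y ∈ L, Ret δ q0 y) ∧
      ((w = L.flatten ∧ run δ q0 w = q0) ∨
       (∃ c y, w = L.flatten ++ c :: y ∧ δ q0 c ≠ q0 ∧
          run (absorb δ q0) (δ q0 c) y ≠ q0 ∧
          run δ q0 w = run (absorb δ q0) (δ q0 c) y)) := by
  intro n
  induction n with
  | zero =>
    intro w hw
    have : w = [] := List.length_eq_zero_iff.1 (Nat.le_zero.1 hw)
    subst this
    exact ⟨[], by simp, Or.inl ⟨rfl, rfl⟩⟩
  | succ n ih =>
    intro w hw
    cases w with
    | nil => exact ⟨[], by simp, Or.inl ⟨rfl, rfl⟩⟩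
    | cons c w' =>
      have hw' : w'.length ≤ n := by simpa using hw
      by_cases h1 : δ q0 c = q0
      · obtain ⟨L, hL, hcase⟩ := ih w' hw'
        have hret : Ret δ q0 [c] := ⟨c, [], rfl, Or.inl ⟨h1, rfl⟩⟩
        refine ⟨[c] :: L, ?_, ?_⟩
        · intro y hy
          rcases List.mem_cons.1 hy with rfl | hy
          · exact hret
          · exact hL y hy
        · rcases hcase with ⟨rfl, h3⟩ | ⟨c', y, rfl, h3, h4, h5⟩
          · refine Or.inl ⟨by simp, ?_⟩
            rw [run_cons, h1]; exact h3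
          · refine Or.inr ⟨c', y, by simp, h3, h4, ?_⟩
            rw [run_cons, h1]; exact h5
      · by_cases h2 : run (absorb δ q0) (δ q0 c) w' = q0
        · obtain ⟨x, d, y', rfl, hx1, hx2⟩ := first_hit δ q0 w' (δ q0 c) h1 h2
          have hy' : y'.length ≤ n := by
            simp at hw'
            omega
          obtain ⟨L, hL, hcase⟩ := ih y' hy'
          have hret : Ret δ q0 (c :: (x ++ [d])) :=
            ⟨c, x ++ [d], rfl, Or.inr ⟨h1, x, d, rfl, hx1, hx2⟩⟩
          have hsplit : c :: (x ++ d :: y') = (c :: (x ++ [d])) ++ y' := by simp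
          have hrun : run δ q0 (c :: (x ++ d :: y')) = run δ q0 y' := by
            rw [hsplit, run_append, ret_run δ q0 _ hret]
          refine ⟨(c :: (x ++ [d])) :: L, ?_, ?_⟩
          · intro y hy
            rcases List.mem_cons.1 hy with rfl | hy
            · exact hret
            · exact hL y hy
          · rcases hcase with ⟨rfl, h3⟩ | ⟨c', y, rfl, h3, h4, h5⟩
            · refine Or.inl ⟨by simp, ?_⟩
              rw [hrun]; exact h3
            · refine Or.inr ⟨c', y, by simp, h3, h4, ?_⟩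
              rw [hrun]; exact h5
        · refine ⟨[], by simp, Or.inr ⟨c, w', by simp, h1, h2, ?_⟩⟩
          rw [run_cons]
          exact absorb_ne δ q0 w' (δ q0 c) h2

theorem base_base (δ : Q → α → Q) (q0 : Q) (w : List α) :
    run δ q0 w = q0 ↔ ∃ L : List (List α), w = L.flatten ∧ ∀ y ∈ L, Ret δ q0 y := by
  constructor
  · intro h
    obtain ⟨L, hL, hcase⟩ := base_decomp δ q0 w.length w le_rfl
    rcases hcase with ⟨h1, _⟩ | ⟨c, y, _, _, h4, h5⟩
    · exact ⟨L, h1, hL⟩
    · exact absurd (h5.symm.trans h) h4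
  · rintro ⟨L, rfl, hL⟩
    exact star_run δ q0 L hL

theorem base_other (δ : Q → α → Q) (q0 q : Q) (hq : q ≠ q0) (w : List α) :
    run δ q0 w = q ↔ ∃ u v, w = u ++ v ∧
      (∃ L : List (List α), u = L.flatten ∧ ∀ y ∈ L, Ret δ q0 y) ∧ Out δ q0 q v := by
  constructor
  · intro h
    obtain ⟨L, hL, hcase⟩ := base_decomp δ q0 w.length w le_rfl
    rcases hcase with ⟨_, h2⟩ | ⟨c, y, h1, h3, _, h5⟩
    · exact absurd (h2.symm.trans h) (Ne.symm hq)
    · exact ⟨L.flatten, c :: y, h1, ⟨L, rfl, hL⟩, c, y, rfl, h3, h5.symm.trans h⟩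
  · rintro ⟨u, v, rfl, ⟨L, rfl, hL⟩, c, y, rfl, h3, h4⟩
    rw [run_append, star_run δ q0 L hL, run_cons]
    rw [absorb_ne δ q0 y (δ q0 c) (by rw [h4]; exact hq)]
    exact h4

theorem other_decomp (δ : Q → α → Q) (q0 p q : Q) (hp : p ≠ q0) (w : List α) :
    run δ p w = q ↔ (q ≠ q0 ∧ run (absorb δ q0) p w = q) ∨
      (∃ u v, w = u ++ v ∧ Hit δ q0 p u ∧ run δ q0 v = q) := by
  constructor
  · intro h
    by_cases h1 : run (absorb δ q0) p w = q0
    · obtain ⟨x, d, y, rfl, hx1, hx2⟩ := first_hit δ q0 w p hp h1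
      have hhit : Hit δ q0 p (x ++ [d]) := ⟨x, d, rfl, hx1, hx2⟩
      refine Or.inr ⟨x ++ [d], y, by simp, hhit, ?_⟩
      have : x ++ d :: y = (x ++ [d]) ++ y := by simp
      rw [this, run_append, hit_run δ q0 p _ hhit] at h
      exact h
    · have h2 := absorb_ne δ q0 w p h1
      refine Or.inl ⟨?_, h2.symm.trans h⟩
      rw [← h, h2]
      exact h1
  · rintro (⟨h1, h2⟩ | ⟨u, v, rfl, h1, h2⟩)
    · rw [absorb_ne δ q0 w p (by rw [h2]; exact h1)]
      exact h2
    · rw [run_append, hit_run δ q0 p u h1]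
      exact h2

section
variable [Finite Q] [Finite α]

theorem hit_sf (δ : Q → α → Q) (q0 : Q) (hcf : CounterFree (absorb δ q0)) (p : Q) :
    HasGSH 0 (Hit δ q0 p) := by
  have h1 : HasGSH 0 (fun w : List α => ∃ r : Q, ∃ d : α, (r ≠ q0 ∧ δ r d = q0) ∧
      ∃ u v, w = u ++ v ∧ run (absorb δ q0) p u = r ∧ v = [d]) :=
    HasGSH.exists_ _ (fun r => HasGSH.exists_ _ (fun d =>
      (HasGSH.const 0 _).and ((sf_of_counterFree _ hcf p r).cat (HasGSH.single 0 d))))
  refine h1.congr (fun w => ?_)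
  constructor
  · rintro ⟨r, d, ⟨hr1, hr2⟩, u, v, rfl, rfl, rfl⟩
    exact ⟨u, d, rfl, hr1, hr2⟩
  · rintro ⟨x, d, rfl, h1, h2⟩
    exact ⟨_, d, ⟨h1, h2⟩, x, [d], rfl, rfl, rfl⟩

theorem ret_sf (δ : Q → α → Q) (q0 : Q) (hcf : CounterFree (absorb δ q0)) :
    HasGSH 0 (Ret δ q0) := by
  have h1 : HasGSH 0 (fun w : List α => ∃ c : α, ∃ u v, w = u ++ v ∧ u = [c] ∧
      ((δ q0 c = q0 ∧ v = []) ∨ (δ q0 c ≠ q0 ∧ Hit δ q0 (δ q0 c) v))) :=
    HasGSH.exists_ _ (fun c => (HasGSH.single 0 c).cat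
      (((HasGSH.const 0 _).and (HasGSH.nil 0)).or
        ((HasGSH.const 0 _).and (hit_sf δ q0 hcf (δ q0 c)))))
  refine h1.congr (fun w => ?_)
  constructor
  · rintro ⟨c, u, v, rfl, rfl, h⟩
    exact ⟨c, v, rfl, h⟩
  · rintro ⟨c, y, rfl, h⟩
    exact ⟨c, [c], y, rfl, rfl, h⟩

theorem out_sf (δ : Q → α → Q) (q0 : Q) (hcf : CounterFree (absorb δ q0)) (q : Q) :
    HasGSH 0 (Out δ q0 q) := by
  have h1 : HasGSH 0 (fun w : List α => ∃ c : α, ∃ u v, w = u ++ v ∧ u = [c] ∧
      (δ q0 c ≠ q0 ∧ run (absorb δ q0) (δ q0 c) v = q)) :=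
    HasGSH.exists_ _ (fun c => (HasGSH.single 0 c).cat
      ((HasGSH.const 0 _).and (sf_of_counterFree _ hcf (δ q0 c) q)))
  refine h1.congr (fun w => ?_)
  constructor
  · rintro ⟨c, u, v, rfl, rfl, h⟩
    exact ⟨c, v, rfl, h⟩
  · rintro ⟨c, y, rfl, h⟩
    exact ⟨c, [c], y, rfl, rfl, h⟩

/-- all the languages of an automaton which is counter-free once one state is made
absorbing have star height at most one -/
theorem one_base (δ : Q → α → Q) (q0 : Q) (hcf : CounterFree (absorb δ q0)) (p q : Q) :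
    HasGSH 1 (fun w : List α => run δ p w = q) := by
  have hstar : HasGSH 1 (fun w : List α =>
      ∃ L : List (List α), w = L.flatten ∧ ∀ y ∈ L, Ret δ q0 y) :=
    (ret_sf δ q0 hcf).star
  have hbase : ∀ q : Q, HasGSH 1 (fun w : List α => run δ q0 w = q) := by
    intro q
    by_cases hq : q = q0
    · subst hq
      exact hstar.congr (fun w => (base_base δ q w).symm)
    · exact (hstar.cat ((out_sf δ q0 hcf q).mono (Nat.zero_le 1))).congr
        (fun w => (base_other δ q0 q hq w).symm)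
  by_cases hp : p = q0
  · subst hp
    exact hbase q
  · exact ((((HasGSH.const 1 (q ≠ q0)).and
      ((sf_of_counterFree _ hcf p q).mono (Nat.zero_le 1)))).or
      (((hit_sf δ q0 hcf p).mono (Nat.zero_le 1)).cat (hbase q))).congr
        (fun w => (other_decomp δ q0 p q hp w).symm)

/-- the same for every language recognised by the transition monoid -/
theorem one_base_set (δ : Q → α → Q) (q0 : Q) (hcf : CounterFree (absorb δ q0))
    (S : Set (Q → Q)) : HasGSH 1 (fun w : List α => (fun p => run δ p w) ∈ S) := by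
  have h1 : HasGSH 1 (fun w : List α => ∃ t : Q → Q, t ∈ S ∧ ∀ p, run δ p w = t p) :=
    HasGSH.exists_ _ (fun t => (HasGSH.const 1 _).and
      (HasGSH.forall_ _ (fun p => one_base δ q0 hcf p (t p))))
  refine h1.congr (fun w => ?_)
  constructor
  · rintro ⟨t, ht, h⟩
    have : (fun p => run δ p w) = t := funext h
    rw [this]; exact ht
  · intro h
    exact ⟨_, h, fun _ => rfl⟩

end

end Vale.Agent.Helper10
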