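import Vale.Agent.Helper10.Rounds
import Vale.Agent.Helper10.Cnt

namespace Vale.Agent.Helper10

section sem

variable {α : Type} {p : ℕ} (dg : α → ZMod p) (sp : α → Bool) (x : ZMod p) (M : ℕ)

/-- every block advances the counter, except those which start with a special letter and
end with an ordinary one -/
def incA (f g : Bool) : Bool := !(f && !g)

/-- every block advances the counter, except those which start with an ordinary letter and
end with a special one -/
def incB (f g : Bool) : Bool := !(!f && g)

theorem incA_ok : ∀ f g g', incA f g = false → incA g g' = true := by decide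

theorem incB_ok : ∀ f g g', incB f g = false → incB g g' = true := by decide

/-- the correction for a block in progress which started with a special letter -/
def tau (i : ZMod p × Bool) : ZMod M := if i.1 ≠ x ∧ i.2 = true then 1 else 0

theorem cStep_eq (inc : Bool → Bool → Bool) (k : ZMod M) (i : ZMod p × Bool) (a : α) :
    cStep dg sp x inc false M (k, i) a
      = (k + (if inBad dg sp x inc false i a = true then 1 else 0), inStep dg sp x i a) := by
  show (if inBad dg sp x inc false i a = true then (k + 1, (x, false))
    else (k, inStep dg sp x i a)) = _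
  by_cases hb : inBad dg sp x inc false i a = true
  · rw [if_pos hb, if_pos hb]
    have h1 : i.1 + dg a = x := by
      by_contra h
      unfold inBad at hb
      rw [if_neg h] at hb
      exact absurd hb (by simp)
    have h2 : i.1 ≠ x := by
      intro h
      unfold inBad at hb
      rw [if_pos h1, if_pos h] at hb
      simp at hb
    rw [inStep_eq2 dg sp x i a h1 h2]
  · rw [if_neg hb, if_neg hb, add_zero]

theorem step_ne (d : ZMod p) (hsp : ∀ a, sp a = true → dg a = d) (hd : d ≠ 0)
    (i : ZMod p × Bool) (a : α) :
    ((if inBad dg sp x incB false i a = true then (1 : ZMod M) else 0)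
      - (if inBad dg sp x incA false i a = true then 1 else 0))
      + tau x M (inStep dg sp x i a) - tau x M i
      = (if sp a = true ∧ i.1 = x then 1 else 0) - (if sp a = true ∧ i.1 = x - d then 1 else 0) := by
  by_cases h1 : i.1 + dg a = x
  · by_cases h2 : i.1 = x
    · have e1 : inBad dg sp x incB false i a = false := by
        unfold inBad; rw [if_pos h1, if_pos h2]; rfl
      have e2 : inBad dg sp x incA false i a = false := by
        unfold inBad; rw [if_pos h1, if_pos h2]; rfl
      have hda : dg a = 0 := by
        have := h1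
        rw [h2] at this
        simpa using this
      have hs : ¬ (sp a = true) := fun h => hd ((hsp a h).symm.trans hda)
      rw [e1, e2, inStep_eq1 dg sp x i a h1 h2]
      simp [hs]
    · have e1 : inBad dg sp x incB false i a = incB i.2 (sp a) := by
        unfold inBad; rw [if_pos h1, if_neg h2]
      have e2 : inBad dg sp x incA false i a = incA i.2 (sp a) := by
        unfold inBad; rw [if_pos h1, if_neg h2]
      have hx1 : ¬ (sp a = true ∧ i.1 = x) := fun h => h2 h.2
      have hx2 : (sp a = true ∧ i.1 = x - d) ↔ sp a = true :=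
        ⟨fun h => h.1, fun h => ⟨h, by rw [← h1, hsp a h]; ring⟩⟩
      have t1 : tau x M ((x, false) : ZMod p × Bool) = 0 := by simp [tau]
      have t2 : tau x M i = if i.2 = true then 1 else 0 := by simp [tau, h2]
      rw [e1, e2, inStep_eq2 dg sp x i a h1 h2, if_neg hx1, t1, t2]
      simp only [hx2]
      cases i.2 <;> cases sp a <;> simp [incA, incB]
  · by_cases h2 : i.1 = x
    · have e1 : inBad dg sp x incB false i a = false := by
        unfold inBad; rw [if_neg h1]
      have e2 : inBad dg sp x incA false i a = false := by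
        unfold inBad; rw [if_neg h1]
      have hx1 : (sp a = true ∧ i.1 = x) ↔ sp a = true := ⟨fun h => h.1, fun h => ⟨h, h2⟩⟩
      have hx2 : ¬ (sp a = true ∧ i.1 = x - d) := by
        rintro ⟨-, h⟩
        apply hd
        rw [h2] at h
        have : x - 0 = x - d := by rw [sub_zero]; exact h
        exact (sub_right_injective this).symm
      have t1 : tau x M ((i.1 + dg a, sp a) : ZMod p × Bool) = if sp a = true then 1 else 0 := by
        simp [tau, h1]
      have t2 : tau x M i = 0 := by simp [tau, h2]
      rw [e1, e2, inStep_eq3 dg sp x i a h1 h2, if_neg hx2, t1, t2]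
      simp only [hx1]
      simp
    · have e1 : inBad dg sp x incB false i a = false := by
        unfold inBad; rw [if_neg h1]
      have e2 : inBad dg sp x incA false i a = false := by
        unfold inBad; rw [if_neg h1]
      have hx1 : ¬ (sp a = true ∧ i.1 = x) := fun h => h2 h.2
      have hx2 : ¬ (sp a = true ∧ i.1 = x - d) := by
        rintro ⟨hs, h⟩
        apply h1
        rw [h, hsp a hs]
        ring
      have t1 : tau x M ((i.1 + dg a, i.2) : ZMod p × Bool) = if i.2 = true then 1 else 0 := by
        simp [tau, h1]
      have t2 : tau x M i = if i.2 = true then 1 else 0 := by simp [tau, h2]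
      rw [e1, e2, inStep_eq4 dg sp x i a h1 h2, if_neg hx1, if_neg hx2, t1, t2]
      simp

/-- what the two automata compute together: the number of special letters read at class
`x` minus the number of special letters read at class `x - d` -/
theorem sem_ne (d : ZMod p) (hsp : ∀ a, sp a = true → dg a = d) (hd : d ≠ 0) :
    ∀ (w : List α) (k1 k2 : ZMod M) (i : ZMod p × Bool),
      (run (cStep dg sp x incB false M) (k2, i) w).2 = (run (cStep dg sp x incA false M) (k1, i) w).2 ∧
      (run (cStep dg sp x incB false M) (k2, i) w).1 - (run (cStep dg sp x incA false M) (k1, i) w).1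
          + tau x M (run (cStep dg sp x incA false M) (k1, i) w).2
        = k2 - k1 + tau x M i + (cnt dg (fun a => sp a = true) x i.1 w : ZMod M)
          - (cnt dg (fun a => sp a = true) (x - d) i.1 w : ZMod M) := by
  intro w
  induction w with
  | nil =>
    intro k1 k2 i
    simp [cnt]
  | cons a w ih =>
    intro k1 k2 i
    rw [run_cons, run_cons, cStep_eq, cStep_eq]
    obtain ⟨ih1, ih2⟩ := ih (k1 + (if inBad dg sp x incA false i a = true then 1 else 0))
      (k2 + (if inBad dg sp x incB false i a = true then 1 else 0)) (inStep dg sp x i a)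
    refine ⟨ih1, ?_⟩
    rw [ih2, inStep_fst]
    have hstep := step_ne dg sp x M d hsp hd i a
    simp only [cnt]
    push_cast
    linear_combination hstep

end sem


section zero

variable {α : Type} {p : ℕ} (dg : α → ZMod p) (sp : α → Bool) (x : ZMod p) (M : ℕ)

theorem cStep_eq' (inc : Bool → Bool → Bool) (nz : Bool) (k : ZMod M) (c : ZMod p) (f : Bool)
    (a : α) : ∃ f' : Bool, cStep dg sp x inc nz M (k, (c, f)) a
      = (k + (if inBad dg sp x inc nz (c, f) a = true then 1 else 0), (c + dg a, f')) := by
  show ∃ f' : Bool, (if inBad dg sp x inc nz (c, f) a = true then (k + 1, (x, false))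
    else (k, inStep dg sp x (c, f) a)) = _
  by_cases hb : inBad dg sp x inc nz (c, f) a = true
  · have h1 : c + dg a = x := by
      by_contra h
      have h' : ¬ ((c, f) : ZMod p × Bool).1 + dg a = x := h
      unfold inBad at hb
      rw [if_neg h'] at hb
      exact absurd hb (by simp)
    exact ⟨false, by rw [if_pos hb, if_pos hb, h1]⟩
  · refine ⟨(inStep dg sp x (c, f) a).2, ?_⟩
    rw [if_neg hb, if_neg hb, add_zero]
    exact Prod.ext rfl (Prod.ext (inStep_fst dg sp x (c, f) a) rfl)

theorem step_zero (hsp : ∀ a, sp a = true → dg a = 0) (c : ZMod p) (f3 f4 : Bool) (a : α) :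
    ((if inBad dg sp x (fun _ _ => true) true (c, f3) a = true then (1 : ZMod M) else 0)
      - (if inBad dg sp x (fun _ _ => true) false (c, f4) a = true then 1 else 0))
      = (if sp a = true ∧ c = x then 1 else 0) := by
  by_cases h1 : c + dg a = x
  · by_cases h2 : c = x
    · have e1 : inBad dg sp x (fun _ _ => true) true (c, f3) a = sp a := by
        have h1' : ((c, f3) : ZMod p × Bool).1 + dg a = x := h1
        have h2' : ((c, f3) : ZMod p × Bool).1 = x := h2
        unfold inBad; rw [if_pos h1', if_pos h2']; rfl
      have e2 : inBad dg sp x (fun _ _ => true) false (c, f4) a = false := by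
        have h1' : ((c, f4) : ZMod p × Bool).1 + dg a = x := h1
        have h2' : ((c, f4) : ZMod p × Bool).1 = x := h2
        unfold inBad; rw [if_pos h1', if_pos h2']; rfl
      rw [e1, e2]
      simp [h2]
    · have e1 : inBad dg sp x (fun _ _ => true) true (c, f3) a = true := by
        have h1' : ((c, f3) : ZMod p × Bool).1 + dg a = x := h1
        have h2' : ¬ ((c, f3) : ZMod p × Bool).1 = x := h2
        unfold inBad; rw [if_pos h1', if_neg h2']
      have e2 : inBad dg sp x (fun _ _ => true) false (c, f4) a = true := by
        have h1' : ((c, f4) : ZMod p × Bool).1 + dg a = x := h1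
        have h2' : ¬ ((c, f4) : ZMod p × Bool).1 = x := h2
        unfold inBad; rw [if_pos h1', if_neg h2']
      rw [e1, e2]
      simp [h2]
  · have e1 : inBad dg sp x (fun _ _ => true) true (c, f3) a = false := by
      have h1' : ¬ ((c, f3) : ZMod p × Bool).1 + dg a = x := h1
      unfold inBad; rw [if_neg h1']
    have e2 : inBad dg sp x (fun _ _ => true) false (c, f4) a = false := by
      have h1' : ¬ ((c, f4) : ZMod p × Bool).1 + dg a = x := h1
      unfold inBad; rw [if_neg h1']
    have hx : ¬ (sp a = true ∧ c = x) := by
      rintro ⟨hs, hc⟩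
      apply h1
      rw [hsp a hs, add_zero]
      exact hc
    rw [e1, e2, if_neg hx]
    simp

/-- for special letters of degree zero: the difference of the two counters is the number
of special letters read at class `x` -/
theorem sem_zero (hsp : ∀ a, sp a = true → dg a = 0) :
    ∀ (w : List α) (k3 k4 : ZMod M) (c : ZMod p) (f3 f4 : Bool),
      (run (cStep dg sp x (fun _ _ => true) true M) (k3, (c, f3)) w).1
        - (run (cStep dg sp x (fun _ _ => true) false M) (k4, (c, f4)) w).1
        = k3 - k4 + (cnt dg (fun a => sp a = true) x c w : ZMod M) := by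
  intro w
  induction w with
  | nil =>
    intro k3 k4 c f3 f4
    simp [cnt]
  | cons a w ih =>
    intro k3 k4 c f3 f4
    obtain ⟨f3', e3⟩ := cStep_eq' dg sp x M (fun _ _ => true) true k3 c f3 a
    obtain ⟨f4', e4⟩ := cStep_eq' dg sp x M (fun _ _ => true) false k4 c f4 a
    rw [run_cons, run_cons, e3, e4, ih]
    have hstep := step_zero dg sp x M hsp c f3 f4 a
    simp only [cnt]
    push_cast
    linear_combination hstep

end zero

section languages

variable {α : Type} [Finite α] {p : ℕ} [Fact p.Prime] (dg : α → ZMod p) (sp : α → Bool)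
  (x : ZMod p) (M : ℕ) [NeZero M]

theorem count_zero (hsp : ∀ a, sp a = true → dg a = 0) (r : ZMod M) :
    HasGSH 1 (fun w : List α => (cnt dg (fun a => sp a = true) x 0 w : ZMod M) = r) := by
  classical
  have : NeZero p := ⟨(Fact.out : p.Prime).ne_zero⟩
  have htriv : ∀ f g g' : Bool, (fun _ _ => true : Bool → Bool → Bool) f g = false →
      (fun _ _ => true : Bool → Bool → Bool) g g' = true := fun _ _ _ _ => rfl
  have hcf3 := cStep_cf dg sp x (fun _ _ => true) true M htriv
  have hcf4 := cStep_cf dg sp x (fun _ _ => true) false M htriv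
  refine HasGSH.of_fun
    (fun w : List α => (run (cStep dg sp x (fun _ _ => true) true M) (0, (0, false)) w,
      run (cStep dg sp x (fun _ _ => true) false M) (0, (0, false)) w)) ?_ _ ?_
  · rintro ⟨q3, q4⟩
    exact ((one_base _ _ hcf3 (0, (0, false)) q3).and
      (one_base _ _ hcf4 (0, (0, false)) q4)).congr (fun w => by simp [Prod.ext_iff])
  · intro w w' hF hw
    have h1 := sem_zero dg sp x M hsp w 0 0 0 false false
    have h2 := sem_zero dg sp x M hsp w' 0 0 0 false false
    simp only [Prod.mk.injEq] at hF
    rw [hF.1, hF.2, h2] at h1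
    simp only [sub_self, zero_add] at h1
    rw [h1]
    exact hw

theorem diff_ne (d : ZMod p) (hsp : ∀ a, sp a = true → dg a = d) (hd : d ≠ 0) (r : ZMod M) :
    HasGSH 1 (fun w : List α => (cnt dg (fun a => sp a = true) x 0 w : ZMod M)
      - (cnt dg (fun a => sp a = true) (x - d) 0 w : ZMod M) = r) := by
  classical
  have : NeZero p := ⟨(Fact.out : p.Prime).ne_zero⟩
  have hcfA := cStep_cf dg sp x incA false M incA_ok
  have hcfB := cStep_cf dg sp x incB false M incB_ok
  refine HasGSH.of_fun
    (fun w : List α => (run (cStep dg sp x incA false M) (0, (0, false)) w,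
      run (cStep dg sp x incB false M) (0, (0, false)) w)) ?_ _ ?_
  · rintro ⟨qA, qB⟩
    exact ((one_base _ _ hcfA (0, (0, false)) qA).and
      (one_base _ _ hcfB (0, (0, false)) qB)).congr (fun w => by simp [Prod.ext_iff])
  · intro w w' hF hw
    have h1 := (sem_ne dg sp x M d hsp hd w 0 0 (0, false)).2
    have h2 := (sem_ne dg sp x M d hsp hd w' 0 0 (0, false)).2
    simp only [Prod.mk.injEq] at hF
    rw [hF.1, hF.2, h2] at h1
    have ht : tau x M ((0, false) : ZMod p × Bool) = 0 := by simp [tau]
    rw [ht] at h1
    simp only [sub_self, zero_add] at h1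
    rw [h1]
    exact hw

end languages

theorem cnt_congr' {α A : Type} [AddCommGroup A] [DecidableEq A] (dg : α → A)
    (sp sp' : α → Prop) [DecidablePred sp] [DecidablePred sp'] (h : ∀ a, sp a ↔ sp' a)
    (x : A) : ∀ (w : List α) (c : A), cnt dg sp x c w = cnt dg sp' x c w := by
  intro w
  induction w with
  | nil => intro c; rfl
  | cons a w ih =>
    intro c
    simp only [cnt, ih, h a]

theorem cnt_total' {α A : Type} [AddCommGroup A] [DecidableEq A] [Fintype A] (dg : α → A)
    (sp : α → Prop) [DecidablePred sp] : ∀ (w : List α) (c : A),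
    ∑ x : A, cnt dg sp x c w = cnt (fun _ => (0 : A)) sp 0 0 w := by
  intro w
  induction w with
  | nil => intro c; simp [cnt]
  | cons a w ih =>
    intro c
    simp only [cnt, Finset.sum_add_distrib, ih, add_zero]
    congr 1
    by_cases hs : sp a
    · simp [hs]
    · simp [hs]

theorem diff_determine' {p e : ℕ} [Fact p.Prime] (d : ZMod p) (hd : d ≠ 0) (a a' : ZMod p → ℕ)
    (h1 : ∀ y, ((a y : ZMod (p * e)) - (a (y - d) : ZMod (p * e)))
      = (a' y : ZMod (p * e)) - (a' (y - d) : ZMod (p * e)))
    (h2 : ((∑ y, a y : ℕ) : ZMod (p * e)) = ((∑ y, a' y : ℕ) : ZMod (p * e))) :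
    ∀ x, a x ≡ a' x [MOD e] := by
  have hp : NeZero p := ⟨(Fact.out : p.Prime).ne_zero⟩
  intro x
  have hD : ∀ y, (a y : ZMod (p * e)) - a' y = (a (y - d) : ZMod (p * e)) - a' (y - d) := by
    intro y
    linear_combination h1 y
  have hconst : ∀ (j : ℕ) , (a (x - j * d) : ZMod (p * e)) - a' (x - j * d)
      = (a x : ZMod (p * e)) - a' x := by
    intro j
    induction j with
    | zero => simp
    | succ j ih =>
      rw [← ih, hD (x - j * d)]
      have : x - ((j + 1 : ℕ) : ZMod p) * d = x - j * d - d := by push_cast; ring
      rw [this]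
  have hall : ∀ y, (a y : ZMod (p * e)) - a' y = (a x : ZMod (p * e)) - a' x := by
    intro y
    have := hconst (((x - y) * d⁻¹).val)
    rw [ZMod.natCast_zmod_val, mul_assoc, inv_mul_cancel₀ hd, mul_one, sub_sub_cancel] at this
    exact this
  have hsum : ∑ y : ZMod p, ((a y : ZMod (p * e)) - a' y) = 0 := by
    rw [Finset.sum_sub_distrib]
    push_cast at h2
    rw [h2, sub_self]
  rw [Finset.sum_congr rfl (fun y _ => hall y), Finset.sum_const, Finset.card_univ,
    ZMod.card, nsmul_eq_mul] at hsum
  have h3 : ((p * a x : ℕ) : ZMod (p * e)) = ((p * a' x : ℕ) : ZMod (p * e)) := by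
    push_cast
    linear_combination hsum
  rw [ZMod.natCast_eq_natCast_iff] at h3
  exact Nat.ModEq.mul_left_cancel' hp.out h3

/-- positional counting modulo `e` along classes modulo a prime: the number of letters
satisfying `sp` (all of the same degree) which are read at a prefix of class `x` -/
theorem count_prime {α : Type} [Finite α] {p : ℕ} [Fact p.Prime] (dg : α → ZMod p)
    (sp : α → Prop) [DecidablePred sp] (d : ZMod p) (hsp : ∀ a, sp a → dg a = d) (e : ℕ)
    [NeZero e] (x : ZMod p) (r : ZMod e) :
    HasGSH 1 (fun w : List α => (cnt dg sp x 0 w : ZMod e) = r) := by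
  classical
  have hp : NeZero p := ⟨(Fact.out : p.Prime).ne_zero⟩
  have hcg : ∀ (dg' : α → ZMod p) (y : ZMod p) (w : List α),
      cnt dg' sp y 0 w = cnt dg' (fun a => decide (sp a) = true) y 0 w :=
    fun dg' y w => cnt_congr' dg' sp _ (fun a => by simp) y w 0
  by_cases hd : d = 0
  · have h0 := count_zero dg (fun a => decide (sp a)) x e
      (fun a ha => by rw [hsp a (by simpa using ha), hd]) r
    exact h0.congr (fun w => by rw [hcg])
  · have hM : NeZero (p * e) := ⟨Nat.mul_ne_zero hp.out (NeZero.ne e)⟩
    have hE : ∀ (y : ZMod p) (t : ZMod (p * e)), HasGSH 1 (fun w : List α =>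
        (cnt dg sp y 0 w : ZMod (p * e)) - (cnt dg sp (y - d) 0 w : ZMod (p * e)) = t) := by
      intro y t
      have h0 := diff_ne dg (fun a => decide (sp a)) y (p * e) d
        (fun a ha => hsp a (by simpa using ha)) hd t
      exact h0.congr (fun w => by rw [hcg, hcg])
    have hT : ∀ t : ZMod (p * e), HasGSH 1 (fun w : List α =>
        (cnt (fun _ => (0 : ZMod p)) sp 0 0 w : ZMod (p * e)) = t) := by
      intro t
      have h0 := count_zero (fun _ : α => (0 : ZMod p)) (fun a => decide (sp a)) 0 (p * e)
        (fun _ _ => rfl) t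
      exact h0.congr (fun w => by rw [hcg])
    refine HasGSH.of_fun
      (fun w : List α => ((fun y : ZMod p =>
        (cnt dg sp y 0 w : ZMod (p * e)) - (cnt dg sp (y - d) 0 w : ZMod (p * e))),
        (cnt (fun _ => (0 : ZMod p)) sp 0 0 w : ZMod (p * e)))) ?_ _ ?_
    · rintro ⟨T, t⟩
      exact ((HasGSH.pi (fun (y : ZMod p) (w : List α) =>
        (cnt dg sp y 0 w : ZMod (p * e)) - (cnt dg sp (y - d) 0 w : ZMod (p * e))) hE T).and
        (hT t)).congr (fun w => by simp [Prod.ext_iff])
    · intro w w' hF hw
      simp only [Prod.mk.injEq] at hF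
      obtain ⟨hF1, hF2⟩ := hF
      have key := diff_determine' d hd (fun y => cnt dg sp y 0 w) (fun y => cnt dg sp y 0 w')
        (fun y => congr_fun hF1 y)
        (by rw [cnt_total' dg sp w 0, cnt_total' dg sp w' 0]; exact hF2) x
      rw [← (ZMod.natCast_eq_natCast_iff _ _ _).2 key]
      exact hw

end Vale.Agent.Helper10
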