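import Vale.Agent.Helper10.GStat
import Vale.Agent.Helper10.Grading

/-!
# Two-way clocks: definitions

Letters are of three kinds: `up` letters increase the running class modulo `m` by one, `dn`
letters decrease it by one (a letter with `up a = true` counts as an up letter whatever `dn a`
is), the other letters leave it unchanged.  An up letter `a` carries the type `tp a`.

The master automaton follows the class together with a memory `ZMod m → Option Bool`: the entry
at `j` is the type of the last up letter read at the class `j` which has not been undone by a
later down letter since the last arrival at the class `0`.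
-/

namespace Vale.Agent.Helper10

/-- Statement of the automata theorem for two-way clocks: for a degree map into `ZMod m` with
values `0`, `1` and `-1`, the number of letters satisfying `sp` read at a prefix of class `x`,
counted modulo `e`, defines languages of generalized star height at most one. -/
def CountPM : Prop :=
  ∀ (α : Type) [Finite α] (m : ℕ) [NeZero m] (dg : α → ZMod m),
    (∀ a, dg a = 0 ∨ dg a = 1 ∨ dg a = -1) →
    ∀ (sp : α → Prop) [DecidablePred sp] (e : ℕ) [NeZero e] (x : ZMod m) (r : ZMod e),
    HasGSH 1 (fun w : List α => (cnt dg sp x 0 w : ZMod e) = r)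

section pm

variable {α : Type} {m : ℕ}

/-- the degree of a letter of a two-way clock -/
def dgPM (m : ℕ) (up dn : α → Bool) : α → ZMod m :=
  fun a => if up a = true then 1 else if dn a = true then -1 else 0

/-- the class automaton -/
def clsStep (up dn : α → Bool) : ZMod m → α → ZMod m :=
  fun c a => c + dgPM m up dn a

/-- the transitions of the class automaton which arrive at the class `x` -/
def clsArr (up dn : α → Bool) (x : ZMod m) : ZMod m → α → Bool :=
  fun c a => (up a && decide (c + 1 = x)) || (!up a && dn a && decide (c - 1 = x))

/-- the memory update of the master automaton -/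
def mUpd (up dn tp : α → Bool) :
    ZMod m → α → (ZMod m → Option Bool) → (ZMod m → Option Bool) :=
  fun c a L =>
    if up a = true then
      (if c + 1 = 0 then (fun _ => none)
       else Function.update (Function.update L c (some (tp a))) (c + 1) none)
    else if dn a = true then
      (if c - 1 = 0 then (fun _ => none) else Function.update L (c - 1) none)
    else L

/-- the master automaton -/
def mStep (up dn tp : α → Bool) :
    ZMod m × (ZMod m → Option Bool) → α → ZMod m × (ZMod m → Option Bool) :=
  fun q a => (clsStep up dn q.1 a, mUpd up dn tp q.1 a q.2)

/-- the base state of the master automaton -/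
def mBase (m : ℕ) : ZMod m × (ZMod m → Option Bool) := (0, fun _ => none)

theorem mStep_up_arr (up dn tp : α → Bool) (q : ZMod m × (ZMod m → Option Bool)) (a : α)
    (h : up a = true) (h1 : q.1 + 1 = 0) : mStep up dn tp q a = mBase m := by
  simp [mStep, clsStep, dgPM, mUpd, mBase, h, h1]

theorem mStep_up (up dn tp : α → Bool) (q : ZMod m × (ZMod m → Option Bool)) (a : α)
    (h : up a = true) (h1 : q.1 + 1 ≠ 0) :
    mStep up dn tp q a
      = (q.1 + 1, Function.update (Function.update q.2 q.1 (some (tp a))) (q.1 + 1) none) := by
  simp [mStep, clsStep, dgPM, mUpd, h, h1]

theorem mStep_dn_arr (up dn tp : α → Bool) (q : ZMod m × (ZMod m → Option Bool)) (a : α)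
    (h : up a = false) (h' : dn a = true) (h1 : q.1 - 1 = 0) :
    mStep up dn tp q a = mBase m := by
  have h2 : q.1 + -1 = 0 := by rw [← sub_eq_add_neg]; exact h1
  simp [mStep, clsStep, dgPM, mUpd, mBase, h, h', h1, h2]

theorem mStep_dn (up dn tp : α → Bool) (q : ZMod m × (ZMod m → Option Bool)) (a : α)
    (h : up a = false) (h' : dn a = true) (h1 : q.1 - 1 ≠ 0) :
    mStep up dn tp q a = (q.1 - 1, Function.update q.2 (q.1 - 1) none) := by
  simp [mStep, clsStep, dgPM, mUpd, h, h', h1, ← sub_eq_add_neg]

theorem mStep_stay (up dn tp : α → Bool) (q : ZMod m × (ZMod m → Option Bool)) (a : α)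
    (h : up a = false) (h' : dn a = false) : mStep up dn tp q a = q := by
  simp [mStep, clsStep, dgPM, mUpd, h, h']

/-- the memory after an up letter, before the arrival is processed -/
def lam1 (tp : α → Bool) (q : ZMod m × (ZMod m → Option Bool)) (a : α) : ZMod m → Option Bool :=
  Function.update q.2 q.1 (some (tp a))

/-- all arrivals at the class `0` -/
def evArr0 (up dn : α → Bool) : ZMod m × (ZMod m → Option Bool) → α → Bool :=
  fun q a => clsArr up dn 0 q.1 a

/-- arrivals at `0` from below at which the entry at `y` is `some true` -/
def evArrY (up tp : α → Bool) (y : ZMod m) : ZMod m × (ZMod m → Option Bool) → α → Bool :=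
  fun q a => up a && decide (q.1 + 1 = 0) && decide (lam1 tp q a y = some true)

/-- arrivals at `0` from below at which the entry at `y` is `some true` and the entry at `0`
is empty -/
def evNW (up tp : α → Bool) (y : ZMod m) : ZMod m × (ZMod m → Option Bool) → α → Bool :=
  fun q a => up a && decide (q.1 + 1 = 0) && decide (lam1 tp q a y = some true)
    && decide (lam1 tp q a 0 = none)

/-- arrivals at `0` from below at which the memory spells the pattern `s` -/
def evPat [NeZero m] (up tp : α → Bool) (s : ZMod m → Bool) :
    ZMod m × (ZMod m → Option Bool) → α → Bool :=
  fun q a => up a && decide (q.1 + 1 = 0) && decide (lam1 tp q a = fun j => some (s j))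

/-- down letters which arrive at the class `y` while the entry at `y` is `some true` -/
def evPop (up dn : α → Bool) (y : ZMod m) : ZMod m × (ZMod m → Option Bool) → α → Bool :=
  fun q a => !up a && dn a && decide (q.1 - 1 = y) && decide (q.2 y = some true)

/-- the invariant of the reachable states of the master automaton -/
def InvK (q : ZMod m × (ZMod m → Option Bool)) : Prop :=
  (∀ j : ZMod m, q.2 j ≠ none → j.val < q.1.val) ∧
    (q.2 0 ≠ none → ∀ j : ZMod m, j.val < q.1.val → q.2 j ≠ none)

/-- the memory update of the automaton with one cell, for the class `y` -/
def aUpd (up dn tp : α → Bool) (y : ZMod m) : ZMod m → α → Option Bool → Option Bool :=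
  fun c a e =>
    if up a = true then
      (if c + 1 = 0 then none else if c + 1 = y then none
       else if c = y then some (tp a) else e)
    else if dn a = true then
      (if c - 1 = 0 then none else if c - 1 = y then none else e)
    else e

/-- the automaton with one memory cell, for the class `y` -/
def aStep (up dn tp : α → Bool) (y : ZMod m) : ZMod m × Option Bool → α → ZMod m × Option Bool :=
  fun q a => (clsStep up dn q.1 a, aUpd up dn tp y q.1 a q.2)

/-- all arrivals at the class `y`, for the automaton with one cell -/
def evArrA (up dn : α → Bool) (y : ZMod m) : ZMod m × Option Bool → α → Bool :=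
  fun q a => clsArr up dn y q.1 a

/-- down letters which arrive at the class `y` while the cell is `some true` -/
def evPopA (up dn : α → Bool) (y : ZMod m) : ZMod m × Option Bool → α → Bool :=
  fun q a => !up a && dn a && decide (q.1 - 1 = y) && decide (q.2 = some true)

end pm

section general

variable {Q α ι V : Type}

/-- a map on memories which overwrites some cells with fixed values -/
def IsOW (F : (ι → V) → (ι → V)) : Prop :=
  ∃ G : ι → Option V, ∀ (μ : ι → V) (i : ι), F μ i = (G i).getD (μ i)

/-- a map on a single memory cell which is the identity or a constant -/
def IsOW1 (F : V → V) : Prop :=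
  ∃ G : Option V, ∀ μ : V, F μ = G.getD μ

/-- an automaton extended by a memory -/
def extStep {M : Type} (δ : Q → α → Q) (u : Q → α → M → M) : Q × M → α → Q × M :=
  fun p a => (δ p.1 a, u p.1 a p.2)

end general

end Vale.Agent.Helper10
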