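import Vale.Agent.Helper27.P329Asm
import Vale.Agent.Helper29.P329CountPM
import Vale.Agent.Helper25.P329CosetPM
import Vale.Agent.Helper25.P329PosPM

/-!
# Final statements on two-way clocks
-/

namespace Vale.Agent.Helper10

/-- **Positional counting along a clock with steps `0`, `1` and `-1` modulo an arbitrary `m`.** -/
theorem count_pm : CountPM :=
  Vale.Agent.Helper29.P329.count_pm_of Vale.Agent.Helper27.P329Asm.up_stmt

/-- Languages recognised through a letter map into an abelian normal subgroup `N` and the two
cosets `g N` and `g⁻¹ N` have generalized star height at most one. -/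
theorem coset_pm_gsh {G α : Type} [Group G] [Finite G] [Finite α] (N : Subgroup G) [N.Normal]
    (hab : ∀ a ∈ N, ∀ b ∈ N, a * b = b * a) (g : G) (f : α → G)
    (hf : ∀ a, f a ∈ N ∨ g⁻¹ * f a ∈ N ∨ g * f a ∈ N) (T : Set G) :
    HasGSH 1 (fun w : List α => (w.map f).prod ∈ T) :=
  Vale.Agent.Helper25.P329CosetPM.gsh_of_coset_pm count_pm N hab g f hf T

/-- Two-way positional counting: the number of positions of a word which carry a letter with
the property `sp` and at which the number of earlier letters with the property `up` minus the
number of earlier letters with the property `dn` is congruent to `x` modulo `m`, counted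
modulo `e`. -/
theorem pos_pm_gsh {α : Type} [Finite α] (up dn sp : α → Prop)
    [DecidablePred up] [DecidablePred dn] [DecidablePred sp] (m e : ℕ) (x : ℤ) (r : ℕ)
    (hm : 0 < m) (he : 0 < e) :
    HasGSH 1 (fun w : List α =>
      (Finset.univ.filter (fun i : Fin w.length => sp (w.get i) ∧
        (((w.take i).countP (fun a => decide (up a)) : ℕ) : ℤ)
          - (((w.take i).countP (fun a => decide (dn a)) : ℕ) : ℤ) ≡ x [ZMOD m])).card
        ≡ r [MOD e]) :=
  Vale.Agent.Helper25.P329PosPM.pos_pm_gsh_of count_pm up dn sp m e x r hm he

end Vale.Agent.Helper10
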