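import Vale.Agent.Helper10.PMDefs

/-!
# Two-way clocks: the pattern detector

The stack semantics of the master automaton on the runs which start at the base state and never
leave the region above the last arrival: the memory is the part of a list of types above the last
multiple of `m`.
-/

namespace Vale.Agent.Helper10


theorem nat_succ_mod_ne {m L : ℕ} (hm : 0 < m) (h : (L + 1) % m ≠ 0) :
    L % m + 1 < m ∧ (L + 1) / m = L / m ∧ (L + 1) % m = L % m + 1 := by
  have h1 : L % m < m := Nat.mod_lt L hm
  have h2 : m * (L / m) + L % m = L := Nat.div_add_mod L m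
  have h3 : L % m + 1 < m := by
    by_contra hc
    have e : L % m + 1 = m := by omega
    apply h
    have : L + 1 = m * (L / m) + m := by omega
    rw [this, Nat.mul_add_mod_self_left, Nat.mod_self]
  have h4 : L + 1 = m * (L / m) + (L % m + 1) := by omega
  refine ⟨h3, ?_, ?_⟩
  · conv_lhs => rw [h4]
    rw [Nat.mul_add_div hm, Nat.div_eq_of_lt h3, add_zero]
  · conv_lhs => rw [h4]
    rw [Nat.mul_add_mod, Nat.mod_eq_of_lt h3]

theorem nat_succ_mod_eq {m L : ℕ} (hm : 0 < m) (h : (L + 1) % m = 0) :
    L % m + 1 = m ∧ (L + 1) / m = L / m + 1 ∧ m * (L / m + 1) = L + 1 := by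
  have h1 : L % m < m := Nat.mod_lt L hm
  have h2 : m * (L / m) + L % m = L := Nat.div_add_mod L m
  have h3 : L % m + 1 = m := by
    by_contra hc
    have e : L % m + 1 < m := by omega
    have h4 : L + 1 = m * (L / m) + (L % m + 1) := by omega
    rw [h4, Nat.mul_add_mod, Nat.mod_eq_of_lt e] at h
    omega
  have h5 : m * (L / m + 1) = L + 1 := by
    rw [Nat.mul_add, mul_one]
    omega
  refine ⟨h3, ?_, h5⟩
  rw [← h5, Nat.mul_div_cancel_left _ hm]

theorem nat_pred_mod {m L : ℕ} (hm : 0 < m) (h : 1 ≤ L % m) :
    (L - 1) / m = L / m ∧ (L - 1) % m = L % m - 1 ∧ 1 ≤ L := by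
  have h1 : L % m < m := Nat.mod_lt L hm
  have h2 : m * (L / m) + L % m = L := Nat.div_add_mod L m
  have h4 : L - 1 = m * (L / m) + (L % m - 1) := by omega
  have h3 : L % m - 1 < m := by omega
  refine ⟨?_, ?_, by omega⟩
  · conv_lhs => rw [h4]
    rw [Nat.mul_add_div hm, Nat.div_eq_of_lt h3, add_zero]
  · conv_lhs => rw [h4]
    rw [Nat.mul_add_mod, Nat.mod_eq_of_lt h3]


section pat

variable {α : Type} {m : ℕ} (up dn tp : α → Bool) (s : ZMod m → Bool)

/-- the pattern as a list -/
def sL [NeZero m] : List Bool := List.ofFn (fun i : Fin m => s ((i : ℕ) : ZMod m))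

/-- one step of the stack semantics; `none` when the run stops being good -/
def semStep [NeZero m] (σ : List Bool) (a : α) : Option (List Bool) :=
  if up a = true then
    (if (σ.length + 1) % m = 0 then
      (if (σ ++ [tp a]).drop (σ.length + 1 - m) = sL s then some (σ ++ [tp a]) else none)
     else some (σ ++ [tp a]))
  else if dn a = true then
    (if σ.length % m ≤ 1 then none else some σ.dropLast)
  else some σ

/-- the stack semantics of a word -/
def semRun [NeZero m] : List Bool → List α → Option (List Bool)
  | σ, [] => some σ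
  | σ, a :: w => (semStep up dn tp s σ a).bind (fun σ' => semRun σ' w)

/-- all complete blocks spell the pattern -/
def BlkOk [NeZero m] (σ : List Bool) : Prop :=
  σ.take (m * (σ.length / m)) = (List.replicate (σ.length / m) (sL s)).flatten

variable [NeZero m]

theorem sL_length : (sL s).length = m := by
  simp [sL]

theorem semStep_append (ρ ρ' σ σ' : List Bool) (a : α)
    (h1 : semStep up dn tp s ρ a = some ρ') (h2 : semStep up dn tp s (σ ++ ρ) a = some σ') :
    σ' = σ ++ ρ' := by
  unfold semStep at h1 h2
  by_cases hu : up a = true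
  · rw [if_pos hu] at h1 h2
    have e1 : ρ' = ρ ++ [tp a] := by
      split_ifs at h1 <;> simp_all
    have e2 : σ' = (σ ++ ρ) ++ [tp a] := by
      split_ifs at h2 <;> simp_all
    rw [e1, e2, List.append_assoc]
  · rw [if_neg hu] at h1 h2
    by_cases hd : dn a = true
    · rw [if_pos hd] at h1 h2
      by_cases h3 : ρ.length % m ≤ 1
      · rw [if_pos h3] at h1
        exact absurd h1 (by simp)
      · rw [if_neg h3] at h1
        have hne : ρ ≠ [] := by
          rintro rfl
          simp at h3
        have e1 : ρ' = ρ.dropLast := by simpa using h1.symm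
        have e2 : σ' = (σ ++ ρ).dropLast := by
          split_ifs at h2
          simpa using h2.symm
        rw [e1, e2, List.dropLast_append_of_ne_nil hne]
    · rw [if_neg hd] at h1 h2
      have e1 : ρ' = ρ := by simpa using h1.symm
      have e2 : σ' = σ ++ ρ := by simpa using h2.symm
      rw [e1, e2]

theorem semRun_append : ∀ (w : List α) (ρ ρ' σ σ' : List Bool),
    semRun up dn tp s ρ w = some ρ' → semRun up dn tp s (σ ++ ρ) w = some σ' → σ' = σ ++ ρ' := by
  intro w
  induction w with
  | nil =>
    intro ρ ρ' σ σ' h1 h2
    simp only [semRun, Option.some.injEq] at h1 h2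
    rw [← h1, ← h2]
  | cons a w ih =>
    intro ρ ρ' σ σ' h1 h2
    simp only [semRun] at h1 h2
    cases e1 : semStep up dn tp s ρ a with
    | none => rw [e1] at h1; exact absurd h1 (by simp)
    | some ρ1 =>
      cases e2 : semStep up dn tp s (σ ++ ρ) a with
      | none => rw [e2] at h2; exact absurd h2 (by simp)
      | some σ1 =>
        rw [e1] at h1
        rw [e2] at h2
        have e3 := semStep_append up dn tp s ρ ρ1 σ σ1 a e1 e2
        rw [e3] at h2
        exact ih ρ1 ρ' σ σ' h1 h2

theorem blk_step (σ σ' : List Bool) (a : α) (h1 : semStep up dn tp s σ a = some σ')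
    (hb : BlkOk s σ) : BlkOk s σ' := by
  have hm : 0 < m := Nat.pos_of_ne_zero (NeZero.ne m)
  unfold semStep at h1
  unfold BlkOk at hb ⊢
  by_cases hu : up a = true
  · rw [if_pos hu] at h1
    by_cases h2 : (σ.length + 1) % m = 0
    · rw [if_pos h2] at h1
      by_cases h3 : (σ ++ [tp a]).drop (σ.length + 1 - m) = sL s
      · rw [if_pos h3] at h1
        have e1 : σ' = σ ++ [tp a] := by simpa using h1.symm
        obtain ⟨h4, h5, h6⟩ := nat_succ_mod_eq hm h2
        have hlen : σ'.length = σ.length + 1 := by rw [e1]; simp
        have h7 : σ.length + 1 - m = m * (σ.length / m) := by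
          have := Nat.div_add_mod σ.length m
          omega
        have h8 : m * (σ.length / m) ≤ σ.length := Nat.mul_div_le σ.length m
        rw [hlen, h5, h6, ← hlen, List.take_length, List.replicate_succ', List.flatten_append,
          List.flatten_singleton, ← hb, ← h3, h7, e1]
        rw [← List.take_append_of_le_length h8]
        exact (List.take_append_drop _ _).symm
      · rw [if_neg h3] at h1
        exact absurd h1 (by simp)
    · rw [if_neg h2] at h1
      have e1 : σ' = σ ++ [tp a] := by simpa using h1.symm
      obtain ⟨_, h5, _⟩ := nat_succ_mod_ne hm h2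
      have hlen : σ'.length = σ.length + 1 := by rw [e1]; simp
      have h8 : m * (σ.length / m) ≤ σ.length := Nat.mul_div_le σ.length m
      rw [hlen, h5, e1, List.take_append_of_le_length h8]
      exact hb
  · rw [if_neg hu] at h1
    by_cases hd : dn a = true
    · rw [if_pos hd] at h1
      by_cases h3 : σ.length % m ≤ 1
      · rw [if_pos h3] at h1
        exact absurd h1 (by simp)
      · rw [if_neg h3] at h1
        have e1 : σ' = σ.dropLast := by simpa using h1.symm
        obtain ⟨h5, _, h6⟩ := nat_pred_mod hm (L := σ.length) (by omega)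
        have hlen : σ'.length = σ.length - 1 := by rw [e1]; simp
        have h8 : m * (σ.length / m) ≤ σ.length - 1 := by
          have := Nat.div_add_mod σ.length m
          omega
        rw [hlen, h5, e1, List.dropLast_eq_take, List.take_take, Nat.min_eq_left h8]
        exact hb
    · rw [if_neg hd] at h1
      have e1 : σ' = σ := by simpa using h1.symm
      rw [e1]
      exact hb

theorem blk_run : ∀ (w : List α) (σ σ' : List Bool),
    semRun up dn tp s σ w = some σ' → BlkOk s σ → BlkOk s σ' := by
  intro w
  induction w with
  | nil =>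
    intro σ σ' h1 hb
    simp only [semRun, Option.some.injEq] at h1
    rw [← h1]
    exact hb
  | cons a w ih =>
    intro σ σ' h1 hb
    simp only [semRun] at h1
    cases e1 : semStep up dn tp s σ a with
    | none => rw [e1] at h1; exact absurd h1 (by simp)
    | some σ1 =>
      rw [e1] at h1
      exact ih σ1 σ' h1 (blk_step up dn tp s σ σ1 a e1 hb)

theorem blk_nil : BlkOk s ([] : List Bool) := by
  simp [BlkOk]

theorem blk_full (σ : List Bool) (hb : BlkOk s σ) (hd : m ∣ σ.length) :
    σ = (List.replicate (σ.length / m) (sL s)).flatten := by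
  unfold BlkOk at hb
  rw [Nat.mul_div_cancel' hd, List.take_length] at hb
  exact hb

/-- the state of the master automaton which corresponds to a stack -/
def stOf (m : ℕ) (σ : List Bool) : ZMod m × (ZMod m → Option Bool) :=
  ((σ.length : ZMod m), fun j => (σ.drop (m * (σ.length / m)))[j.val]?)

/-- the states below the base -/
def Dd (q : ZMod m × (ZMod m → Option Bool)) : Prop := q.1 ≠ 0 ∧ q.2 0 = none

/-- the marking of the pattern detector -/
def patBad : ZMod m × (ZMod m → Option Bool) → α → Bool :=
  fun q a => evArr0 up dn q a && !evPat up tp s q a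

theorem cur_len (σ : List Bool) : (σ.drop (m * (σ.length / m))).length = σ.length % m := by
  rw [List.length_drop, Nat.mod_eq_sub_mul_div]

theorem stOf_val (σ : List Bool) : (stOf m σ).1.val = σ.length % m := by
  show ((σ.length : ℕ) : ZMod m).val = _
  rw [ZMod.val_natCast]

theorem stOf_dvd (σ : List Bool) (h : m ∣ σ.length) : stOf m σ = mBase m := by
  unfold stOf mBase
  have h1 : ((σ.length : ℕ) : ZMod m) = 0 := (ZMod.natCast_eq_zero_iff _ _).2 h
  have h2 : σ.drop (m * (σ.length / m)) = [] := by
    rw [Nat.mul_div_cancel' h]
    exact List.drop_length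
  rw [h1, h2]
  simp

theorem stOf_nil : stOf m ([] : List Bool) = mBase m :=
  stOf_dvd [] (by simp)

theorem lookup_sL (l : List Bool) (hl : l.length = m) :
    (fun j : ZMod m => l[j.val]?) = (fun j => some (s j)) ↔ l = sL s := by
  constructor
  · intro h
    refine List.ext_getElem (by rw [hl, sL_length]) (fun i h1 h2 => ?_)
    have hi : i < m := by rw [← hl]; exact h1
    have h3 := congrFun h ((i : ℕ) : ZMod m)
    rw [ZMod.val_natCast_of_lt hi, List.getElem?_eq_getElem h1] at h3
    have h4 : l[i] = s ((i : ℕ) : ZMod m) := by simpa using h3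
    rw [h4]
    simp [sL]
  · intro h
    funext j
    have hj : j.val < m := ZMod.val_lt j
    rw [h]
    have h1 : j.val < (sL s).length := by rw [sL_length]; exact hj
    rw [List.getElem?_eq_getElem h1]
    simp [sL, ZMod.natCast_zmod_val]

end pat


theorem gOpt_step_some {I α : Type} (δ : I → α → I) (bad : I → α → Bool) (i j : I) (a : α)
    (h : gOpt δ bad (some i) a = some j) : bad i a = false ∧ δ i a = j := by
  have h1 : (if bad i a = true then none else some (δ i a)) = some j := h
  by_cases hb : bad i a = true
  · rw [if_pos hb] at h1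
    exact absurd h1 (by simp)
  · rw [if_neg hb] at h1
    exact ⟨by simpa using hb, by simpa using h1⟩

section pat2

variable {α : Type} {m : ℕ} (up dn tp : α → Bool) (s : ZMod m → Bool) [NeZero m]

theorem lookup_concat (cur : List Bool) (τ : Bool) (c : ZMod m) (hc : c.val = cur.length) :
    (fun j : ZMod m => (cur ++ [τ])[j.val]?)
      = Function.update (fun j : ZMod m => cur[j.val]?) c (some τ) := by
  funext j
  by_cases hj : j = c
  · subst hj
    rw [Function.update_self, hc, List.getElem?_concat_length]
  · rw [Function.update_of_ne hj]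
    have h1 : j.val ≠ c.val := fun h => hj (ZMod.val_injective m h)
    rcases Nat.lt_or_gt_of_ne h1 with h2 | h2
    · rw [List.getElem?_append_left (by omega)]
    · rw [List.getElem?_eq_none_iff.2 (by simp; omega), List.getElem?_eq_none_iff.2 (by omega)]

theorem lookup_dropLast (cur : List Bool) (d : ZMod m) (hd : d.val + 1 = cur.length) :
    (fun j : ZMod m => cur.dropLast[j.val]?)
      = Function.update (fun j : ZMod m => cur[j.val]?) d none := by
  funext j
  by_cases hj : j = d
  · subst hj
    rw [Function.update_self, List.getElem?_eq_none_iff.2 (by simp; omega)]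
  · rw [Function.update_of_ne hj]
    have h1 : j.val ≠ d.val := fun h => hj (ZMod.val_injective m h)
    rw [List.dropLast_eq_take, List.getElem?_take]
    rcases Nat.lt_or_gt_of_ne h1 with h2 | h2
    · rw [if_pos (by omega)]
    · rw [if_neg (by omega), List.getElem?_eq_none_iff.2 (by omega)]

theorem patBad_up_arr (q : ZMod m × (ZMod m → Option Bool)) (a : α) (hu : up a = true)
    (h1 : q.1 + 1 = 0) (hb : patBad up dn tp s q a = false) :
    lam1 tp q a = fun j => some (s j) := by
  simpa [patBad, evArr0, clsArr, evPat, hu, h1] using hb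

theorem patBad_dn_arr (q : ZMod m × (ZMod m → Option Bool)) (a : α) (hu : up a = false)
    (hd : dn a = true) (h1 : q.1 - 1 = 0) : patBad up dn tp s q a = true := by
  simp [patBad, evArr0, clsArr, evPat, hu, hd, h1]

theorem zmod_val_pred (c : ZMod m) (h : c ≠ 0) : (c - 1).val + 1 = c.val := by
  have h1 : (c - 1) + 1 ≠ 0 := by rw [sub_add_cancel]; exact h
  have h2 := zmod_val_succ m (c - 1) h1
  rw [sub_add_cancel] at h2
  exact h2.symm

theorem eps_stOf (σ : List Bool) (a : α) (q' : ZMod m × (ZMod m → Option Bool))
    (h : gOpt (mStep up dn tp) (patBad up dn tp s) (some (stOf m σ)) a = some q') :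
    Dd q' ∨ ∃ σ', semStep up dn tp s σ a = some σ' ∧ q' = stOf m σ' := by
  have hm : 0 < m := Nat.pos_of_ne_zero (NeZero.ne m)
  obtain ⟨hb, hq⟩ := gOpt_step_some _ _ _ _ _ h
  have hcv : (stOf m σ).1.val = σ.length % m := stOf_val σ
  have hcl := cur_len (m := m) σ
  have h8 : m * (σ.length / m) ≤ σ.length := Nat.mul_div_le σ.length m
  by_cases hu : up a = true
  · by_cases h2 : (σ.length + 1) % m = 0
    · have hc1 : (stOf m σ).1 + 1 = 0 := by
        show ((σ.length : ℕ) : ZMod m) + 1 = 0
        have h3 : ((σ.length + 1 : ℕ) : ZMod m) = 0 :=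
          (ZMod.natCast_eq_zero_iff _ _).2 (Nat.dvd_of_mod_eq_zero h2)
        rw [← h3]
        push_cast
        rfl
      have hp := patBad_up_arr up dn tp s _ a hu hc1 hb
      rw [mStep_up_arr up dn tp _ a hu hc1] at hq
      obtain ⟨h4, h5, h6⟩ := nat_succ_mod_eq hm h2
      have h7 : σ.length + 1 - m = m * (σ.length / m) := by
        have := Nat.div_add_mod σ.length m
        omega
      have hdrop : (σ ++ [tp a]).drop (σ.length + 1 - m) = sL s := by
        rw [h7, List.drop_append_of_le_length h8]
        refine (lookup_sL s _ ?_).1 ?_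
        · rw [List.length_append, hcl, List.length_singleton]
          exact h4
        · rw [lookup_concat _ (tp a) (stOf m σ).1 (by rw [hcv, hcl])]
          exact hp
      right
      refine ⟨σ ++ [tp a], ?_, ?_⟩
      · unfold semStep
        rw [if_pos hu, if_pos h2, if_pos hdrop]
      · rw [← hq]
        refine (stOf_dvd _ ?_).symm
        rw [List.length_append, List.length_singleton]
        exact Nat.dvd_of_mod_eq_zero h2
    · have hc1 : (stOf m σ).1 + 1 ≠ 0 := by
        show ((σ.length : ℕ) : ZMod m) + 1 ≠ 0
        intro h0
        apply h2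
        have h3 : ((σ.length + 1 : ℕ) : ZMod m) = 0 := by
          push_cast
          exact h0
        exact Nat.mod_eq_zero_of_dvd ((ZMod.natCast_eq_zero_iff _ _).1 h3)
      rw [mStep_up up dn tp _ a hu hc1] at hq
      obtain ⟨h4, h5, h6⟩ := nat_succ_mod_ne hm h2
      right
      refine ⟨σ ++ [tp a], ?_, ?_⟩
      · unfold semStep
        rw [if_pos hu, if_neg h2]
      · rw [← hq]
        have e1 : (σ ++ [tp a]).length = σ.length + 1 := by simp
        refine Prod.ext ?_ ?_
        · show ((σ.length : ℕ) : ZMod m) + 1 = (((σ ++ [tp a]).length : ℕ) : ZMod m)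
          rw [e1]
          push_cast
          rfl
        · show Function.update (Function.update (stOf m σ).2 (stOf m σ).1 (some (tp a)))
              ((stOf m σ).1 + 1) none
            = fun j : ZMod m =>
              ((σ ++ [tp a]).drop (m * ((σ ++ [tp a]).length / m)))[j.val]?
          rw [e1, h5, List.drop_append_of_le_length h8,
            lookup_concat _ (tp a) (stOf m σ).1 (by rw [hcv, hcl])]
          have hv := zmod_val_succ m _ hc1
          have hne : (stOf m σ).1 + 1 ≠ (stOf m σ).1 := by
            intro h0
            rw [h0] at hv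
            omega
          show Function.update (Function.update (stOf m σ).2 (stOf m σ).1 (some (tp a)))
              ((stOf m σ).1 + 1) none
            = Function.update (stOf m σ).2 (stOf m σ).1 (some (tp a))
          rw [Function.update_eq_self_iff, Function.update_of_ne hne]
          show none = (σ.drop (m * (σ.length / m)))[((stOf m σ).1 + 1).val]?
          rw [List.getElem?_eq_none_iff.2 (by rw [hcl, hv, hcv]; omega)]
  · have hu' : up a = false := by simpa using hu
    by_cases hd : dn a = true
    · by_cases hc1 : (stOf m σ).1 - 1 = 0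
      · rw [patBad_dn_arr up dn tp s _ a hu' hd hc1] at hb
        exact absurd hb (by simp)
      · rw [mStep_dn up dn tp _ a hu' hd hc1] at hq
        by_cases h3 : σ.length % m = 0
        · left
          rw [← hq]
          refine ⟨hc1, ?_⟩
          show Function.update (stOf m σ).2 ((stOf m σ).1 - 1) none 0 = none
          by_cases h0 : (0 : ZMod m) = (stOf m σ).1 - 1
          · rw [h0, Function.update_self]
          · rw [Function.update_of_ne h0]
            show (σ.drop (m * (σ.length / m)))[(0 : ZMod m).val]? = none
            rw [List.getElem?_eq_none_iff, hcl, h3]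
            exact Nat.zero_le _
        · have hc0 : (stOf m σ).1 ≠ 0 := by
            intro h0
            rw [h0, ZMod.val_zero] at hcv
            exact h3 hcv.symm
          have hv := zmod_val_pred _ hc0
          have hv1 : ((stOf m σ).1 - 1).val ≠ 0 := by
            intro h0
            exact hc1 ((ZMod.val_eq_zero _).1 h0)
          have h4 : ¬ σ.length % m ≤ 1 := by omega
          obtain ⟨h5, h6, h7⟩ := nat_pred_mod hm (L := σ.length) (by omega)
          right
          refine ⟨σ.dropLast, ?_, ?_⟩
          · unfold semStep
            rw [if_neg hu, if_pos hd, if_neg h4]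
          · rw [← hq]
            refine Prod.ext ?_ ?_
            · show ((σ.length : ℕ) : ZMod m) - 1 = ((σ.dropLast.length : ℕ) : ZMod m)
              rw [List.length_dropLast, Nat.cast_sub h7]
              push_cast
              rfl
            · show Function.update (stOf m σ).2 ((stOf m σ).1 - 1) none
                = fun j : ZMod m =>
                  (σ.dropLast.drop (m * (σ.dropLast.length / m)))[j.val]?
              rw [List.length_dropLast, h5, ← List.dropLast_drop_eq_drop_dropLast,
                lookup_dropLast _ ((stOf m σ).1 - 1) (by rw [hv, hcv, hcl])]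
              rfl
    · have hd' : dn a = false := by simpa using hd
      rw [mStep_stay up dn tp _ a hu' hd'] at hq
      right
      refine ⟨σ, ?_, hq.symm⟩
      unfold semStep
      rw [if_neg hu, if_neg hd]

end pat2


theorem iter_run_pow {Q α : Type} (δ : Q → α → Q) (u : List α) :
    ∀ (n : ℕ) (q : Q), (fun x => run δ x u)^[n] q = run δ q (List.replicate n u).flatten := by
  intro n
  induction n with
  | zero => intro q; rfl
  | succ n ih =>
    intro q
    rw [Function.iterate_succ_apply, ih, List.replicate_succ, List.flatten_cons, run_append]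

section pat3

variable {α : Type} {m : ℕ} (up dn tp : α → Bool) (s : ZMod m → Bool) [NeZero m]

theorem eps_Dd (q q' : ZMod m × (ZMod m → Option Bool)) (a : α) (hD : Dd q)
    (h : gOpt (mStep up dn tp) (patBad up dn tp s) (some q) a = some q') : Dd q' := by
  obtain ⟨hb, hq⟩ := gOpt_step_some _ _ _ _ _ h
  obtain ⟨hq1, hq2⟩ := hD
  by_cases hu : up a = true
  · by_cases hc1 : q.1 + 1 = 0
    · have hp := patBad_up_arr up dn tp s q a hu hc1 hb
      have h0 := congrFun hp 0
      have h1 : lam1 tp q a 0 = none := by
        show Function.update q.2 q.1 (some (tp a)) 0 = none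
        rw [Function.update_of_ne (Ne.symm hq1)]
        exact hq2
      rw [h1] at h0
      exact absurd h0 (by simp)
    · rw [mStep_up up dn tp q a hu hc1] at hq
      rw [← hq]
      refine ⟨hc1, ?_⟩
      show Function.update (Function.update q.2 q.1 (some (tp a))) (q.1 + 1) none 0 = none
      rw [Function.update_of_ne (Ne.symm hc1), Function.update_of_ne (Ne.symm hq1)]
      exact hq2
  · have hu' : up a = false := by simpa using hu
    by_cases hd : dn a = true
    · by_cases hc1 : q.1 - 1 = 0
      · rw [patBad_dn_arr up dn tp s q a hu' hd hc1] at hb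
        exact absurd hb (by simp)
      · rw [mStep_dn up dn tp q a hu' hd hc1] at hq
        rw [← hq]
        refine ⟨hc1, ?_⟩
        show Function.update q.2 (q.1 - 1) none 0 = none
        rw [Function.update_of_ne (Ne.symm hc1)]
        exact hq2
    · have hd' : dn a = false := by simpa using hd
      rw [mStep_stay up dn tp q a hu' hd'] at hq
      rw [← hq]
      exact ⟨hq1, hq2⟩

theorem Dd_run : ∀ (w : List α) (q q' : ZMod m × (ZMod m → Option Bool)), Dd q →
    run (gOpt (mStep up dn tp) (patBad up dn tp s)) (some q) w = some q' → Dd q' := by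
  intro w
  induction w with
  | nil =>
    intro q q' hD h
    have h1 : q = q' := Option.some.inj h
    rw [← h1]
    exact hD
  | cons a w ih =>
    intro q q' hD h
    rw [run_cons] at h
    cases e : gOpt (mStep up dn tp) (patBad up dn tp s) (some q) a with
    | none =>
      rw [e, gOpt_none] at h
      exact absurd h (by simp)
    | some q1 =>
      rw [e] at h
      exact ih q1 q' (eps_Dd up dn tp s q q1 a hD e) h

theorem sim_run : ∀ (w : List α) (σ : List Bool) (q' : ZMod m × (ZMod m → Option Bool)),
    run (gOpt (mStep up dn tp) (patBad up dn tp s)) (some (stOf m σ)) w = some q' →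
    Dd q' ∨ ∃ σ', semRun up dn tp s σ w = some σ' ∧ q' = stOf m σ' := by
  intro w
  induction w with
  | nil =>
    intro σ q' h
    right
    exact ⟨σ, rfl, (Option.some.inj h).symm⟩
  | cons a w ih =>
    intro σ q' h
    rw [run_cons] at h
    cases e : gOpt (mStep up dn tp) (patBad up dn tp s) (some (stOf m σ)) a with
    | none =>
      rw [e, gOpt_none] at h
      exact absurd h (by simp)
    | some q1 =>
      rw [e] at h
      rcases eps_stOf up dn tp s σ a q1 e with hD | ⟨σ1, h1, h2⟩
      · left
        exact Dd_run up dn tp s w q1 q' hD h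
      · rw [h2] at h
        rcases ih σ1 q' h with hD | ⟨σ', h3, h4⟩
        · left
          exact hD
        · right
          refine ⟨σ', ?_, h4⟩
          show (semStep up dn tp s σ a).bind (fun σ' => semRun up dn tp s σ' w) = some σ'
          rw [h1]
          exact h3

theorem semRun_bind (u v : List α) : ∀ σ : List Bool,
    semRun up dn tp s σ (u ++ v)
      = (semRun up dn tp s σ u).bind (fun σ' => semRun up dn tp s σ' v) := by
  induction u with
  | nil => intro σ; rfl
  | cons a u ih =>
    intro σ
    show (semStep up dn tp s σ a).bind (fun σ' => semRun up dn tp s σ' (u ++ v))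
      = ((semStep up dn tp s σ a).bind (fun σ' => semRun up dn tp s σ' u)).bind
          (fun σ' => semRun up dn tp s σ' v)
    rw [Option.bind_assoc]
    congr 1
    funext σ1
    exact ih σ1

theorem semRun_pow (u : List α) : ∀ (k : ℕ) (σ' : List Bool),
    semRun up dn tp s [] (List.replicate (k + 1) u).flatten = some σ' →
    ∃ τ, semRun up dn tp s [] u = some τ ∧ σ' = (List.replicate (k + 1) τ).flatten := by
  intro k
  induction k with
  | zero =>
    intro σ' h
    have e1 : (List.replicate (0 + 1) u).flatten = u := by simp
    rw [e1] at h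
    exact ⟨σ', h, by simp⟩
  | succ k ih =>
    intro σ' h
    rw [List.replicate_succ', List.flatten_append, List.flatten_singleton, semRun_bind] at h
    cases e : semRun up dn tp s [] (List.replicate (k + 1) u).flatten with
    | none =>
      rw [e] at h
      exact absurd h (by simp)
    | some σk =>
      rw [e] at h
      obtain ⟨τ, hτ, hσk⟩ := ih σk e
      have h' : semRun up dn tp s (σk ++ []) u = some σ' := by
        rw [List.append_nil]
        exact h
      have h2 := semRun_append up dn tp s u [] τ σk σ' hτ h'
      refine ⟨τ, hτ, ?_⟩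
      rw [h2, hσk, List.replicate_succ' (n := k + 1), List.flatten_append, List.flatten_singleton]

theorem pat_hb
    (hlen : ∀ (τ : List Bool) (n k : ℕ), 0 < n →
      (List.replicate n τ).flatten = (List.replicate k (sL s)).flatten →
      ((τ.length : ℕ) : ZMod m) = 0)
    (u : List α) (n : ℕ) (hn : 0 < n)
    (h : (fun x => run (gOpt (mStep up dn tp) (patBad up dn tp s)) x u)^[n] (some (mBase m))
      = some (mBase m)) :
    run (gOpt (mStep up dn tp) (patBad up dn tp s)) (some (mBase m)) u = some (mBase m) := by
  obtain ⟨k, rfl⟩ : ∃ k, n = k + 1 := ⟨n - 1, by omega⟩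
  rw [iter_run_pow] at h
  have hnD : ¬ Dd (mBase m) := fun hD => hD.1 rfl
  have h1 := sim_run up dn tp s _ [] (mBase m) (by rw [stOf_nil]; exact h)
  rcases h1 with hD | ⟨σ', h2, h3⟩
  · exact absurd hD hnD
  obtain ⟨τ, hτ, hσ'⟩ := semRun_pow up dn tp s u k σ' h2
  have hblk : BlkOk s σ' := blk_run up dn tp s _ [] σ' h2 (blk_nil s)
  have hdvd : m ∣ σ'.length := by
    have h4 : ((σ'.length : ℕ) : ZMod m) = 0 := (congrArg Prod.fst h3).symm
    exact (ZMod.natCast_eq_zero_iff _ _).1 h4
  have hfull := blk_full s σ' hblk hdvd
  have h5 : ((τ.length : ℕ) : ZMod m) = 0 :=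
    hlen τ (k + 1) (σ'.length / m) (Nat.succ_pos k) (by rw [← hσ']; exact hfull)
  have h6 : stOf m τ = mBase m := stOf_dvd τ ((ZMod.natCast_eq_zero_iff _ _).1 h5)
  rw [List.replicate_succ, List.flatten_cons, run_append] at h
  cases e : run (gOpt (mStep up dn tp) (patBad up dn tp s)) (some (mBase m)) u with
  | none =>
    rw [e, gOpt_none] at h
    exact absurd h (by simp)
  | some q1 =>
    rw [e] at h
    rcases sim_run up dn tp s u [] q1 (by rw [stOf_nil]; exact e) with hD | ⟨τ', h7, h8⟩
    · exact absurd (Dd_run up dn tp s _ q1 (mBase m) hD h) hnD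
    · rw [hτ] at h7
      have h9 : τ = τ' := Option.some.inj h7
      rw [h8, ← h9, h6]

theorem arr0_base (q : ZMod m × (ZMod m → Option Bool)) (a : α)
    (h : evArr0 up dn q a = true) : mStep up dn tp q a = mBase m := by
  have h1 : ((up a && decide (q.1 + 1 = 0)) || (!up a && dn a && decide (q.1 - 1 = 0))) = true := h
  by_cases hu : up a = true
  · have h2 : q.1 + 1 = 0 := by simpa [hu] using h1
    exact mStep_up_arr up dn tp q a hu h2
  · have hu' : up a = false := by simpa using hu
    have h2 : dn a = true ∧ q.1 - 1 = 0 := by simpa [hu'] using h1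
    exact mStep_dn_arr up dn tp q a hu' h2.1 h2.2

/-- the pattern detector is counter-free, given the general lemma on base states, the cut
automaton and the lemma on powers of words -/
theorem pat_cf_of
    (hbase : ∀ {I β : Type} (δ : I → β → I) (bad bad0 : I → β → Bool) (i0 : I)
      (_ : ∀ i a, bad0 i a = true → bad i a = true ∨ δ i a = i0)
      (_ : CounterFree (gOpt δ bad0))
      (_ : ∀ (u : List β) (n : ℕ), 0 < n →
        (fun x => run (gOpt δ bad) x u)^[n] (some i0) = some i0 →
        run (gOpt δ bad) (some i0) u = some i0), CounterFree (gOpt δ bad))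
    (hcut : CounterFree (gOpt (mStep (m := m) up dn tp) (evArr0 up dn)))
    (hlen : ∀ (τ : List Bool) (n k : ℕ), 0 < n →
      (List.replicate n τ).flatten = (List.replicate k (sL s)).flatten →
      ((τ.length : ℕ) : ZMod m) = 0) :
    CounterFree (gOpt (mStep (m := m) up dn tp)
      (fun q a => evArr0 up dn q a && !evPat up tp s q a)) :=
  hbase (mStep up dn tp) (patBad up dn tp s) (evArr0 up dn) (mBase m)
    (fun q a h => Or.inr (arr0_base up dn tp q a h)) hcut (pat_hb up dn tp s hlen)

end pat3

end Vale.Agent.Helper10
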