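import Vale.Agent.Helper10.GenCount
import Vale.Agent.Helper2.P329Prod

/-!
# Positional counting along a clock which advances by steps of one

`CountStep` is the statement of the automata theorem for clocks modulo an arbitrary `m`:
every letter either leaves the running class unchanged or increases it by one.
-/

namespace Vale.Agent.Helper10

/-- Statement of the automata theorem: for a degree map into `ZMod m` with values `0` and `1`,
the number of letters satisfying `sp` read at a prefix of class `x`, counted modulo `e`,
defines languages of generalized star height at most one. -/
def CountStep : Prop :=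
  ∀ (α : Type) [Finite α] (m : ℕ) [NeZero m] (dg : α → ZMod m), (∀ a, dg a = 0 ∨ dg a = 1) →
    ∀ (sp : α → Prop) [DecidablePred sp] (e : ℕ) [NeZero e] (x : ZMod m) (r : ZMod e),
    HasGSH 1 (fun w : List α => (cnt dg sp x 0 w : ZMod e) = r)

/-- the class of integer statistics all of whose residues have star height at most one -/
def Meas {α : Type} (F : List α → ℤ) : Prop :=
  ∀ (e : ℕ) [NeZero e] (r : ZMod e), HasGSH 1 (fun w : List α => ((F w : ℤ) : ZMod e) = r)

end Vale.Agent.Helper10
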