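import Vale.Agent.Helper10.PosMain
import Vale.Agent.Helper25.P329Coset
import Vale.Agent.Helper7.P329Card

/-!
# Final statements on clocks which advance by steps of one
-/

namespace Vale.Agent.Helper10

/-- Languages recognised through a letter map into an abelian normal subgroup and one of its
cosets have generalized star height at most one. -/
theorem coset_gsh {G α : Type} [Group G] [Finite G] [Finite α] (N : Subgroup G) [N.Normal]
    (hab : ∀ a ∈ N, ∀ b ∈ N, a * b = b * a) (g : G) (f : α → G)
    (hf : ∀ a, f a ∈ N ∨ g⁻¹ * f a ∈ N) (T : Set G) :
    HasGSH 1 (fun w : List α => (w.map f).prod ∈ T) :=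
  Vale.Agent.Helper25.P329Coset.gsh_of_coset count_step N hab g f hf T

/-- Positional counting: the number of positions of a word which carry a letter with the
property `sp` and are preceded by a number of letters with the property `tick` congruent to
`x` modulo `m`, counted modulo `e`. -/
theorem pos_gsh {α : Type} [Finite α] (tick sp : α → Prop) [DecidablePred tick]
    [DecidablePred sp] (m e x r : ℕ) (hm : 0 < m) (he : 0 < e) :
    HasGSH 1 (fun w : List α =>
      (Finset.univ.filter (fun i : Fin w.length => sp (w.get i) ∧
        (w.take i).countP (fun a => decide (tick a)) ≡ x [MOD m])).card ≡ r [MOD e]) := by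
  have hm' : NeZero m := ⟨hm.ne'⟩
  have he' : NeZero e := ⟨he.ne'⟩
  have h := count_step α m (fun a => if tick a then (1 : ZMod m) else 0)
    (fun a => by
      by_cases ht : tick a
      · right
        simp [ht]
      · left
        simp [ht]) sp e (x : ZMod m) (r : ZMod e)
  refine h.congr (fun w => ?_)
  have hc := Vale.Agent.Helper7.cnt_eq_card (m := m) tick sp x 0 w
  rw [Nat.cast_zero] at hc
  rw [hc, ZMod.natCast_eq_natCast_iff]
  simp only [zero_add]

end Vale.Agent.Helper10
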