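import Vale.Agent.Helper10.Shapes
import Vale.Agent.Helper10.GStat
import Vale.Agent.Helper25.P329Fibre
import Vale.Agent.Helper28.P329Mobius
import Vale.Agent.Helper7.P329Lift
import Vale.Agent.Helper12.P329Arrive

/-!
# Positional counting along a clock which advances by steps of one: assembly
-/

namespace Vale.Agent.Helper10

section lists

theorem sum_countP {ι : Type} [Fintype ι] (lam : ι → ℤ) (L : List (ι → Bool)) :
    ∑ y, lam y * ((L.countP (fun B => B y) : ℕ) : ℤ)
      = (L.map (fun B => ∑ y, lam y * (if B y = true then (1 : ℤ) else 0))).sum := by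
  induction L with
  | nil => simp
  | cons B L ih =>
    rw [List.map_cons, List.sum_cons, ← ih, ← Finset.sum_add_distrib]
    refine Finset.sum_congr rfl (fun y _ => ?_)
    rw [List.countP_cons]
    by_cases h : B y = true
    · simp [h]
      ring
    · simp [h]

theorem sum_map_count {β : Type} [Fintype β] [DecidableEq β] (Φ : β → ℤ) (L : List β) :
    (L.map Φ).sum = ∑ s, Φ s * ((L.count s : ℕ) : ℤ) := by
  induction L with
  | nil => simp
  | cons B L ih =>
    rw [List.map_cons, List.sum_cons, ih]
    have h1 : ∀ s, Φ s * ((List.count s (B :: L) : ℕ) : ℤ)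
        = Φ s * ((L.count s : ℕ) : ℤ) + (if s = B then Φ s else 0) := by
      intro s
      rw [List.count_cons]
      by_cases h : s = B
      · subst h
        simp
        ring
      · have h' : ¬ B = s := fun e => h e.symm
        simp [h, h']
    rw [Finset.sum_congr rfl (fun s _ => h1 s), Finset.sum_add_distrib, Finset.sum_ite_eq']
    simp
    ring

theorem count_add_countP {β : Type} [DecidableEq β] (s : β) (L : List β) :
    L.count s + L.countP (fun B => decide (B ≠ s)) = L.length := by
  induction L with
  | nil => simp
  | cons B L ih =>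
    rw [List.count_cons, List.countP_cons, List.length_cons]
    by_cases h : B = s
    · rw [if_pos (by simpa using h), if_neg (by simpa using h)]
      omega
    · rw [if_neg (by simpa using h), if_pos (by simpa using h)]
      omega

end lists

section cnts

variable {α : Type} {m : ℕ}

/-- the advancing letters, seen as a word over `Bool` -/
def advMap (adv : α → Bool) (sp : α → Prop) [DecidablePred sp] : α → Option Bool :=
  fun a => if adv a = true then some (decide (sp a)) else none

theorem cnt_filterMap (adv : α → Bool) (sp : α → Prop) [DecidablePred sp] (x : ZMod m) :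
    ∀ (w : List α) (c : ZMod m),
      cnt (fun a => if adv a = true then (1 : ZMod m) else 0) (fun a => adv a = true ∧ sp a) x c w
        = cnt (fun _ : Bool => (1 : ZMod m)) (fun b => b = true) x c
            (w.filterMap (advMap adv sp)) := by
  intro w
  induction w with
  | nil => intro c; rfl
  | cons a w ih =>
    intro c
    by_cases ha : adv a = true
    · have h1 : (a :: w).filterMap (advMap adv sp)
          = decide (sp a) :: w.filterMap (advMap adv sp) := by
        simp [advMap, ha]
      rw [h1]
      show (if (adv a = true ∧ sp a) ∧ c = x then 1 else 0)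
          + cnt _ _ x (c + (if adv a = true then (1 : ZMod m) else 0)) w
        = (if decide (sp a) = true ∧ c = x then 1 else 0)
          + cnt (fun _ : Bool => (1 : ZMod m)) (fun b => b = true) x (c + 1)
            (w.filterMap (advMap adv sp))
      rw [if_pos ha, ih (c + 1)]
      simp [ha]
    · have h1 : (a :: w).filterMap (advMap adv sp) = w.filterMap (advMap adv sp) := by
        simp [advMap, ha]
      rw [h1]
      show (if (adv a = true ∧ sp a) ∧ c = x then 1 else 0)
          + cnt _ _ x (c + (if adv a = true then (1 : ZMod m) else 0)) w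
        = cnt (fun _ : Bool => (1 : ZMod m)) (fun b => b = true) x c
            (w.filterMap (advMap adv sp))
      rw [if_neg ha, add_zero, ih c]
      simp [ha]

theorem cnt_split (dg : α → ZMod m) (adv : α → Bool) (sp : α → Prop) [DecidablePred sp]
    (x : ZMod m) :
    ∀ (w : List α) (c : ZMod m),
      cnt dg sp x c w = cnt dg (fun a => adv a = true ∧ sp a) x c w
        + cnt dg (fun a => adv a = false ∧ sp a) x c w := by
  intro w
  induction w with
  | nil => intro c; rfl
  | cons a w ih =>
    intro c
    simp only [cnt, ih (c + dg a)]
    by_cases ha : adv a = true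
    · by_cases h : sp a ∧ c = x
      · simp [ha, h.1, h.2]
        omega
      · simp [ha, h]
    · have ha' : adv a = false := by simpa using ha
      by_cases h : sp a ∧ c = x
      · simp [ha', h.1, h.2]
        omega
      · simp [ha', h]

theorem cnt_false (dg : α → ZMod m) (sp : α → Prop) [DecidablePred sp] (hsp : ∀ a, ¬ sp a)
    (x : ZMod m) : ∀ (w : List α) (c : ZMod m), cnt dg sp x c w = 0 := by
  intro w
  induction w with
  | nil => intro c; rfl
  | cons a w ih =>
    intro c
    simp [cnt, ih (c + dg a), hsp a]

end cnts

/-- the lifting statement: the number of marked transitions of an automaton over `β` along the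
image of a word over `α`, followed by a fixed padding -/
def LiftStmt : Prop :=
  ∀ (I α β : Type) [Finite I] [Finite α] (δ : I → β → I) (bad : I → β → Bool) (i0 : I),
    (∀ i b, bad i b = true → δ i b = i0) → CounterFree (gOpt δ bad) →
    ∀ (h : α → Option β) (z : List β) (i : I),
      Meas (fun w : List α => ((bcount δ bad i (w.filterMap h ++ z) : ℕ) : ℤ))

/-- the statement on arrivals at a class -/
def ArriveStmt : Prop :=
  ∀ (α : Type) [Finite α] (m : ℕ) [NeZero m] (adv : α → Bool) (sp : α → Prop) [DecidablePred sp]
    (x : ZMod m),
    Meas (fun w : List α =>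
      ((cnt (fun a => if adv a then (1 : ZMod m) else 0) (fun a => adv a = true) (x - 1) 0 w
        + cnt (fun a => if adv a then (1 : ZMod m) else 0) (fun a => adv a = false ∧ sp a) x 0 w
          : ℕ) : ℤ))

section blocks

variable {α : Type} [Finite α] {m : ℕ} [NeZero m]

/-- combinations of the positional counts of a word over `Bool` which vanish on all patterns
with a nontrivial period are measurable -/
theorem block_meas (hL : LiftStmt) (h : α → Option Bool) (lam : ZMod m → ℤ)
    (hlam : ∀ s : ZMod m → Bool, (∃ g : ZMod m, g ≠ 0 ∧ ∀ i, s (i + g) = s i) →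
      ∑ y, lam y * (if s y = true then (1 : ℤ) else 0) = 0) :
    Meas (fun w : List α => ∑ y, lam y *
      ((cnt (fun _ : Bool => (1 : ZMod m)) (fun b => b = true) y 0 (w.filterMap h) : ℕ) : ℤ)) := by
  classical
  let pad : List Bool := List.replicate (m - 1) false
  let Bl : List α → List (ZMod m → Bool) :=
    fun w => shapes 0 (fun _ => false) (w.filterMap h ++ pad)
  let Φ : (ZMod m → Bool) → ℤ := fun B => ∑ y, lam y * (if B y = true then (1 : ℤ) else 0)
  have hlen : Meas (fun w : List α => (((Bl w).length : ℕ) : ℤ)) := by
    have h1 := hL (ZMod m) α Bool (fun (i : ZMod m) (_ : Bool) => i + 1)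
      (fun i _ => decide (i + 1 = 0)) 0 (fun i b hb => by simpa using hb) blk_cf h pad 0
    refine h1.congr (fun w => ?_)
    rw [shapes_length]
  have hcount : ∀ s : ZMod m → Bool, Meas (fun w : List α => Φ s * (((Bl w).count s : ℕ) : ℤ)) := by
    intro s
    by_cases hs : ∃ g : ZMod m, g ≠ 0 ∧ ∀ i, s (i + g) = s i
    · have h0 : Φ s = 0 := hlam s hs
      refine Meas.zero.congr (fun w => ?_)
      rw [h0, zero_mul]
    · have hprim : ∀ g : ZMod m, (∀ i, s (i + g) = s i) → g = 0 := by
        intro g hg
        by_contra hne
        exact hs ⟨g, hne, hg⟩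
      have h1 := hL (ZMod m × Bool) α Bool (bd s) (bdBad s) ((0 : ZMod m), true)
        (bd_base s) (bd_cf s hprim) h pad ((0 : ZMod m), true)
      have h2 : Meas (fun w : List α =>
          (((Bl w).countP (fun B => decide (B ≠ s)) : ℕ) : ℤ)) := by
        refine h1.congr (fun w => ?_)
        rw [bcount_shapes s (w.filterMap h ++ pad) 0 (fun _ => false) true]
        constructor
        · intro _ i hi
          rw [ZMod.val_zero] at hi
          omega
        · intro _
          rfl
      refine ((hlen.sub h2).smul (Φ s)).congr (fun w => ?_)
      have h3 := count_add_countP s (Bl w)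
      have h4 : (((Bl w).count s : ℕ) : ℤ)
          = (((Bl w).length : ℕ) : ℤ) - (((Bl w).countP (fun B => decide (B ≠ s)) : ℕ) : ℤ) := by
        omega
      rw [h4]
  have hsum := Meas.sum Finset.univ (fun s w => Φ s * (((Bl w).count s : ℕ) : ℤ))
    (fun s _ => hcount s)
  refine hsum.congr (fun w => ?_)
  rw [← sum_map_count Φ (Bl w), ← sum_countP lam (Bl w)]
  refine Finset.sum_congr rfl (fun y _ => ?_)
  rw [cnt_pad y (w.filterMap h) (fun _ => false)]

end blocks

section final

/-- advancing letters read at a given class, for a clock modulo an arbitrary `m` -/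
theorem adv_meas (hL : LiftStmt) :
    ∀ (m : ℕ) [NeZero m] (α : Type) [Finite α] (adv : α → Bool) (sp : α → Prop)
      [DecidablePred sp] (x : ZMod m),
      Meas (fun w : List α => ((cnt (fun a => if adv a = true then (1 : ZMod m) else 0)
        (fun a => adv a = true ∧ sp a) x 0 w : ℕ) : ℤ)) := by
  intro m
  induction m using Nat.strong_induction_on with
  | _ m ih =>
    intro hm α _ adv sp _ x
    refine Vale.Agent.Helper28.P329Mobius.mobius_step (α := α) (m := m) Meas
      (fun f g hf hg => hf.add hg) (fun k f hf => hf.smul k) (fun k f hk hf => Meas.div k hk hf)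
      (fun y w => ((cnt (fun a => if adv a = true then (1 : ZMod m) else 0)
        (fun a => adv a = true ∧ sp a) y 0 w : ℕ) : ℤ)) ?_ ?_ x
    · intro d hd hlt y
      have hd0 : NeZero d := ⟨fun h0 => by
        subst h0
        exact hm.out (Nat.eq_zero_of_zero_dvd hd)⟩
      have h1 := ih d hlt α adv sp (ZMod.castHom hd (ZMod d) y)
      refine h1.congr (fun w => ?_)
      rw [← Nat.cast_sum,
        Vale.Agent.Helper25.P329Fibre.cnt_fibre hd adv (fun a => adv a = true ∧ sp a) y 0 w,
        map_zero]
    · intro lam hlam
      have h1 := block_meas hL (advMap adv sp) lam hlam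
      refine h1.congr (fun w => ?_)
      refine Finset.sum_congr rfl (fun y _ => ?_)
      rw [cnt_filterMap]

/-- the automata theorem, from the lifting statement and the statement on arrivals -/
theorem count_step_of (hL : LiftStmt) (hA : ArriveStmt) : CountStep := by
  intro α _ m _ dg hdg sp _ e _ x r
  classical
  let adv : α → Bool := fun a => decide (dg a = 1)
  have hdg' : dg = fun a => if adv a = true then (1 : ZMod m) else 0 := by
    funext a
    by_cases h : dg a = 1
    · simp [adv, h]
    · rcases hdg a with h0 | h1
      · simp [adv, h0]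
      · exact absurd h1 h
  have hA1 := hA α m adv sp x
  have hA0 := hA α m adv (fun _ => False) x
  have hB := adv_meas hL m α adv sp x
  have hC : Meas (fun w : List α => ((cnt (fun a => if adv a = true then (1 : ZMod m) else 0)
      (fun a => adv a = false ∧ sp a) x 0 w : ℕ) : ℤ)) := by
    refine (hA1.sub hA0).congr (fun w => ?_)
    rw [cnt_false _ (fun a => adv a = false ∧ False) (fun a h => h.2)]
    push_cast
    ring
  have hD := (hB.add hC) e r
  rw [hdg']
  refine hD.congr (fun w => ?_)
  rw [cnt_split _ adv sp x w 0]
  push_cast
  rfl

/-- **Positional counting along a clock with steps `0` and `1` modulo an arbitrary `m`.** -/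
theorem count_step : CountStep :=
  count_step_of
    (fun _ _ _ _ _ δ bad i0 h0 hcf h z i =>
      Vale.Agent.Helper7.bcount_lift_meas δ bad i0 h0 hcf h z i)
    (fun _ _ _ _ adv sp _ x => Vale.Agent.Helper12.P329Arrive.arrive_meas adv sp x)

end final

end Vale.Agent.Helper10
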