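import Vale.Agent.Helper10.GenCount

namespace Vale.Agent.Helper10

section prefixes

variable {Q α : Type} [DecidableEq Q] [DecidableEq α] (δ : Q → α → Q) (F : Finset Q)

/-- the number of nonempty prefixes of `w` which lead from `q` into `F` -/
def pcount : Q → List α → ℕ
  | _, [] => 0
  | q, a :: w => (if δ q a ∈ F then 1 else 0) + pcount (δ q a) w

/-- the transition marked by the pair `t` -/
def pairBad (t : Q × α) : Q → α → Bool := fun i a => decide (i = t.1 ∧ a = t.2)

theorem pcount_eq_sum [Fintype Q] [Fintype α] : ∀ (w : List α) (q : Q),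
    pcount δ F q w = ∑ t ∈ Finset.univ.filter (fun t : Q × α => δ t.1 t.2 ∈ F),
      bcount δ (pairBad t) q w := by
  intro w
  induction w with
  | nil => intro q; simp [pcount, bcount]
  | cons a w ih =>
    intro q
    simp only [pcount, bcount, Finset.sum_add_distrib, ih]
    congr 1
    by_cases hF : δ q a ∈ F
    · rw [if_pos hF]
      rw [Finset.sum_eq_single (q, a)]
      · simp [pairBad]
      · intro t _ ht
        have : ¬ (q = t.1 ∧ a = t.2) := by
          rintro ⟨h1, h2⟩
          exact ht (Prod.ext h1.symm h2.symm)
        simp [pairBad, this]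
      · intro h
        exact absurd (by simpa using hF) h
    · rw [if_neg hF]
      symm
      apply Finset.sum_eq_zero
      intro t ht
      have ht' : δ t.1 t.2 ∈ F := (Finset.mem_filter.1 ht).2
      have : ¬ (q = t.1 ∧ a = t.2) := by
        rintro ⟨h1, h2⟩
        apply hF
        rw [h1, h2]
        exact ht'
      simp [pairBad, this]

omit [DecidableEq α] in
theorem card_prefix_eq : ∀ (w : List α) (q : Q),
    ((Finset.range w.length).filter
      (fun n => List.foldl δ q (w.take (n + 1)) ∈ F)).card = pcount δ F q w := by
  intro w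
  induction w with
  | nil => intro q; simp [pcount]
  | cons a w ih =>
    intro q
    have e1 : ((Finset.range (a :: w).length).filter
        (fun n => List.foldl δ q ((a :: w).take (n + 1)) ∈ F)).card
        = ∑ n ∈ Finset.range (w.length + 1),
          (if List.foldl δ q ((a :: w).take (n + 1)) ∈ F then 1 else 0) := by
      rw [Finset.card_filter, List.length_cons]
    have e2 : ((Finset.range w.length).filter
        (fun n => List.foldl δ (δ q a) (w.take (n + 1)) ∈ F)).card
        = ∑ n ∈ Finset.range w.length,
          (if List.foldl δ (δ q a) (w.take (n + 1)) ∈ F then 1 else 0) := by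
      rw [Finset.card_filter]
    rw [e1, Finset.sum_range_succ', pcount, ← ih (δ q a), e2, add_comm]
    rfl

/-- counting modulo `M` the nonempty prefixes accepted by a counter-free automaton -/
theorem pcount_gsh [Fintype Q] [Fintype α] (M : ℕ) [NeZero M] (hcf : CounterFree δ) (q0 : Q)
    (r : ℕ) : HasGSH 1 (fun w : List α => pcount δ F q0 w ≡ r [MOD M]) := by
  have h1 : ∀ (t : Q × α) (s : ZMod M), HasGSH 1 (fun w : List α =>
      (bcount δ (pairBad t) q0 w : ZMod M) = s) := by
    intro t s
    refine bcount_gsh δ (pairBad t) (δ t.1 t.2) M hcf ?_ q0 s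
    intro i a hb
    have : i = t.1 ∧ a = t.2 := by simpa [pairBad] using hb
    rw [this.1, this.2]
  refine HasGSH.of_fun (fun (w : List α) (t : Q × α) =>
    (bcount δ (pairBad t) q0 w : ZMod M)) (fun T => HasGSH.pi _ h1 T) _ ?_
  intro w w' hF hw
  have e : ((pcount δ F q0 w : ℕ) : ZMod M) = ((pcount δ F q0 w' : ℕ) : ZMod M) := by
    rw [pcount_eq_sum, pcount_eq_sum]
    push_cast
    exact Finset.sum_congr rfl (fun t _ => congr_fun hF t)
  exact ((ZMod.natCast_eq_natCast_iff _ _ _).1 e).symm.trans hw

end prefixes

end Vale.Agent.Helper10
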