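import Vale.Agent.Helper10.CfProj

namespace Vale.Agent.Helper10

section inner

variable {α : Type} {p : ℕ} (dg : α → ZMod p) (sp : α → Bool) (x : ZMod p)
  (inc : Bool → Bool → Bool) (nz : Bool)

/-- the class automaton with one extra bit: the bit records, outside the base class `x`,
whether the last departure from the base class was made with a special letter -/
def inStep : ZMod p × Bool → α → ZMod p × Bool :=
  fun i a =>
    if i.1 + dg a = x then (if i.1 = x then i else (x, false))
    else (if i.1 = x then (i.1 + dg a, sp a) else (i.1 + dg a, i.2))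

/-- the transitions which make the round counter advance -/
def inBad : ZMod p × Bool → α → Bool :=
  fun i a =>
    if i.1 + dg a = x then (if i.1 = x then (nz && sp a) else inc i.2 (sp a)) else false

/-- the class automaton in which the advancing transitions lead to a sink -/
def inOpt : Option (ZMod p × Bool) → α → Option (ZMod p × Bool)
  | none, _ => none
  | some i, a => if inBad dg sp x inc nz i a then none else some (inStep dg sp x i a)

theorem inStep_eq1 (i : ZMod p × Bool) (a : α) (h1 : i.1 + dg a = x) (h2 : i.1 = x) :
    inStep dg sp x i a = i := by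
  unfold inStep; rw [if_pos h1, if_pos h2]

theorem inStep_eq2 (i : ZMod p × Bool) (a : α) (h1 : i.1 + dg a = x) (h2 : i.1 ≠ x) :
    inStep dg sp x i a = (x, false) := by
  unfold inStep; rw [if_pos h1, if_neg h2]

theorem inStep_eq3 (i : ZMod p × Bool) (a : α) (h1 : i.1 + dg a ≠ x) (h2 : i.1 = x) :
    inStep dg sp x i a = (i.1 + dg a, sp a) := by
  unfold inStep; rw [if_neg h1, if_pos h2]

theorem inStep_eq4 (i : ZMod p × Bool) (a : α) (h1 : i.1 + dg a ≠ x) (h2 : i.1 ≠ x) :
    inStep dg sp x i a = (i.1 + dg a, i.2) := by
  unfold inStep; rw [if_neg h1, if_neg h2]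

theorem inStep_fst (i : ZMod p × Bool) (a : α) : (inStep dg sp x i a).1 = i.1 + dg a := by
  unfold inStep
  split_ifs with h1 h2 h2
  · rw [h2] at h1; rw [h2, h1]
  · exact h1.symm
  · rfl
  · rfl

theorem inOpt_none (w : List α) : run (inOpt dg sp x inc nz) none w = none := by
  induction w with
  | nil => rfl
  | cons a w ih => rw [run_cons]; exact ih

theorem inOpt_cons (i : ZMod p × Bool) (a : α) (w : List α) (j : ZMod p × Bool)
    (h : run (inOpt dg sp x inc nz) (some i) (a :: w) = some j) :
    inBad dg sp x inc nz i a = false ∧
      run (inOpt dg sp x inc nz) (some (inStep dg sp x i a)) w = some j := by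
  rw [run_cons] at h
  by_cases hb : inBad dg sp x inc nz i a = true
  · have : inOpt dg sp x inc nz (some i) a = none := by simp [inOpt, hb]
    rw [this, inOpt_none] at h
    exact absurd h (by simp)
  · have hb' : inBad dg sp x inc nz i a = false := by simpa using hb
    have : inOpt dg sp x inc nz (some i) a = some (inStep dg sp x i a) := by simp [inOpt, hb']
    rw [this] at h
    exact ⟨hb', h⟩

theorem inOpt_append (u v : List α) (i j : ZMod p × Bool)
    (h : run (inOpt dg sp x inc nz) (some i) (u ++ v) = some j) :
    ∃ i1, run (inOpt dg sp x inc nz) (some i) u = some i1 ∧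
      run (inOpt dg sp x inc nz) (some i1) v = some j := by
  rw [run_append] at h
  cases h1 : run (inOpt dg sp x inc nz) (some i) u with
  | none => rw [h1, inOpt_none] at h; exact absurd h (by simp)
  | some i1 => rw [h1] at h; exact ⟨i1, rfl, h⟩

theorem inOpt_class : ∀ (w : List α) (i j : ZMod p × Bool),
    run (inOpt dg sp x inc nz) (some i) w = some j → j.1 = i.1 + (w.map dg).sum := by
  intro w
  induction w with
  | nil =>
    intro i j h
    have : i = j := by simpa using h
    simp [this]
  | cons a w ih =>
    intro i j h
    obtain ⟨-, h2⟩ := inOpt_cons dg sp x inc nz i a w j h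
    rw [ih _ _ h2, inStep_fst]
    simp [add_assoc]

theorem inStep_pair (c : ZMod p) (f f' : Bool) (a : α) :
    ∃ (c1 : ZMod p) (g g' : Bool), inStep dg sp x (c, f) a = (c1, g) ∧
      inStep dg sp x (c, f') a = (c1, g') ∧ (g = g' ∨ (g = f ∧ g' = f')) := by
  by_cases h1 : c + dg a = x
  · by_cases h2 : c = x
    · exact ⟨c, f, f', inStep_eq1 dg sp x (c, f) a h1 h2, inStep_eq1 dg sp x (c, f') a h1 h2,
        Or.inr ⟨rfl, rfl⟩⟩
    · exact ⟨x, false, false, inStep_eq2 dg sp x (c, f) a h1 h2,
        inStep_eq2 dg sp x (c, f') a h1 h2, Or.inl rfl⟩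
  · by_cases h2 : c = x
    · exact ⟨c + dg a, sp a, sp a, inStep_eq3 dg sp x (c, f) a h1 h2,
        inStep_eq3 dg sp x (c, f') a h1 h2, Or.inl rfl⟩
    · exact ⟨c + dg a, f, f', inStep_eq4 dg sp x (c, f) a h1 h2,
        inStep_eq4 dg sp x (c, f') a h1 h2, Or.inr ⟨rfl, rfl⟩⟩

theorem inOpt_two : ∀ (w : List α) (c : ZMod p) (f f' : Bool) (j j' : ZMod p × Bool),
    run (inOpt dg sp x inc nz) (some (c, f)) w = some j →
    run (inOpt dg sp x inc nz) (some (c, f')) w = some j' →
    j.2 = j'.2 ∨ (j.2 = f ∧ j'.2 = f') := by
  intro w
  induction w with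
  | nil =>
    intro c f f' j j' h h'
    have e1 : (c, f) = j := by simpa using h
    have e2 : (c, f') = j' := by simpa using h'
    right
    rw [← e1, ← e2]
    exact ⟨rfl, rfl⟩
  | cons a w ih =>
    intro c f f' j j' h h'
    obtain ⟨-, h2⟩ := inOpt_cons dg sp x inc nz _ a w j h
    obtain ⟨-, h2'⟩ := inOpt_cons dg sp x inc nz _ a w j' h'
    obtain ⟨c1, g, g', e1, e2, e3⟩ := inStep_pair dg sp x c f f' a
    rw [e1] at h2
    rw [e2] at h2'
    rcases ih c1 g g' j j' h2 h2' with h4 | ⟨h4, h5⟩
    · exact Or.inl h4
    · rcases e3 with e3 | ⟨e3, e4⟩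
      · left; rw [h4, h5, e3]
      · right; exact ⟨h4.trans e3, h5.trans e4⟩

/-- first arrival: from a state outside the base class, either an arrival at the base
class happens with the bit unchanged, or the walk ends outside the base class with the
bit unchanged -/
theorem inOpt_arrive : ∀ (y : List α) (i j : ZMod p × Bool) (g : Bool), i.1 ≠ x → i.2 = g →
    run (inOpt dg sp x inc nz) (some i) y = some j →
    (∃ (c3 : ZMod p) (b : α), c3 ≠ x ∧ c3 + dg b = x ∧ inc g (sp b) = false) ∨
      (j.1 ≠ x ∧ j.2 = g) := by
  intro y
  induction y with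
  | nil =>
    intro i j g hi hg h
    have : i = j := by simpa using h
    right
    rw [← this]
    exact ⟨hi, hg⟩
  | cons b y ih =>
    intro i j g hi hg h
    obtain ⟨hb, h2⟩ := inOpt_cons dg sp x inc nz i b y j h
    by_cases h1 : i.1 + dg b = x
    · left
      refine ⟨i.1, b, hi, h1, ?_⟩
      have : inBad dg sp x inc nz i b = inc i.2 (sp b) := by simp [inBad, h1, hi]
      rw [this, hg] at hb
      exact hb
    · have e1 : inStep dg sp x i b = (i.1 + dg b, i.2) := inStep_eq4 dg sp x i b h1 hi
      rw [e1] at h2
      exact ih (i.1 + dg b, i.2) j g h1 hg h2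

theorem inOpt_iter_none (w : List α) (m : ℕ) :
    (fun q => run (inOpt dg sp x inc nz) q w)^[m] none = none := by
  induction m with
  | zero => rfl
  | succ m ih => rw [Function.iterate_succ_apply, inOpt_none, ih]

/-- the class automaton with a sink is counter-free as soon as a block which does not
advance the counter cannot be followed by a block which does not advance it either -/
theorem inOpt_cf [Fact p.Prime] (hinc : ∀ f g g', inc f g = false → inc g g' = true) :
    CounterFree (inOpt dg sp x inc nz) := by
  have : NeZero p := ⟨(Fact.out : p.Prime).ne_zero⟩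
  intro w q n hn hq
  cases q with
  | none => exact inOpt_none dg sp x inc nz w
  | some i =>
    have hsome : ∀ m, ∃ j, (fun q => run (inOpt dg sp x inc nz) q w)^[m] (some i) = some j := by
      intro m
      have hper : (fun q => run (inOpt dg sp x inc nz) q w)^[m] (some i)
          = (fun q => run (inOpt dg sp x inc nz) q w)^[m % n] (some i) := by
        conv_lhs => rw [← Nat.mod_add_div m n]
        rw [Function.iterate_add_apply, Function.iterate_mul, Function.iterate_fixed hq]
      rw [hper]
      have hlt : m % n < n := Nat.mod_lt _ hn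
      cases h1 : (fun q => run (inOpt dg sp x inc nz) q w)^[m % n] (some i) with
      | some j => exact ⟨j, rfl⟩
      | none =>
        exfalso
        have e : n = (n - m % n) + m % n := by omega
        rw [e, Function.iterate_add_apply, h1, inOpt_iter_none] at hq
        exact absurd hq (by simp)
    choose s hs using hsome
    have hs0 : s 0 = i := by
      have := hs 0
      simp only [Function.iterate_zero, id_eq] at this
      exact (Option.some.inj this).symm
    have hsn : s n = i := by
      have := hs n
      rw [hq] at this
      exact (Option.some.inj this).symm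
    have hstep : ∀ m, run (inOpt dg sp x inc nz) (some (s m)) w = some (s (m + 1)) := by
      intro m
      have := hs (m + 1)
      rw [Function.iterate_succ_apply', hs m] at this
      exact this
    have hcls : ∀ m : ℕ, (s m).1 = i.1 + m * (w.map dg).sum := by
      intro m
      induction m with
      | zero => simp [hs0]
      | succ m ih =>
        rw [inOpt_class dg sp x inc nz w _ _ (hstep m), ih]
        push_cast
        ring
    have hgoal : s 1 = i → run (inOpt dg sp x inc nz) (some i) w = some i := by
      intro h
      have := hstep 0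
      rw [hs0] at this
      rw [this]
      simpa using h
    apply hgoal
    by_cases hδ : (w.map dg).sum = 0
    · -- the class is constant
      have hc : ∀ m, (s m).1 = i.1 := by
        intro m; rw [hcls m, hδ]; simp
      have htwo : ∀ m, (s 1).2 = (s (m + 1)).2 ∨ ((s 1).2 = (s 0).2 ∧ (s (m + 1)).2 = (s m).2) := by
        intro m
        have h0 := hstep 0
        have hm := hstep m
        have e0 : s 0 = (i.1, (s 0).2) := Prod.ext (hc 0) rfl
        have em : s m = (i.1, (s m).2) := Prod.ext (hc m) rfl
        rw [e0] at h0
        rw [em] at hm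
        exact inOpt_two dg sp x inc nz w i.1 (s 0).2 (s m).2 (s 1) (s (m + 1)) h0 hm
      refine Prod.ext (hc 1) ?_
      by_contra hne
      have h1 : (s 1).2 = (s ((n - 1) + 1)).2 := by
        rcases htwo (n - 1) with h | ⟨h, -⟩
        · exact h
        · rw [hs0] at h
          exact absurd h hne
      have e : n - 1 + 1 = n := by omega
      rw [e, hsn] at h1
      exact hne h1
    · exfalso
      have hex : ∃ a ∈ w, dg a ≠ 0 := by
        by_contra hall
        push Not at hall
        apply hδ
        apply List.sum_eq_zero
        intro y hy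
        rw [List.mem_map] at hy
        obtain ⟨a, ha, rfl⟩ := hy
        exact hall a ha
      obtain ⟨a, ha, hda⟩ := hex
      obtain ⟨u, v, hw⟩ := List.append_of_mem ha
      have hb : ∀ m, ∃ b, run (inOpt dg sp x inc nz) (some (s m)) u = some b ∧
          inBad dg sp x inc nz b a = false ∧
          run (inOpt dg sp x inc nz) (some (inStep dg sp x b a)) v = some (s (m + 1)) := by
        intro m
        have := hstep m
        rw [hw] at this
        obtain ⟨b, hb1, hb2⟩ := inOpt_append dg sp x inc nz _ _ _ _ this
        obtain ⟨hb3, hb4⟩ := inOpt_cons dg sp x inc nz _ _ _ _ hb2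
        exact ⟨b, hb1, hb3, hb4⟩
      choose b hb1 hb2 hb3 using hb
      have hbc : ∀ m : ℕ, (b m).1 = i.1 + m * (w.map dg).sum + (u.map dg).sum := by
        intro m
        rw [inOpt_class dg sp x inc nz u _ _ (hb1 m), hcls m]
      have hex2 : ∀ target : ZMod p, ∃ m : ℕ, (b m).1 = target := by
        intro target
        refine ⟨((target - i.1 - (u.map dg).sum) * ((w.map dg).sum)⁻¹).val, ?_⟩
        rw [hbc, ZMod.natCast_zmod_val, mul_assoc, inv_mul_cancel₀ hδ]
        ring
      obtain ⟨m2, hm2⟩ := hex2 (x - dg a)
      obtain ⟨m1, hm1⟩ := hex2 x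
      have hI : inc (b m2).2 (sp a) = false := by
        have h1 : (b m2).1 + dg a = x := by rw [hm2]; ring
        have h2 : (b m2).1 ≠ x := by
          rw [hm2]
          intro h
          apply hda
          have : x - dg a = x - 0 := by rw [h]; ring
          exact sub_right_injective this
        have := hb2 m2
        unfold inBad at this
        rw [if_pos h1, if_neg h2] at this
        exact this
      have ht : inStep dg sp x (b m1) a = ((b m1).1 + dg a, sp a) := by
        apply inStep_eq3 _ _ _ _ _ _ hm1
        rw [hm1]
        intro h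
        apply hda
        have : x + dg a = x + 0 := by rw [h]; ring
        exact add_left_cancel this
      have ht1 : ((b m1).1 + dg a, sp a).1 ≠ x := by
        show (b m1).1 + dg a ≠ x
        rw [hm1]
        intro h
        apply hda
        have : x + dg a = x + 0 := by rw [h]; ring
        exact add_left_cancel this
      have hK : ∀ k : ℕ, (∃ (c3 : ZMod p) (b' : α), c3 ≠ x ∧ c3 + dg b' = x ∧
          inc (sp a) (sp b') = false) ∨
          ((s (m1 + 1 + k)).1 ≠ x ∧ (s (m1 + 1 + k)).2 = sp a) := by
        intro k
        induction k with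
        | zero =>
          have := hb3 m1
          rw [ht] at this
          exact inOpt_arrive dg sp x inc nz v _ _ (sp a) ht1 rfl this
        | succ k ih =>
          rcases ih with ih | ⟨ih1, ih2⟩
          · exact Or.inl ih
          · exact inOpt_arrive dg sp x inc nz w _ _ (sp a) ih1 ih2 (hstep (m1 + 1 + k))
      have hp : 0 < p := (Fact.out : p.Prime).pos
      have hfound : ∃ (c3 : ZMod p) (b' : α), c3 ≠ x ∧ c3 + dg b' = x ∧
          inc (sp a) (sp b') = false := by
        rcases hK (p - 1) with h | ⟨h1, h2⟩
        · exact h
        · have e : m1 + 1 + (p - 1) = m1 + p := by omega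
          rw [e] at h1 h2
          rcases inOpt_arrive dg sp x inc nz u _ _ (sp a) h1 h2 (hb1 (m1 + p)) with h | ⟨h3, -⟩
          · exact h
          · exfalso
            apply h3
            rw [hbc]
            have := hbc m1
            rw [hm1] at this
            rw [this]
            push_cast
            rw [ZMod.natCast_self]
            ring
      obtain ⟨c3, b', -, -, hII⟩ := hfound
      have := hinc _ _ (sp b') hI
      rw [hII] at this
      exact absurd this (by simp)

end inner

section composite

variable {α : Type} {p : ℕ} (dg : α → ZMod p) (sp : α → Bool) (x : ZMod p)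
  (inc : Bool → Bool → Bool) (nz : Bool) (M : ℕ)

/-- the class automaton together with a round counter modulo `M` -/
def cStep : ZMod M × (ZMod p × Bool) → α → ZMod M × (ZMod p × Bool) :=
  fun q a =>
    if inBad dg sp x inc nz q.2 a then (q.1 + 1, (x, false)) else (q.1, inStep dg sp x q.2 a)

theorem zmod_val_succ [NeZero M] (k : ZMod M) (h : k + 1 ≠ 0) : (k + 1).val = k.val + 1 := by
  have h1 : k.val < M := ZMod.val_lt k
  have h2 : k.val + 1 ≠ M := by
    intro e
    apply h
    have : (k + 1 : ZMod M) = ((k.val + 1 : ℕ) : ZMod M) := by
      push_cast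
      rw [ZMod.natCast_zmod_val]
    rw [this, e, ZMod.natCast_self]
  rw [ZMod.val_add, ZMod.val_one_eq_one_mod, Nat.add_mod_mod, Nat.mod_eq_of_lt (by omega)]

/-- the composite automaton is counter-free once its base state is made absorbing -/
theorem cStep_cf [Fact p.Prime] [NeZero M]
    (hinc : ∀ f g g', inc f g = false → inc g g' = true) :
    CounterFree (absorb (cStep dg sp x inc nz M) ((0 : ZMod M), (x, false))) := by
  classical
  refine cf_of_proj _ (inOpt dg sp x inc nz)
    (fun q => if q = ((0 : ZMod M), (x, false)) then M else q.1.val)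
    (fun q => if q = ((0 : ZMod M), (x, false)) then none else some q.2) ?_ ?_ ?_
    (inOpt_cf dg sp x inc nz hinc)
  · intro q a
    by_cases hq : q = ((0 : ZMod M), (x, false))
    · have : absorb (cStep dg sp x inc nz M) ((0 : ZMod M), (x, false)) q a
          = ((0 : ZMod M), (x, false)) := by rw [hq]; simp [absorb]
      rw [this, hq]
    · rw [absorb_of_ne _ _ _ _ hq, if_neg hq]
      by_cases hq' : cStep dg sp x inc nz M q a = ((0 : ZMod M), (x, false))
      · rw [if_pos hq']
        exact (ZMod.val_lt q.1).le
      · rw [if_neg hq']
        unfold cStep at hq' ⊢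
        by_cases hb : inBad dg sp x inc nz q.2 a = true
        · rw [if_pos hb] at hq' ⊢
          have h0 : q.1 + 1 ≠ 0 := by
            intro h0
            apply hq'
            rw [h0]
          show q.1.val ≤ (q.1 + 1).val
          rw [zmod_val_succ M q.1 h0]
          omega
        · rw [if_neg hb]
  · intro q a
    by_cases hq : q = ((0 : ZMod M), (x, false))
    · have : absorb (cStep dg sp x inc nz M) ((0 : ZMod M), (x, false)) q a
          = ((0 : ZMod M), (x, false)) := by rw [hq]; simp [absorb]
      intro _
      rw [this, hq]
      simp [inOpt]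
    · rw [absorb_of_ne _ _ _ _ hq, if_neg hq]
      by_cases hq' : cStep dg sp x inc nz M q a = ((0 : ZMod M), (x, false))
      · rw [if_pos hq']
        intro h
        exact absurd h (ZMod.val_lt q.1).ne'
      · rw [if_neg hq', if_neg hq']
        intro h
        unfold cStep at hq' h ⊢
        by_cases hb : inBad dg sp x inc nz q.2 a = true
        · exfalso
          rw [if_pos hb] at hq' h
          have h0 : q.1 + 1 ≠ 0 := by
            intro h0
            apply hq'
            rw [h0]
          have h' : (q.1 + 1).val = q.1.val := h
          rw [zmod_val_succ M q.1 h0] at h'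
          omega
        · have hb' : inBad dg sp x inc nz q.2 a = false := by simpa using hb
          rw [if_neg hb, if_neg hq]
          simp [inOpt, hb']
  · intro q q' h1 h2
    by_cases hq : q = ((0 : ZMod M), (x, false))
    · by_cases hq' : q' = ((0 : ZMod M), (x, false))
      · rw [hq, hq']
      · rw [if_pos hq, if_neg hq'] at h2
        exact absurd h2 (by simp)
    · by_cases hq' : q' = ((0 : ZMod M), (x, false))
      · rw [if_neg hq, if_pos hq'] at h2
        exact absurd h2 (by simp)
      · rw [if_neg hq, if_neg hq'] at h1 h2
        exact Prod.ext (ZMod.val_injective M h1) (Option.some.inj h2)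

end composite

end Vale.Agent.Helper10
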