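import Vale.Agent.Helper10.Subst

namespace Vale.Agent.Helper10

/-- the alphabet without the letter `a` -/
abbrev Sub (α : Type) (a : α) : Type := {b : α // b ≠ a}

/-- the automaton restricted to the smaller alphabet -/
def dsub {Q α : Type} (δ : Q → α → Q) (a : α) : Q → Sub α a → Q := fun x b => δ x b.1

theorem run_sub {Q α : Type} (δ : Q → α → Q) (a : α) (x : Q) (u : List (Sub α a)) :
    run (dsub δ a) x u = run δ x (u.map Subtype.val) :=
  (run_map δ Subtype.val x u).symm

theorem not_mem_map_val {α : Type} (a : α) (u : List (Sub α a)) : a ∉ u.map Subtype.val := by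
  intro h
  obtain ⟨b, _, hb⟩ := List.mem_map.1 h
  exact b.2 hb

theorem exists_map_val {α : Type} (a : α) :
    ∀ w : List α, (∀ c ∈ w, c ≠ a) → ∃ u : List (Sub α a), w = u.map Subtype.val := by
  intro w
  induction w with
  | nil => intro _; exact ⟨[], rfl⟩
  | cons c w ih =>
    intro h
    obtain ⟨u, hu⟩ := ih (fun d hd => h d (List.mem_cons_of_mem c hd))
    exact ⟨⟨c, h c (by simp)⟩ :: u, by simp [hu]⟩

theorem dec_sub_iff {α : Type} (a : α) (τ : List (Sub α a)) (w : List α) :
    Dec (fun (b : Sub α a) (x : List α) => x = [b.1]) τ w ↔ w = τ.map Subtype.val := by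
  induction τ generalizing w with
  | nil => simp [Dec]
  | cons b τ ih =>
    simp only [Dec, List.map_cons]
    constructor
    · rintro ⟨x, y, rfl, rfl, hy⟩
      rw [(ih y).1 hy]
      rfl
    · intro h
      exact ⟨[b.1], τ.map Subtype.val, by simp [h], rfl, (ih _).2 rfl⟩

/-- transfer of star-freeness from the alphabet without `a` -/
theorem transfer_sub {α : Type} [Finite α] (a : α) (P : List (Sub α a) → Prop)
    (hP : HasGSH 0 P) :
    HasGSH 0 (fun w : List α => ∃ u : List (Sub α a), P u ∧ w = u.map Subtype.val) := by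
  have key := subst_sf' (α := α) (T := Sub α a) (fun b x => x = [b.1])
    (fun b => HasGSH.single 0 b.1)
    ((HasGSH.letters 0 (fun c : α => c ≠ a)).congr (fun w => by
      constructor
      · intro h
        obtain ⟨u, hu⟩ := exists_map_val a w h
        exact ⟨u, (dec_sub_iff a u w).2 hu⟩
      · rintro ⟨τ, hτ⟩ c hc hca
        rw [(dec_sub_iff a τ w).1 hτ] at hc
        exact not_mem_map_val a τ (hca ▸ hc)))
    (fun τ τ' w h h' => by
      have h1 := (dec_sub_iff a τ w).1 h
      have h2 := (dec_sub_iff a τ' w).1 h'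
      exact (List.map_injective_iff.2 Subtype.val_injective) (h1.symm.trans h2))
    P hP
  refine key.congr (fun w => ?_)
  constructor
  · rintro ⟨τ, hτ, hd⟩
    exact ⟨τ, hτ, (dec_sub_iff a τ w).1 hd⟩
  · rintro ⟨τ, hτ, hd⟩
    exact ⟨τ, hτ, (dec_sub_iff a τ w).2 hd⟩

/-- the image of the letter `a` -/
abbrev Img {Q α : Type} (δ : Q → α → Q) (a : α) : Type := {x : Q // ∃ r, δ r a = x}

/-- the maps of the image induced by the blocks `u a` with `u` avoiding `a` -/
abbrev Blk {Q α : Type} (δ : Q → α → Q) (a : α) : Type :=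
  {t : Img δ a → Img δ a //
    ∃ u : List (Sub α a), ∀ s : Img δ a, (t s).1 = δ (run (dsub δ a) s.1 u) a}

/-- the block automaton -/
def dblk {Q α : Type} (δ : Q → α → Q) (a : α) : Img δ a → Blk δ a → Img δ a :=
  fun s t => t.1 s

/-- the words inducing the block `t` -/
def sblk {Q α : Type} (δ : Q → α → Q) (a : α) (t : Blk δ a) (w : List α) : Prop :=
  ∃ u : List (Sub α a), w = u.map Subtype.val ++ [a] ∧
    ∀ s : Img δ a, (t.1 s).1 = δ (run (dsub δ a) s.1 u) a

/-- the block induced by `u a` -/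
def blkOf {Q α : Type} (δ : Q → α → Q) (a : α) (u : List (Sub α a)) : Blk δ a :=
  ⟨fun s => ⟨δ (run (dsub δ a) s.1 u) a, _, rfl⟩, u, fun _ => rfl⟩

theorem sblk_blkOf {Q α : Type} (δ : Q → α → Q) (a : α) (u : List (Sub α a)) :
    sblk δ a (blkOf δ a u) (u.map Subtype.val ++ [a]) :=
  ⟨u, rfl, fun _ => rfl⟩

theorem dec_blk_run {Q α : Type} (δ : Q → α → Q) (a : α) :
    ∀ (τ : List (Blk δ a)) (y : List α), Dec (sblk δ a) τ y →
      ∀ s : Img δ a, (run (dblk δ a) s τ).1 = run δ s.1 y := by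
  intro τ
  induction τ with
  | nil =>
    intro y hy s
    have : y = [] := hy
    subst this
    rfl
  | cons t τ ih =>
    rintro y ⟨x, y', rfl, ⟨u, rfl, hu⟩, hy'⟩ s
    rw [run_cons, ih y' hy' (dblk δ a s t), run_append, run_append]
    congr 1
    show (t.1 s).1 = _
    rw [hu s, run_sub]
    rfl

theorem exists_dec_blk {Q α : Type} (δ : Q → α → Q) (a : α) :
    ∀ τ : List (Blk δ a), ∃ y, Dec (sblk δ a) τ y := by
  intro τ
  induction τ with
  | nil => exact ⟨[], rfl⟩
  | cons t τ ih =>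
    obtain ⟨y, hy⟩ := ih
    obtain ⟨u, hu⟩ := t.2
    exact ⟨(u.map Subtype.val ++ [a]) ++ y, _, _, rfl, ⟨u, rfl, hu⟩, hy⟩

theorem cf_blk {Q α : Type} (δ : Q → α → Q) (a : α) (hcf : CounterFree δ) :
    CounterFree (dblk δ a) := by
  intro τ s m hm hs
  obtain ⟨y, hy⟩ := exists_dec_blk δ a τ
  have h1 : ∀ (m : ℕ) (s : Img δ a),
      ((fun x => run (dblk δ a) x τ)^[m] s).1 = (fun x => run δ x y)^[m] s.1 := by
    intro m
    induction m with
    | zero => intro s; rfl
    | succ m ih =>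
      intro s
      rw [Function.iterate_succ_apply, Function.iterate_succ_apply, ih, dec_blk_run δ a τ y hy s]
  have h2 := hcf y s.1 m hm (by rw [← h1 m s, hs])
  apply Subtype.ext
  rw [dec_blk_run δ a τ y hy s, h2]

theorem split_unique {α : Type} (a : α) (x x' y y' : List α) (hx : a ∉ x) (hx' : a ∉ x')
    (h : x ++ a :: y = x' ++ a :: y') : x = x' ∧ y = y' := by
  rcases List.append_eq_append_iff.1 h with ⟨c, h1, h2⟩ | ⟨c, h1, h2⟩
  · cases c with
    | nil => simp at h1 h2; exact ⟨h1.symm, h2⟩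
    | cons d c =>
      simp at h2
      exfalso
      apply hx'
      rw [h1, ← h2.1]
      simp
  · cases c with
    | nil => simp at h1 h2; exact ⟨h1, h2.symm⟩
    | cons d c =>
      simp at h2
      exfalso
      apply hx
      rw [h1, ← h2.1]
      simp

theorem dec_blk_inj {Q α : Type} (δ : Q → α → Q) (a : α) :
    ∀ (τ τ' : List (Blk δ a)) (w : List α),
      Dec (sblk δ a) τ w → Dec (sblk δ a) τ' w → τ = τ' := by
  intro τ
  induction τ with
  | nil =>
    intro τ' w h h'
    have hw : w = [] := h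
    subst hw
    cases τ' with
    | nil => rfl
    | cons t τ' =>
      obtain ⟨x, y, hxy, ⟨u, rfl, _⟩, _⟩ := h'
      simp at hxy
  | cons t τ ih =>
    intro τ' w h h'
    obtain ⟨x, y, rfl, ⟨u, rfl, hu⟩, hy⟩ := h
    cases τ' with
    | nil =>
      have : (u.map Subtype.val ++ [a]) ++ y = [] := h'
      simp at this
    | cons t' τ' =>
      obtain ⟨x', y', hxy, ⟨u', rfl, hu'⟩, hy'⟩ := h'
      have h3 : u.map Subtype.val ++ a :: y = u'.map Subtype.val ++ a :: y' := by
        simpa using hxy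
      obtain ⟨h4, h5⟩ := split_unique a _ _ _ _ (not_mem_map_val a u) (not_mem_map_val a u') h3
      have h6 : u = u' := (List.map_injective_iff.2 Subtype.val_injective) h4
      subst h6
      subst h5
      have h7 : t = t' := by
        apply Subtype.ext
        funext s
        apply Subtype.ext
        rw [hu s, hu' s]
      rw [h7, ih τ' y hy hy']

/-- every word is a decodable part followed by a part avoiding `a` -/
theorem decomp_blk {Q α : Type} (δ : Q → α → Q) (a : α) :
    ∀ w : List α, ∃ (τ : List (Blk δ a)) (y : List α) (v : List (Sub α a)),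
      w = y ++ v.map Subtype.val ∧ Dec (sblk δ a) τ y := by
  classical
  intro w
  induction w using List.reverseRecOn with
  | nil => exact ⟨[], [], [], rfl, rfl⟩
  | append_singleton w c ih =>
    obtain ⟨τ, y, v, rfl, hy⟩ := ih
    by_cases hc : c = a
    · subst hc
      refine ⟨τ ++ [blkOf δ c v], y ++ (v.map Subtype.val ++ [c]), [], by simp, ?_⟩
      exact (Dec_append _ _ _ _).2 ⟨y, _, rfl, hy, (Dec_single _ _ _).2 (sblk_blkOf δ c v)⟩
    · exact ⟨τ, y, v ++ [⟨c, hc⟩], by simp, hy⟩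

theorem decomp2_blk {Q α : Type} (δ : Q → α → Q) (a : α) :
    ∀ w : List α, (∃ u : List (Sub α a), w = u.map Subtype.val) ∨
      (∃ (u : List (Sub α a)) (τ : List (Blk δ a)) (y : List α) (v : List (Sub α a)),
        w = u.map Subtype.val ++ ([a] ++ (y ++ v.map Subtype.val)) ∧ Dec (sblk δ a) τ y) := by
  classical
  intro w
  induction w with
  | nil => exact Or.inl ⟨[], rfl⟩
  | cons c w ih =>
    by_cases hc : c = a
    · subst hc
      obtain ⟨τ, y, v, rfl, hy⟩ := decomp_blk δ c w
      exact Or.inr ⟨[], τ, y, v, by simp, hy⟩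
    · rcases ih with ⟨u, rfl⟩ | ⟨u, τ, y, v, rfl, hy⟩
      · exact Or.inl ⟨⟨c, hc⟩ :: u, by simp⟩
      · exact Or.inr ⟨⟨c, hc⟩ :: u, τ, y, v, by simp, hy⟩

theorem dec_blk_exists_iff {Q α : Type} (δ : Q → α → Q) (a : α) (w : List α) :
    (∃ τ, Dec (sblk δ a) τ w) ↔ (w = [] ∨ ∃ x u, w = x ++ u ∧ True ∧ u = [a]) := by
  constructor
  · rintro ⟨τ, hτ⟩
    induction τ generalizing w with
    | nil => exact Or.inl hτ
    | cons t τ ih =>
      obtain ⟨x, y, rfl, ⟨u, rfl, _⟩, hy⟩ := hτ
      rcases ih y hy with rfl | ⟨x', u', rfl, _, rfl⟩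
      · exact Or.inr ⟨u.map Subtype.val, [a], by simp, trivial, rfl⟩
      · exact Or.inr ⟨(u.map Subtype.val ++ [a]) ++ x', [a], by simp, trivial, rfl⟩
  · rintro (rfl | ⟨x, u, rfl, _, rfl⟩)
    · exact ⟨[], rfl⟩
    · obtain ⟨τ, y, v, rfl, hy⟩ := decomp_blk δ a x
      refine ⟨τ ++ [blkOf δ a v], ?_⟩
      rw [List.append_assoc]
      exact (Dec_append _ _ _ _).2 ⟨y, _, rfl, hy, (Dec_single _ _ _).2 (sblk_blkOf δ a v)⟩

end Vale.Agent.Helper10
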