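import Vale.Agent.Helper10.SF

namespace Vale.Agent.Helper10

theorem not_injective_of_cf {Q α : Type} [Finite Q] (δ : Q → α → Q) (hcf : CounterFree δ)
    (a : α) (x0 : Q) (hx0 : δ x0 a ≠ x0) : ¬ Function.Injective (fun x => δ x a) := by
  intro hinj
  have key : ∀ i j : ℕ, i < j →
      (fun x => δ x a)^[i] x0 = (fun x => δ x a)^[j] x0 → False := by
    intro i j hlt he
    have h2 : (fun x => δ x a)^[j - i] x0 = x0 := Function.iterate_cancel hinj he.symm
    have h3 : run δ x0 [a] = x0 := hcf [a] x0 (j - i) (by omega) h2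
    exact hx0 h3
  obtain ⟨i, j, hij, he⟩ :=
    Finite.exists_ne_map_eq_of_infinite (fun i : ℕ => (fun x => δ x a)^[i] x0)
  rcases lt_or_gt_of_ne hij with h | h
  · exact key i j h he
  · exact key j i h he.symm

/-- Schutzenberger: the languages of a counter-free automaton are star-free -/
theorem sf_aux : ∀ (n k : ℕ) (Q α : Type) [Finite Q] [Finite α] (δ : Q → α → Q),
    Nat.card Q ≤ n → Nat.card α ≤ k → CounterFree δ →
    ∀ p q : Q, HasGSH 0 (fun w : List α => run δ p w = q) := by
  intro n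
  induction n using Nat.strong_induction_on with
  | _ n ihn =>
  intro k
  induction k using Nat.strong_induction_on with
  | _ k ihk =>
  intro Q α _ _ δ hQ hα hcf p q
  classical
  by_cases hid : ∀ (a : α) (x : Q), δ x a = x
  · have hrun : ∀ (w : List α) (x : Q), run δ x w = x := by
      intro w
      induction w with
      | nil => intro x; rfl
      | cons a w ih => intro x; rw [run_cons, hid a x, ih]
    exact (HasGSH.const 0 (p = q)).congr (fun w => by rw [hrun w p])
  · push Not at hid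
    obtain ⟨a, x0, hx0⟩ := hid
    -- the smaller alphabet
    have hcardB : Nat.card (Sub α a) < Nat.card α :=
      Finite.card_subtype_lt (x := a) (fun h => h rfl)
    have hcfB : CounterFree (dsub δ a) := by
      intro u x m hm hx
      have hfun : (fun y => run (dsub δ a) y u) = (fun y => run δ y (u.map Subtype.val)) :=
        funext (fun y => run_sub δ a y u)
      rw [hfun] at hx
      rw [run_sub]
      exact hcf _ x m hm hx
    have hB : ∀ p q : Q, HasGSH 0 (fun u : List (Sub α a) => run (dsub δ a) p u = q) :=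
      ihk (Nat.card (Sub α a)) (lt_of_lt_of_le hcardB hα) Q (Sub α a) (dsub δ a) hQ le_rfl hcfB
    have hPB : ∀ p q : Q, HasGSH 0 (fun w : List α =>
        ∃ u : List (Sub α a), run (dsub δ a) p u = q ∧ w = u.map Subtype.val) :=
      fun p q => transfer_sub a _ (hB p q)
    -- the image of a
    have hnsurj : ¬ Function.Surjective (fun x => δ x a) :=
      fun hs => not_injective_of_cf δ hcf a x0 hx0 (Finite.injective_iff_surjective.2 hs)
    have hcardQ' : Nat.card (Img δ a) < Nat.card Q := by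
      simp only [Function.Surjective] at hnsurj
      push Not at hnsurj
      obtain ⟨x1, hx1⟩ := hnsurj
      exact Finite.card_subtype_lt (x := x1) (by rintro ⟨r, hr⟩; exact hx1 r hr)
    have hT : ∀ s s' : Img δ a, HasGSH 0 (fun τ : List (Blk δ a) => run (dblk δ a) s τ = s') :=
      ihn (Nat.card (Img δ a)) (lt_of_lt_of_le hcardQ' hQ) (Nat.card (Blk δ a)) (Img δ a)
        (Blk δ a) (dblk δ a) le_rfl le_rfl (cf_blk δ a hcf)
    -- the blocks are star-free
    have hσ : ∀ t : Blk δ a, HasGSH 0 (sblk δ a t) := by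
      intro t
      have h1 : HasGSH 0 (fun w : List α => ∃ u : List (Sub α a),
          (∀ s : Img δ a, ∃ r : Q, δ r a = (t.1 s).1 ∧ run (dsub δ a) s.1 u = r) ∧
            w = u.map Subtype.val) := by
        apply transfer_sub a
        exact HasGSH.forall_ _ (fun s => HasGSH.exists_ _ (fun r =>
          (HasGSH.const 0 (δ r a = (t.1 s).1)).and (hB s.1 r)))
      refine (h1.cat (HasGSH.single 0 a)).congr (fun w => ?_)
      constructor
      · rintro ⟨x, y, rfl, ⟨u, hu, rfl⟩, rfl⟩
        refine ⟨u, rfl, fun s => ?_⟩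
        obtain ⟨r, hr1, hr2⟩ := hu s
        rw [hr2, hr1]
      · rintro ⟨u, rfl, hu⟩
        exact ⟨u.map Subtype.val, [a], rfl, ⟨u, fun s => ⟨_, (hu s).symm, rfl⟩, rfl⟩, rfl⟩
    have hD : HasGSH 0 (fun w : List α => ∃ τ, Dec (sblk δ a) τ w) :=
      ((HasGSH.nil 0).or ((HasGSH.true_ 0).cat (HasGSH.single 0 a))).congr
        (fun w => (dec_blk_exists_iff δ a w).symm)
    have hPT : ∀ s s' : Img δ a, HasGSH 0 (fun w : List α =>
        ∃ τ : List (Blk δ a), run (dblk δ a) s τ = s' ∧ Dec (sblk δ a) τ w) :=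
      fun s s' => subst_sf' (sblk δ a) hσ hD (dec_blk_inj δ a) _ (hT s s')
    -- the final decomposition
    have hfin : HasGSH 0 (fun w : List α =>
        (∃ u : List (Sub α a), run (dsub δ a) p u = q ∧ w = u.map Subtype.val) ∨
        ∃ r : Q, ∃ s' : Img δ a, ∃ x z, w = x ++ z ∧
          (∃ u : List (Sub α a), run (dsub δ a) p u = r ∧ x = u.map Subtype.val) ∧
          ∃ x2 z2, z = x2 ++ z2 ∧ x2 = [a] ∧
          ∃ x3 z3, z2 = x3 ++ z3 ∧
            (∃ τ : List (Blk δ a), run (dblk δ a) ⟨δ r a, r, rfl⟩ τ = s' ∧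
              Dec (sblk δ a) τ x3) ∧
            (∃ v : List (Sub α a), run (dsub δ a) s'.1 v = q ∧ z3 = v.map Subtype.val)) :=
      (hPB p q).or (HasGSH.exists_ _ (fun r => HasGSH.exists_ _ (fun s' =>
        (hPB p r).cat ((HasGSH.single 0 a).cat ((hPT ⟨δ r a, r, rfl⟩ s').cat (hPB s'.1 q))))))
    refine hfin.congr (fun w => ?_)
    constructor
    · rintro (⟨u, hu, rfl⟩ | ⟨r, s', x, z, rfl, ⟨u, hu, rfl⟩, x2, z2, rfl, rfl, x3, z3, rfl,
        ⟨τ, hτ, hd⟩, ⟨v, hv, rfl⟩⟩)
      · rw [← run_sub, hu]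
      · rw [run_append, ← run_sub, hu, run_append, run_append]
        have h1 := dec_blk_run δ a τ x3 hd ⟨δ r a, r, rfl⟩
        rw [hτ] at h1
        show run δ (run δ (δ r a) x3) _ = q
        rw [← h1, ← run_sub, hv]
    · intro hw
      rcases decomp2_blk δ a w with ⟨u, rfl⟩ | ⟨u, τ, y, v, rfl, hd⟩
      · exact Or.inl ⟨u, by rw [run_sub]; exact hw, rfl⟩
      · refine Or.inr ⟨run (dsub δ a) p u, run (dblk δ a) ⟨δ (run (dsub δ a) p u) a, _, rfl⟩ τ,
          _, _, rfl, ⟨u, rfl, rfl⟩, _, _, rfl, rfl, _, _, rfl, ⟨τ, rfl, hd⟩, ⟨v, ?_, rfl⟩⟩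
        have h1 := dec_blk_run δ a τ y hd ⟨δ (run (dsub δ a) p u) a, _, rfl⟩
        rw [run_append, ← run_sub, run_append, run_append] at hw
        rw [run_sub, h1]
        exact hw

/-- Schutzenberger theorem for counter-free automata -/
theorem sf_of_counterFree {Q α : Type} [Finite Q] [Finite α] (δ : Q → α → Q)
    (hcf : CounterFree δ) (p q : Q) : HasGSH 0 (fun w : List α => run δ p w = q) :=
  sf_aux (Nat.card Q) (Nat.card α) Q α δ le_rfl le_rfl hcf p q

end Vale.Agent.Helper10
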