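import Vale.Agent.Helper10.BlockDet
import Vale.Agent.Helper10.Grading

/-!
# Blocks of a word over `Bool` and the statistics of the block detector
-/

namespace Vale.Agent.Helper10

section shapes

variable {m : ℕ}

/-- the completed blocks of `v`, read from position `j` of a block whose first positions are
filled as in `cur` -/
def shapes : ZMod m → (ZMod m → Bool) → List Bool → List (ZMod m → Bool)
  | _, _, [] => []
  | j, cur, b :: v =>
    if j + 1 = 0 then Function.update cur j b :: shapes (j + 1) (Function.update cur j b) v
    else shapes (j + 1) (Function.update cur j b) v

/-- the block in progress after reading `v` -/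
def endCur : ZMod m → (ZMod m → Bool) → List Bool → (ZMod m → Bool)
  | _, cur, [] => cur
  | j, cur, b :: v => endCur (j + 1) (Function.update cur j b) v

theorem val_lt_of_succ_eq_zero [NeZero m] (j i : ZMod m) (hj : j + 1 = 0) (hi : i ≠ j) :
    i.val < j.val := by
  by_contra h
  have h1 : j.val < i.val := by
    have : i.val ≠ j.val := fun e => hi (ZMod.val_injective m e)
    omega
  have h2 : i.val < m := ZMod.val_lt i
  have h3 := zmod_val_add_nat j 1 (by omega)
  rw [Nat.cast_one, hj, ZMod.val_zero] at h3
  omega

theorem val_succ_lt_iff [NeZero m] (j i : ZMod m) (hj : j + 1 ≠ 0) :
    i.val < (j + 1).val ↔ (i.val < j.val ∨ i = j) := by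
  rw [zmod_val_succ m j hj]
  constructor
  · intro h
    by_cases e : i = j
    · exact Or.inr e
    · have : i.val ≠ j.val := fun e' => e (ZMod.val_injective m e')
      left
      omega
  · rintro (h | h)
    · omega
    · rw [h]
      omega

/-- the marked transitions of the block detector count the blocks which differ from the
pattern -/
theorem bcount_shapes [NeZero m] (s : ZMod m → Bool) :
    ∀ (v : List Bool) (j : ZMod m) (cur : ZMod m → Bool) (ok : Bool),
      (ok = true ↔ ∀ i : ZMod m, i.val < j.val → cur i = s i) →
      bcount (bd s) (bdBad s) (j, ok) v = (shapes j cur v).countP (fun B => decide (B ≠ s)) := by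
  intro v
  induction v with
  | nil => intro j cur ok _; rfl
  | cons b v ih =>
    intro j cur ok hok
    by_cases hj : j + 1 = 0
    · have hbd : bd s (j, ok) b = (j + 1, true) := by
        simp [bd, hj]
      have key : (Function.update cur j b = s) ↔ (ok = true ∧ b = s j) := by
        constructor
        · intro h
          constructor
          · rw [hok]
            intro i hi
            have hne : i ≠ j := by
              rintro rfl
              omega
            rw [← h, Function.update_of_ne hne]
          · rw [← h, Function.update_self]
        · rintro ⟨h1, h2⟩
          funext i
          by_cases hi : i = j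
          · rw [hi, Function.update_self, h2]
          · rw [Function.update_of_ne hi]
            exact (hok.1 h1) i (val_lt_of_succ_eq_zero j i hj hi)
      have hbad : bdBad s (j, ok) b = decide (Function.update cur j b ≠ s) := by
        have e1 : bdBad s (j, ok) b = !(ok && (b == s j)) := by
          simp [bdBad, hj]
        rw [e1]
        by_cases h : Function.update cur j b = s
        · obtain ⟨h1, h2⟩ := key.1 h
          have e2 : decide (Function.update cur j b ≠ s) = false := by simp [h]
          rw [e2, h1, h2]
          simp
        · have : ¬ (ok = true ∧ b = s j) := fun h' => h (key.2 h')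
          simp only [ne_eq, h, not_false_eq_true, decide_true, Bool.not_eq_true']
          by_cases h1 : ok = true
          · have h2 : b ≠ s j := fun h2 => this ⟨h1, h2⟩
            simp [h1, h2]
          · simp [h1]
      have hrec := ih (j + 1) (Function.update cur j b) true (by
        constructor
        · intro _ i hi
          rw [hj, ZMod.val_zero] at hi
          omega
        · intro _; rfl)
      show (if bdBad s (j, ok) b = true then 1 else 0) + bcount (bd s) (bdBad s) (bd s (j, ok) b) v
        = (shapes j cur (b :: v)).countP (fun B => decide (B ≠ s))
      rw [hbd, hrec]
      simp only [shapes, if_pos hj, List.countP_cons, hbad]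
      omega
    · have hbd : bd s (j, ok) b = (j + 1, ok && (b == s j)) := by
        simp [bd, hj]
      have hbad : bdBad s (j, ok) b = false := by
        simp [bdBad, hj]
      have hrec := ih (j + 1) (Function.update cur j b) (ok && (b == s j)) (by
        constructor
        · intro h i hi
          have h1 : ok = true := by
            cases ok
            · simp at h
            · rfl
          have h2 : b = s j := by
            rw [h1] at h
            simpa using h
          rcases (val_succ_lt_iff j i hj).1 hi with h3 | h3
          · have hne : i ≠ j := by
              rintro rfl
              omega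
            rw [Function.update_of_ne hne]
            exact (hok.1 h1) i h3
          · rw [h3, Function.update_self, h2]
        · intro h
          have h1 : ok = true := by
            rw [hok]
            intro i hi
            have hne : i ≠ j := by
              rintro rfl
              omega
            have := h i ((val_succ_lt_iff j i hj).2 (Or.inl hi))
            rwa [Function.update_of_ne hne] at this
          have h2 : b = s j := by
            have := h j ((val_succ_lt_iff j j hj).2 (Or.inr rfl))
            rwa [Function.update_self] at this
          simp [h1, h2])
      show (if bdBad s (j, ok) b = true then 1 else 0) + bcount (bd s) (bdBad s) (bd s (j, ok) b) v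
        = (shapes j cur (b :: v)).countP (fun B => decide (B ≠ s))
      rw [hbd, hrec, hbad]
      simp [shapes, hj]

/-- the positional counts of a word over `Bool` in terms of its blocks -/
theorem cnt_shapes [NeZero m] (x : ZMod m) :
    ∀ (v : List Bool) (j : ZMod m) (cur : ZMod m → Bool),
      (shapes j cur v).countP (fun B => B x)
          + (if x.val < (j + (v.length : ZMod m)).val ∧ endCur j cur v x = true then 1 else 0)
        = (if x.val < j.val ∧ cur x = true then 1 else 0)
          + cnt (fun _ : Bool => (1 : ZMod m)) (fun b => b = true) x j v := by
  intro v
  induction v with
  | nil =>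
    intro j cur
    simp [shapes, endCur, cnt]
  | cons b v ih =>
    intro j cur
    have hlen : j + ((b :: v).length : ZMod m) = (j + 1) + (v.length : ZMod m) := by
      simp only [List.length_cons]
      push_cast
      ring
    have hend : endCur j cur (b :: v) = endCur (j + 1) (Function.update cur j b) v := rfl
    have hcnt : cnt (fun _ : Bool => (1 : ZMod m)) (fun b => b = true) x j (b :: v)
        = (if b = true ∧ j = x then 1 else 0)
          + cnt (fun _ : Bool => (1 : ZMod m)) (fun b => b = true) x (j + 1) v := rfl
    have h := ih (j + 1) (Function.update cur j b)
    rw [hlen, hend, hcnt]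
    by_cases hj : j + 1 = 0
    · have hsh : shapes j cur (b :: v)
          = Function.update cur j b :: shapes (j + 1) (Function.update cur j b) v := by
        simp [shapes, hj]
      have h0 : ¬ (x.val < (j + 1).val ∧ Function.update cur j b x = true) := by
        rw [hj, ZMod.val_zero]
        rintro ⟨h1, _⟩
        omega
      rw [if_neg h0] at h
      rw [hsh, List.countP_cons]
      by_cases hx : x = j
      · subst hx
        have h1 : ¬ (x.val < x.val ∧ cur x = true) := by
          rintro ⟨h1, _⟩
          omega
        rw [if_neg h1]
        simp only [Function.update_self, and_true]
        omega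
      · have h1 : x.val < j.val := val_lt_of_succ_eq_zero j x hj hx
        have h2 : ¬ (b = true ∧ j = x) := fun h' => hx h'.2.symm
        rw [if_neg h2]
        simp only [Function.update_of_ne hx, h1, true_and]
        omega
    · have hsh : shapes j cur (b :: v) = shapes (j + 1) (Function.update cur j b) v := by
        simp [shapes, hj]
      rw [hsh]
      have hiff := val_succ_lt_iff j x hj
      by_cases hx : x = j
      · subst hx
        have h1 : ¬ (x.val < x.val ∧ cur x = true) := by
          rintro ⟨h1, _⟩
          omega
        have h2 : x.val < (x + 1).val := hiff.2 (Or.inr rfl)
        rw [if_neg h1]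
        simp only [Function.update_self, h2, true_and] at h
        simp only [and_true]
        omega
      · have h2 : ¬ (b = true ∧ j = x) := fun h' => hx h'.2.symm
        have h3 : x.val < (j + 1).val ↔ x.val < j.val := by
          rw [hiff]
          constructor
          · rintro (h' | h')
            · exact h'
            · exact absurd h' hx
          · intro h'
            exact Or.inl h'
        rw [if_neg h2]
        simp only [Function.update_of_ne hx, h3] at h
        omega

theorem endCur_append (v z : List Bool) :
    ∀ (j : ZMod m) (cur : ZMod m → Bool),
      endCur j cur (v ++ z) = endCur (j + (v.length : ZMod m)) (endCur j cur v) z := by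
  induction v with
  | nil => intro j cur; simp [endCur]
  | cons b v ih =>
    intro j cur
    have hlen : j + ((b :: v).length : ZMod m) = (j + 1) + (v.length : ZMod m) := by
      simp only [List.length_cons]
      push_cast
      ring
    rw [hlen]
    exact ih (j + 1) (Function.update cur j b)

theorem endCur_false_keep (i : ZMod m) :
    ∀ (k : ℕ) (j : ZMod m) (cur : ZMod m → Bool), cur i = false →
      endCur j cur (List.replicate k false) i = false := by
  intro k
  induction k with
  | zero => intro j cur h; exact h
  | succ k ih =>
    intro j cur h
    rw [List.replicate_succ]
    refine ih (j + 1) (Function.update cur j false) ?_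
    by_cases hi : i = j
    · rw [hi, Function.update_self]
    · rw [Function.update_of_ne hi]
      exact h

theorem endCur_false_set (i : ZMod m) :
    ∀ (k : ℕ) (j : ZMod m) (cur : ZMod m → Bool) (t : ℕ), t < k → i = j + (t : ZMod m) →
      endCur j cur (List.replicate k false) i = false := by
  intro k
  induction k with
  | zero => intro j cur t ht; omega
  | succ k ih =>
    intro j cur t ht hi
    rw [List.replicate_succ]
    show endCur (j + 1) (Function.update cur j false) (List.replicate k false) i = false
    cases t with
    | zero =>
      refine endCur_false_keep i k (j + 1) _ ?_
      have : i = j := by simpa using hi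
      rw [this, Function.update_self]
    | succ t =>
      refine ih (j + 1) _ t (by omega) ?_
      rw [hi]
      push_cast
      ring

theorem cnt_append_false (x : ZMod m) (k : ℕ) :
    ∀ (v : List Bool) (c : ZMod m),
      cnt (fun _ : Bool => (1 : ZMod m)) (fun b => b = true) x c (v ++ List.replicate k false)
        = cnt (fun _ : Bool => (1 : ZMod m)) (fun b => b = true) x c v := by
  intro v
  induction v with
  | nil =>
    intro c
    induction k generalizing c with
    | zero => rfl
    | succ k ih =>
      rw [List.nil_append, List.replicate_succ]
      have := ih (c + 1)
      rw [List.nil_append] at this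
      simp [cnt, this]
  | cons b v ih =>
    intro c
    rw [List.cons_append]
    show (if b = true ∧ c = x then 1 else 0) + cnt _ _ x (c + 1) (v ++ List.replicate k false)
      = (if b = true ∧ c = x then 1 else 0) + cnt _ _ x (c + 1) v
    rw [ih (c + 1)]

/-- after padding with `m - 1` letters `false` the positional counts of a word are the numbers
of its blocks which have the corresponding entry -/
theorem cnt_pad [NeZero m] (x : ZMod m) (v : List Bool) (cur : ZMod m → Bool) :
    (shapes 0 cur (v ++ List.replicate (m - 1) false)).countP (fun B => B x)
      = cnt (fun _ : Bool => (1 : ZMod m)) (fun b => b = true) x 0 v := by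
  have h := cnt_shapes x (v ++ List.replicate (m - 1) false) 0 cur
  rw [cnt_append_false] at h
  have h1 : ¬ (x.val < (0 : ZMod m).val ∧ cur x = true) := by
    rw [ZMod.val_zero]
    rintro ⟨h1, _⟩
    omega
  rw [if_neg h1] at h
  have h2 : ¬ (x.val < ((0 : ZMod m) + ((v ++ List.replicate (m - 1) false).length : ZMod m)).val
      ∧ endCur 0 cur (v ++ List.replicate (m - 1) false) x = true) := by
    rintro ⟨h2, h3⟩
    rw [endCur_append] at h3
    have hlen : (0 : ZMod m) + ((v ++ List.replicate (m - 1) false).length : ZMod m)
        = (0 + (v.length : ZMod m)) + ((m - 1 : ℕ) : ZMod m) := by
      rw [List.length_append, List.length_replicate]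
      push_cast
      ring
    rw [hlen] at h2
    have ht : (x - (0 + (v.length : ZMod m))).val < m := ZMod.val_lt _
    have hx : x = (0 + (v.length : ZMod m))
        + (((x - (0 + (v.length : ZMod m))).val : ℕ) : ZMod m) := by
      rw [ZMod.natCast_zmod_val]
      ring
    have hne : (x - (0 + (v.length : ZMod m))).val ≠ m - 1 := by
      intro e
      rw [e] at hx
      rw [← hx] at h2
      omega
    have := endCur_false_set x (m - 1) (0 + (v.length : ZMod m)) (endCur 0 cur v)
      (x - (0 + (v.length : ZMod m))).val (by omega) hx
    rw [this] at h3
    exact absurd h3 (by simp)
  rw [if_neg h2] at h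
  omega

/-- the number of completed blocks -/
theorem shapes_length (v : List Bool) :
    ∀ (j : ZMod m) (cur : ZMod m → Bool),
      (shapes j cur v).length
        = bcount (fun (i : ZMod m) (_ : Bool) => i + 1) (fun i _ => decide (i + 1 = 0)) j v := by
  induction v with
  | nil => intro j cur; rfl
  | cons b v ih =>
    intro j cur
    show (shapes j cur (b :: v)).length
      = (if decide (j + 1 = 0) = true then 1 else 0)
        + bcount (fun (i : ZMod m) (_ : Bool) => i + 1) (fun i _ => decide (i + 1 = 0)) (j + 1) v
    rw [← ih (j + 1) (Function.update cur j b)]
    by_cases hj : j + 1 = 0
    · simp [shapes, hj]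
      omega
    · simp [shapes, hj]

/-- the automaton which counts the completed blocks is counter-free once its marked
transitions lead to a sink -/
theorem blk_cf [NeZero m] :
    CounterFree (gOpt (fun (i : ZMod m) (_ : Bool) => i + 1) (fun i _ => decide (i + 1 = 0))) := by
  refine cf_of_grading _ (fun o => match o with | none => m | some j => j.val) (fun _ => 0)
    (fun _ _ => 0) ?_ ?_ ?_
  · intro q a
    cases q with
    | none => exact le_rfl
    | some j =>
      by_cases hj : j + 1 = 0
      · have : gOpt (fun (i : ZMod m) (_ : Bool) => i + 1) (fun i _ => decide (i + 1 = 0))
            (some j) a = none := by simp [gOpt, hj]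
        rw [this]
        exact (ZMod.val_lt j).le
      · have : gOpt (fun (i : ZMod m) (_ : Bool) => i + 1) (fun i _ => decide (i + 1 = 0))
            (some j) a = some (j + 1) := by simp [gOpt, hj]
        rw [this]
        show j.val ≤ (j + 1).val
        rw [zmod_val_succ m j hj]
        omega
  · intro q a _
    simp
  · intro q q' h _
    cases q with
    | none =>
      cases q' with
      | none => rfl
      | some j' =>
        have h' : m = j'.val := h
        have := ZMod.val_lt j'
        omega
    | some j =>
      cases q' with
      | none =>
        have h' : j.val = m := h
        have := ZMod.val_lt j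
        omega
      | some j' =>
        have h' : j.val = j'.val := h
        rw [ZMod.val_injective m h']

end shapes

end Vale.Agent.Helper10
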