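import Vale.Agent.Helper10.Closure

namespace Vale.Agent.Helper10

variable {α : Type}

/-- the state reached from `q` after reading `w` -/
def run {Q α : Type} (δ : Q → α → Q) (q : Q) (w : List α) : Q := w.foldl δ q

@[simp] theorem run_nil {Q α : Type} (δ : Q → α → Q) (q : Q) : run δ q [] = q := rfl

@[simp] theorem run_cons {Q α : Type} (δ : Q → α → Q) (q : Q) (a : α) (w : List α) :
    run δ q (a :: w) = run δ (δ q a) w := rfl

@[simp] theorem run_append {Q α : Type} (δ : Q → α → Q) (q : Q) (u v : List α) :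
    run δ q (u ++ v) = run δ (run δ q u) v := by
  simp [run, List.foldl_append]

theorem run_map {Q α β : Type} (δ : Q → α → Q) (f : β → α) (q : Q) (u : List β) :
    run δ q (u.map f) = run (fun x b => δ x (f b)) q u := by
  induction u generalizing q with
  | nil => rfl
  | cons b u ih => simp [ih]

/-- no word induces a cycle of length at least two -/
def CounterFree {Q α : Type} (δ : Q → α → Q) : Prop :=
  ∀ (w : List α) (q : Q) (n : ℕ), 0 < n → (fun x => run δ x w)^[n] q = q → run δ q w = q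

/-- `Dec σ τ w`: the word `w` is a concatenation of words chosen from `σ t` along `τ` -/
def Dec {T : Type} (σ : T → List α → Prop) : List T → List α → Prop
  | [], w => w = []
  | t :: τ, w => ∃ x y, w = x ++ y ∧ σ t x ∧ Dec σ τ y

theorem Dec_append {T : Type} (σ : T → List α → Prop) (τ1 τ2 : List T) (w : List α) :
    Dec σ (τ1 ++ τ2) w ↔ ∃ x y, w = x ++ y ∧ Dec σ τ1 x ∧ Dec σ τ2 y := by
  induction τ1 generalizing w with
  | nil =>
    simp only [List.nil_append, Dec]
    constructor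
    · intro h
      exact ⟨[], w, rfl, rfl, h⟩
    · rintro ⟨x, y, rfl, rfl, h⟩
      simpa using h
  | cons t τ1 ih =>
    simp only [List.cons_append, Dec]
    constructor
    · rintro ⟨x, y, rfl, hx, hy⟩
      obtain ⟨y1, y2, rfl, h1, h2⟩ := (ih y).1 hy
      exact ⟨x ++ y1, y2, by simp, ⟨x, y1, rfl, hx, h1⟩, h2⟩
    · rintro ⟨x, y, rfl, ⟨x1, x2, rfl, hx1, hx2⟩, hy⟩
      exact ⟨x1, x2 ++ y, by simp, hx1, (ih _).2 ⟨x2, y, rfl, hx2, hy⟩⟩

theorem Dec_single {T : Type} (σ : T → List α → Prop) (t : T) (w : List α) :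
    Dec σ [t] w ↔ σ t w := by
  simp only [Dec]
  constructor
  · rintro ⟨x, y, rfl, hx, rfl⟩
    simpa using hx
  · intro h
    exact ⟨w, [], by simp, h, rfl⟩

/-- substitution of star-free languages along an injective decoding preserves star-freeness -/
theorem subst_sf {T : Type} (σ : T → List α → Prop) (hσ : ∀ t, HasGSH 0 (σ t))
    (hD : HasGSH 0 (fun w => ∃ τ, Dec σ τ w))
    (hinj : ∀ τ τ' w, Dec σ τ w → Dec σ τ' w → τ = τ') :
    ∀ e : GRE T, e.height = 0 → HasGSH 0 (fun w => ∃ τ, τ ∈ e.lang ∧ Dec σ τ w) := by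
  intro e
  induction e with
  | zero =>
    intro _
    exact (HasGSH.false_ 0).congr (fun w => by simp [GRE.lang])
  | one =>
    intro _
    refine (HasGSH.nil 0).congr (fun w => ?_)
    simp only [GRE.lang, Language.mem_one]
    constructor
    · intro h
      exact ⟨[], rfl, h⟩
    · rintro ⟨τ, rfl, h⟩
      exact h
  | letter t =>
    intro _
    refine (hσ t).congr (fun w => ?_)
    constructor
    · intro h
      exact ⟨[t], rfl, (Dec_single σ t w).2 h⟩
    · rintro ⟨τ, hτ, h⟩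
      have : τ = [t] := hτ
      subst this
      exact (Dec_single σ t w).1 h
  | plus P Q ihP ihQ =>
    intro hh
    simp only [GRE.height] at hh
    have hP : P.height = 0 := by omega
    have hQ : Q.height = 0 := by omega
    refine ((ihP hP).or (ihQ hQ)).congr (fun w => ?_)
    simp only [GRE.lang, Language.mem_add]
    constructor
    · rintro (⟨τ, h1, h2⟩ | ⟨τ, h1, h2⟩)
      · exact ⟨τ, Or.inl h1, h2⟩
      · exact ⟨τ, Or.inr h1, h2⟩
    · rintro ⟨τ, h1 | h1, h2⟩
      · exact Or.inl ⟨τ, h1, h2⟩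
      · exact Or.inr ⟨τ, h1, h2⟩
  | cat P Q ihP ihQ =>
    intro hh
    simp only [GRE.height] at hh
    have hP : P.height = 0 := by omega
    have hQ : Q.height = 0 := by omega
    refine ((ihP hP).cat (ihQ hQ)).congr (fun w => ?_)
    simp only [GRE.lang, Language.mem_mul]
    constructor
    · rintro ⟨u, v, rfl, ⟨τ1, h1, d1⟩, ⟨τ2, h2, d2⟩⟩
      exact ⟨τ1 ++ τ2, ⟨τ1, h1, τ2, h2, rfl⟩, (Dec_append σ τ1 τ2 _).2 ⟨u, v, rfl, d1, d2⟩⟩
    · rintro ⟨τ, ⟨τ1, h1, τ2, h2, rfl⟩, d⟩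
      obtain ⟨u, v, rfl, d1, d2⟩ := (Dec_append σ τ1 τ2 _).1 d
      exact ⟨u, v, rfl, ⟨τ1, h1, d1⟩, ⟨τ2, h2, d2⟩⟩
  | compl P ihP =>
    intro hh
    simp only [GRE.height] at hh
    refine (hD.and (ihP hh).not).congr (fun w => ?_)
    constructor
    · rintro ⟨⟨τ, d⟩, hn⟩
      refine ⟨τ, ?_, d⟩
      intro hτ
      exact hn ⟨τ, hτ, d⟩
    · rintro ⟨τ, hτ, d⟩
      refine ⟨⟨τ, d⟩, ?_⟩
      rintro ⟨τ', hτ', d'⟩
      have : τ' = τ := hinj τ' τ w d' d
      subst this
      exact hτ hτ'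
  | star P _ =>
    intro hh
    simp [GRE.height] at hh

/-- transfer of a star-free predicate along a substitution -/
theorem subst_sf' {T : Type} (σ : T → List α → Prop) (hσ : ∀ t, HasGSH 0 (σ t))
    (hD : HasGSH 0 (fun w => ∃ τ, Dec σ τ w))
    (hinj : ∀ τ τ' w, Dec σ τ w → Dec σ τ' w → τ = τ')
    (P : List T → Prop) (hP : HasGSH 0 P) :
    HasGSH 0 (fun w => ∃ τ, P τ ∧ Dec σ τ w) := by
  obtain ⟨e, he, hl⟩ := hP
  refine (subst_sf σ hσ hD hinj e (by omega)).congr (fun w => ?_)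
  constructor
  · rintro ⟨τ, h1, h2⟩
    exact ⟨τ, (hl τ).1 h1, h2⟩
  · rintro ⟨τ, h1, h2⟩
    exact ⟨τ, (hl τ).2 h1, h2⟩

end Vale.Agent.Helper10
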