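import Vale.Agent.Helper10.UnitCount

namespace Vale.Agent.Helper10

section sw

variable {α : Type} [DecidableEq α]

/-- the number of occurrences of `u` as a scattered subword of `w` -/
def sw (u w : List α) : ℕ := List.count u (List.sublists w)

theorem sw_nil (w : List α) : sw [] w = 1 := by
  unfold sw
  rw [(List.sublists_perm_sublists' w).count_eq]
  induction w with
  | nil => simp
  | cons a w ih =>
    rw [List.sublists'_cons, List.count_append, ih]
    have : List.count [] (List.map (List.cons a) (List.sublists' w)) = 0 := by
      rw [List.count_eq_zero]
      simp
    rw [this]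

theorem sw_cons_nil (y : α) (u : List α) : sw (y :: u) [] = 0 := by
  unfold sw
  simp

theorem sw_cons_cons (y : α) (u : List α) (x : α) (w : List α) :
    sw (y :: u) (x :: w) = sw (y :: u) w + if x = y then sw u w else 0 := by
  unfold sw
  rw [(List.sublists_perm_sublists' (x :: w)).count_eq,
    (List.sublists_perm_sublists' w).count_eq, (List.sublists_perm_sublists' w).count_eq,
    List.sublists'_cons, List.count_append]
  congr 1
  by_cases h : x = y
  · rw [if_pos h, h]
    exact List.count_map_of_injective _ _ (List.cons_injective) u
  · rw [if_neg h, List.count_eq_zero]
    intro hm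
    obtain ⟨t, _, ht⟩ := List.mem_map.1 hm
    exact h (List.cons.inj ht).1

theorem sw_single (a : α) (w : List α) : sw [a] w = List.count a w := by
  induction w with
  | nil => simp [sw_cons_nil]
  | cons x w ih =>
    rw [sw_cons_cons, ih, sw_nil, List.count_cons]
    by_cases h : x = a
    · simp [h]
    · simp [h]

theorem count_cons_c (a x : α) (w : List α) :
    List.count a (x :: w) = List.count a w + if x = a then 1 else 0 := by
  rw [List.count_cons]
  by_cases h : x = a
  · simp [h]
  · simp [h]

section identities

variable {R : Type} [CommRing R]

theorem sw_pair_self (a : α) (w : List α) :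
    (2 : R) * (sw [a, a] w : R) = (List.count a w : R) * ((List.count a w : R) - 1) := by
  induction w with
  | nil => simp [sw_cons_nil]
  | cons x w ih =>
    rw [sw_cons_cons, sw_single, count_cons_c]
    by_cases h : x = a
    · simp only [h, if_true]
      push_cast
      linear_combination ih
    · simp only [h, if_false, add_zero]
      exact ih

theorem sw_triple_self (a : α) (w : List α) :
    (6 : R) * (sw [a, a, a] w : R)
      = (List.count a w : R) * ((List.count a w : R) - 1) * ((List.count a w : R) - 2) := by
  induction w with
  | nil => simp [sw_cons_nil]
  | cons x w ih =>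
    rw [sw_cons_cons, count_cons_c]
    by_cases h : x = a
    · simp only [h, if_true]
      push_cast
      linear_combination ih + 3 * sw_pair_self (R := R) a w
    · simp only [h, if_false, add_zero]
      exact ih

theorem sw_shuffle2 (a b : α) (hab : a ≠ b) (w : List α) :
    (List.count a w : R) * (List.count b w : R) = (sw [a, b] w : R) + (sw [b, a] w : R) := by
  induction w with
  | nil => simp [sw_cons_nil]
  | cons x w ih =>
    rw [sw_cons_cons, sw_cons_cons, sw_single, sw_single, count_cons_c, count_cons_c]
    by_cases h1 : x = a
    · have h2 : ¬ a = b := hab
      simp only [h1, h2, if_true, if_false, add_zero]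
      push_cast
      linear_combination ih
    · by_cases h2 : x = b
      · have h3 : ¬ b = a := fun h => hab h.symm
        simp only [h2, h3, if_true, if_false, add_zero]
        push_cast
        linear_combination ih
      · simp only [h1, h2, if_false, add_zero]
        exact ih

theorem sw_aba (a b : α) (hab : a ≠ b) (w : List α) :
    (List.count a w : R) * (sw [a, b] w : R)
      = (sw [a, b, a] w : R) + 2 * (sw [a, a, b] w : R) + (sw [a, b] w : R) := by
  induction w with
  | nil => simp [sw_cons_nil]
  | cons x w ih =>
    rw [sw_cons_cons a [b, a], sw_cons_cons a [a, b], sw_cons_cons a [b], sw_single,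
      count_cons_c]
    by_cases h1 : x = a
    · simp only [h1, if_true]
      push_cast
      linear_combination ih + sw_shuffle2 (R := R) a b hab w
    · simp only [h1, if_false, add_zero]
      exact ih

theorem sw_abb (a b : α) (hab : a ≠ b) (w : List α) :
    ((List.count b w : R) ^ 2 - (List.count b w : R)) * (List.count a w : R)
      - (2 * (List.count b w : R) - 2) * (sw [b, a] w : R) + 2 * (sw [b, b, a] w : R)
      = 2 * (sw [a, b, b] w : R) := by
  induction w with
  | nil => simp [sw_cons_nil]
  | cons x w ih =>
    rw [sw_cons_cons b [a], sw_cons_cons b [b, a], sw_cons_cons a [b, b], sw_single,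
      count_cons_c, count_cons_c]
    by_cases h1 : x = a
    · have h2 : ¬ a = b := hab
      simp only [h1, h2, if_true, if_false, add_zero]
      push_cast
      linear_combination ih - sw_pair_self (R := R) b w
    · by_cases h2 : x = b
      · have h3 : ¬ b = a := fun h => hab h.symm
        simp only [h2, h3, if_true, if_false, add_zero]
        push_cast
        linear_combination ih
      · simp only [h1, h2, if_false, add_zero]
        exact ih

theorem sw_shuffle3 (a b c : α) (hac : a ≠ c) (hbc : b ≠ c) (w : List α) :
    (List.count c w : R) * (sw [a, b] w : R)
      = (sw [c, a, b] w : R) + (sw [a, c, b] w : R) + (sw [a, b, c] w : R) := by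
  induction w with
  | nil => simp [sw_cons_nil]
  | cons x w ih =>
    rw [sw_cons_cons a [b], sw_cons_cons c [a, b], sw_cons_cons a [c, b],
      sw_cons_cons a [b, c], sw_single, count_cons_c]
    by_cases h1 : x = a
    · have h2 : ¬ a = c := hac
      simp only [h1, h2, if_true, if_false, add_zero]
      push_cast
      linear_combination ih + sw_shuffle2 (R := R) c b (fun h => hbc h.symm) w
    · by_cases h2 : x = c
      · have h3 : ¬ c = a := fun h => hac h.symm
        simp only [h2, h3, if_true, if_false, add_zero]
        push_cast
        linear_combination ih
      · simp only [h1, h2, if_false, add_zero]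
        exact ih

end identities

end sw

end Vale.Agent.Helper10
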