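import Vale.Agent.Helper10.Subword

namespace Vale.Agent.Helper10

section psums

variable {α : Type} [DecidableEq α] (M : ℕ)

/-- the number of occurrences of the letter `a`, as a positional sum -/
def stN (a : α) (w : List α) : ZMod M :=
  psum (fun _ : ZMod M => (1 : ZMod M)) (dgOf M (fun _ : α => False)) (fun x => x = a) 0 w

/-- the sum over the occurrences of `b` of the number of preceding occurrences of `a` -/
def stId (a b : α) (w : List α) : ZMod M :=
  psum (fun t : ZMod M => t) (dgOf M (fun x : α => x = a)) (fun x => x = b) 0 w

/-- the sum over the occurrences of `b` of the squared number of preceding occurrences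
of `a` -/
def stSq (a b : α) (w : List α) : ZMod M :=
  psum (fun t : ZMod M => t * t) (dgOf M (fun x : α => x = a)) (fun x => x = b) 0 w

/-- the sum over the occurrences of `b` of the squared number of preceding occurrences
of `a` or `c` -/
def stSq2 (a c b : α) (w : List α) : ZMod M :=
  psum (fun t : ZMod M => t * t) (dgOf M (fun x : α => x = a ∨ x = c)) (fun x => x = b) 0 w

theorem psum_one (a : α) : ∀ (w : List α) (s : ZMod M),
    psum (fun _ : ZMod M => (1 : ZMod M)) (dgOf M (fun _ : α => False)) (fun x => x = a) s w
      = (List.count a w : ZMod M) := by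
  intro w
  induction w with
  | nil => intro s; simp [psum]
  | cons x w ih =>
    intro s
    simp only [psum, ih, count_cons_c]
    by_cases h : x = a
    · simp only [h, if_true]
      push_cast
      ring
    · simp only [h, if_false]
      push_cast
      ring

theorem psum_id (a b : α) (hab : a ≠ b) : ∀ (w : List α) (s : ZMod M),
    psum (fun t : ZMod M => t) (dgOf M (fun x : α => x = a)) (fun x => x = b) s w
      = s * (List.count b w : ZMod M) + (sw [a, b] w : ZMod M) := by
  intro w
  induction w with
  | nil => intro s; simp [psum, sw_cons_nil]
  | cons x w ih =>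
    intro s
    simp only [psum, ih, dgOf]
    rw [sw_cons_cons, sw_single, count_cons_c]
    by_cases h1 : x = a
    · have h2 : ¬ a = b := hab
      simp only [h1, h2, if_true, if_false]
      push_cast
      ring
    · by_cases h2 : x = b
      · have h3 : ¬ b = a := fun h => hab h.symm
        simp only [h2, h3, if_true, if_false]
        push_cast
        ring
      · simp only [h1, h2, if_false]
        push_cast
        ring

theorem psum_sq (a b : α) (hab : a ≠ b) : ∀ (w : List α) (s : ZMod M),
    psum (fun t : ZMod M => t * t) (dgOf M (fun x : α => x = a)) (fun x => x = b) s w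
      = s * s * (List.count b w : ZMod M) + (2 * s + 1) * (sw [a, b] w : ZMod M)
        + 2 * (sw [a, a, b] w : ZMod M) := by
  intro w
  induction w with
  | nil => intro s; simp [psum, sw_cons_nil]
  | cons x w ih =>
    intro s
    simp only [psum, ih, dgOf]
    rw [sw_cons_cons a [b], sw_cons_cons a [a, b], sw_single, count_cons_c]
    by_cases h1 : x = a
    · have h2 : ¬ a = b := hab
      simp only [h1, h2, if_true, if_false]
      push_cast
      ring
    · by_cases h2 : x = b
      · have h3 : ¬ b = a := fun h => hab h.symm
        simp only [h2, h3, if_true, if_false]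
        push_cast
        ring
      · simp only [h1, h2, if_false]
        push_cast
        ring

theorem psum_sq2 (a c b : α) (hab : a ≠ b) (hac : a ≠ c) (hcb : c ≠ b) :
    ∀ (w : List α) (s : ZMod M),
    psum (fun t : ZMod M => t * t) (dgOf M (fun x : α => x = a ∨ x = c)) (fun x => x = b) s w
      = s * s * (List.count b w : ZMod M)
        + (2 * s + 1) * ((sw [a, b] w : ZMod M) + (sw [c, b] w : ZMod M))
        + 2 * ((sw [a, a, b] w : ZMod M) + (sw [c, c, b] w : ZMod M)
          + (sw [a, c, b] w : ZMod M) + (sw [c, a, b] w : ZMod M)) := by
  intro w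
  induction w with
  | nil => intro s; simp [psum, sw_cons_nil]
  | cons x w ih =>
    intro s
    simp only [psum, ih, dgOf]
    rw [sw_cons_cons a [b], sw_cons_cons c [b], sw_cons_cons a [a, b], sw_cons_cons c [c, b],
      sw_cons_cons a [c, b], sw_cons_cons c [a, b], sw_single, count_cons_c]
    by_cases h1 : x = a
    · have h2 : ¬ a = b := hab
      have h3 : ¬ a = c := hac
      simp only [h1, h2, h3, true_or, if_true, if_false]
      push_cast
      ring
    · by_cases h2 : x = c
      · have h3 : ¬ c = b := hcb
        have h4 : ¬ c = a := fun h => hac h.symm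
        simp only [h2, h3, h4, or_true, if_true, if_false]
        push_cast
        ring
      · by_cases h3 : x = b
        · have h4 : ¬ b = a := fun h => hab h.symm
          have h5 : ¬ b = c := fun h => hcb h.symm
          simp only [h3, h4, h5, or_self, if_true, if_false]
          push_cast
          ring
        · simp only [h1, h2, h3, or_self, if_false]
          push_cast
          ring

theorem stN_eq (a : α) (w : List α) : stN M a w = (List.count a w : ZMod M) :=
  psum_one M a w 0

theorem stId_eq (a b : α) (hab : a ≠ b) (w : List α) :
    stId M a b w = (sw [a, b] w : ZMod M) := by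
  unfold stId
  rw [psum_id M a b hab w 0]
  ring

theorem stSq_eq (a b : α) (hab : a ≠ b) (w : List α) :
    stSq M a b w = (sw [a, b] w : ZMod M) + 2 * (sw [a, a, b] w : ZMod M) := by
  unfold stSq
  rw [psum_sq M a b hab w 0]
  ring

theorem stSq2_eq (a c b : α) (hab : a ≠ b) (hac : a ≠ c) (hcb : c ≠ b) (w : List α) :
    stSq2 M a c b w = ((sw [a, b] w : ZMod M) + (sw [c, b] w : ZMod M))
        + 2 * ((sw [a, a, b] w : ZMod M) + (sw [c, c, b] w : ZMod M)
          + (sw [a, c, b] w : ZMod M) + (sw [c, a, b] w : ZMod M)) := by
  unfold stSq2
  rw [psum_sq2 M a c b hab hac hcb w 0]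
  ring

end psums

end Vale.Agent.Helper10
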