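import Vale.Agent.Helper10.OneBase

/-!
# Symmetric groups through increasing cycles

Let the letters be mapped to permutations `π` of `Fin (n + 1)` such that every `i ≠ 0` is sent
to `0` or to some `j ≥ i`.  These are the identity and the cycles `(0 i₁ i₂ … i_k)` with
`i₁ < i₂ < … < i_k`; for instance all transpositions `(0 k)` and the full cycle `(0 1 … n)`,
so that the letters may generate the whole symmetric group.  Then every language recognised
through such a letter map has generalized star height at most one: the automaton of the
inverse action on the points becomes order decreasing, hence counter-free, once the state `0`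
is made absorbing.
-/

namespace Vale.Agent.Helper10

section sym

variable {α : Type} {n : ℕ}

/-- the automaton of the inverse action on the points -/
def permStep (f : α → Equiv.Perm (Fin (n + 1))) (q : Fin (n + 1)) (a : α) : Fin (n + 1) :=
  (f a)⁻¹ q

theorem permStep_run (f : α → Equiv.Perm (Fin (n + 1))) :
    ∀ (w : List α) (q : Fin (n + 1)), run (permStep f) q w = ((w.map f).prod)⁻¹ q := by
  intro w
  induction w with
  | nil => intro q; simp
  | cons a w ih =>
    intro q
    rw [run_cons, ih, List.map_cons, List.prod_cons, mul_inv_rev, Equiv.Perm.mul_apply]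
    rfl

theorem permStep_le (f : α → Equiv.Perm (Fin (n + 1)))
    (hf : ∀ a (i : Fin (n + 1)), i ≠ 0 → f a i = 0 ∨ i ≤ f a i) (q : Fin (n + 1)) (a : α) :
    absorb (permStep f) 0 q a ≤ q := by
  by_cases hq : q = 0
  · subst hq
    simp [absorb]
  · rw [absorb_of_ne _ _ _ _ hq]
    show (f a)⁻¹ q ≤ q
    by_cases hj : (f a)⁻¹ q = 0
    · rw [hj]
      exact Fin.zero_le _
    · rcases hf a _ hj with h | h
      · have e : f a ((f a)⁻¹ q) = q := (f a).apply_symm_apply q
        rw [e] at h
        exact absurd h hq
      · have e : f a ((f a)⁻¹ q) = q := (f a).apply_symm_apply q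
        rw [e] at h
        exact h

theorem permRun_le (f : α → Equiv.Perm (Fin (n + 1)))
    (hf : ∀ a (i : Fin (n + 1)), i ≠ 0 → f a i = 0 ∨ i ≤ f a i) :
    ∀ (w : List α) (q : Fin (n + 1)), run (absorb (permStep f) 0) q w ≤ q := by
  intro w
  induction w with
  | nil => intro q; exact le_refl _
  | cons a w ih =>
    intro q
    rw [run_cons]
    exact le_trans (ih _) (permStep_le f hf q a)

theorem perm_cf (f : α → Equiv.Perm (Fin (n + 1)))
    (hf : ∀ a (i : Fin (n + 1)), i ≠ 0 → f a i = 0 ∨ i ≤ f a i) :
    CounterFree (absorb (permStep f) 0) := by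
  intro w q k hk hq
  have hle : ∀ (m : ℕ) (x : Fin (n + 1)),
      (fun x => run (absorb (permStep f) 0) x w)^[m] x ≤ x := by
    intro m
    induction m with
    | zero => intro x; exact le_refl _
    | succ m ih =>
      intro x
      rw [Function.iterate_succ_apply]
      exact le_trans (ih _) (permRun_le f hf w x)
  obtain ⟨m, rfl⟩ : ∃ m, k = m + 1 := ⟨k - 1, by omega⟩
  rw [Function.iterate_succ_apply] at hq
  have h1 := hle m (run (absorb (permStep f) 0) q w)
  rw [hq] at h1
  exact le_antisymm (permRun_le f hf w q) h1

/-- Languages recognised by a symmetric group through letters mapped to the identity or to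
increasing cycles through the point `0` have generalized star height at most one. -/
theorem sym_cycles_gsh [Finite α] (f : α → Equiv.Perm (Fin (n + 1)))
    (hf : ∀ a (i : Fin (n + 1)), i ≠ 0 → f a i = 0 ∨ i ≤ f a i)
    (T : Set (Equiv.Perm (Fin (n + 1)))) :
    HasGSH 1 (fun w : List α => (w.map f).prod ∈ T) := by
  have h1 := one_base_set (permStep f) 0 (perm_cf f hf)
    {t | ∃ π ∈ T, t = fun p => π⁻¹ p}
  refine h1.congr (fun w => ?_)
  have e : (fun p => run (permStep f) p w) = fun p => ((w.map f).prod)⁻¹ p :=
    funext (permStep_run f w)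
  rw [e]
  constructor
  · rintro ⟨π, hπ, h⟩
    have h2 : ((w.map f).prod)⁻¹ = π⁻¹ := Equiv.ext (fun p => congrFun h p)
    rw [inv_inj] at h2
    rw [h2]
    exact hπ
  · intro h
    exact ⟨_, h, rfl⟩

end sym

end Vale.Agent.Helper10
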