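import Vale.Agent.Helper10.Subword

namespace Vale.Agent.Helper10

section taylor

variable {α A : Type} [CommGroup A]

/-- the difference of `φ` with respect to putting the letter `x` in front of a word -/
def ldiff (x : α) (φ : List α → A) : List α → A := fun w => φ (x :: w) / φ w

/-- `Deg n φ`: all `n`-fold differences of `φ` are trivial -/
def Deg : ℕ → (List α → A) → Prop
  | 0, φ => ∀ w, φ w = 1
  | n + 1, φ => ∀ x, Deg n (ldiff x φ)

theorem Deg.mono : ∀ {n : ℕ} {φ : List α → A}, Deg n φ → Deg (n + 1) φ := by
  intro n
  induction n with
  | zero =>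
    intro φ h x w
    show φ (x :: w) / φ w = 1
    rw [h, h, div_one]
  | succ n ih =>
    intro φ h x
    exact ih (h x)

theorem Deg.mul : ∀ {n : ℕ} {φ ψ : List α → A}, Deg n φ → Deg n ψ →
    Deg n (fun w => φ w * ψ w) := by
  intro n
  induction n with
  | zero =>
    intro φ ψ h1 h2 w
    show φ w * ψ w = 1
    rw [h1, h2, one_mul]
  | succ n ih =>
    intro φ ψ h1 h2 x
    have e : ldiff x (fun w => φ w * ψ w) = fun w => ldiff x φ w * ldiff x ψ w := by
      funext w
      show φ (x :: w) * ψ (x :: w) / (φ w * ψ w) = φ (x :: w) / φ w * (ψ (x :: w) / ψ w)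
      rw [mul_div_mul_comm]
    rw [e]
    exact ih (h1 x) (h2 x)

theorem Deg.hom (D : A →* A) : ∀ {n : ℕ} {φ : List α → A}, Deg n φ →
    Deg n (fun w => D (φ w)) := by
  intro n
  induction n with
  | zero =>
    intro φ h w
    show D (φ w) = 1
    rw [h, map_one]
  | succ n ih =>
    intro φ h x
    have e : ldiff x (fun w => D (φ w)) = fun w => D (ldiff x φ w) := by
      funext w
      show D (φ (x :: w)) / D (φ w) = D (φ (x :: w) / φ w)
      rw [map_div]
    rw [e]
    exact ih (h x)

theorem Deg.const (c : A) : Deg 1 (fun _ : List α => c) := by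
  intro x w
  show c / c = 1
  exact div_self' c

/-- the coefficients of the expansion of `φ` along subwords -/
def tcoef : List α → (List α → A) → A
  | [], φ => φ []
  | x :: s, φ => tcoef s (ldiff x φ)

theorem taylor_expand : ∀ (w : List α) (φ : List α → A),
    φ w = ((List.sublists' w).map (fun s => tcoef s φ)).prod := by
  intro w
  induction w with
  | nil =>
    intro φ
    simp [tcoef]
  | cons x w ih =>
    intro φ
    rw [List.sublists'_cons, List.map_append, List.prod_append, ← ih φ, List.map_map]
    have e : ((fun s => tcoef s φ) ∘ List.cons x) = fun s => tcoef s (ldiff x φ) := by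
      funext s
      rfl
    rw [e, ← ih (ldiff x φ)]
    show φ (x :: w) = φ w * (φ (x :: w) / φ w)
    rw [mul_div_cancel]

theorem tcoef_one : ∀ (s : List α) (φ : List α → A), (∀ w, φ w = 1) → tcoef s φ = 1 := by
  intro s
  induction s with
  | nil => intro φ h; exact h []
  | cons x s ih =>
    intro φ h
    refine ih (ldiff x φ) (fun w => ?_)
    show φ (x :: w) / φ w = 1
    rw [h, h, div_one]

theorem tcoef_deg : ∀ (n : ℕ) (φ : List α → A), Deg n φ → ∀ s : List α, n ≤ s.length →
    tcoef s φ = 1 := by
  intro n
  induction n with
  | zero =>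
    intro φ h s _
    exact tcoef_one s φ h
  | succ n ih =>
    intro φ h s hs
    cases s with
    | nil => simp at hs
    | cons x s =>
      refine ih (ldiff x φ) (h x) s ?_
      simpa using hs

theorem beq_inst_eq {β : Type} (i1 i2 : BEq β) [h1 : @LawfulBEq β i1] [h2 : @LawfulBEq β i2] :
    i1 = i2 := by
  have h : ∀ a b : β, @BEq.beq β i1 a b = @BEq.beq β i2 a b := by
    intro a b
    rw [Bool.eq_iff_iff, @beq_iff_eq β i1 h1 a b, @beq_iff_eq β i2 h2 a b]
  cases i1 with
  | mk b1 =>
    cases i2 with
    | mk b2 =>
      have : b1 = b2 := by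
        funext a b
        exact h a b
      rw [this]

theorem count_inst [DecidableEq α] (m : List α) (l : List (List α)) :
    @List.count (List α) instBEqOfDecidableEq m l = List.count m l := by
  have e : (instBEqOfDecidableEq : BEq (List α)) = List.instBEq := beq_inst_eq _ _
  rw [e]

/-- a function of degree at most `n` with values in a group of exponent dividing `e` only
depends on the numbers modulo `e` of occurrences of the subwords of length at most `n` -/
theorem taylor [DecidableEq α] (φ : List α → A) (n e : ℕ) (hdeg : Deg (n + 1) φ)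
    (he : ∀ a : A, a ^ e = 1) (w w' : List α)
    (h : ∀ u : List α, u.length ≤ n → sw u w ≡ sw u w' [MOD e]) : φ w = φ w' := by
  have hexp : ∀ v : List α, φ v = ∏ m ∈ (List.sublists' v).toFinset,
      tcoef m φ ^ List.count m (List.sublists' v) := by
    intro v
    rw [taylor_expand v φ, Finset.prod_list_map_count]
    exact Finset.prod_congr rfl (fun m _ => by rw [count_inst])
  have hsub : ∀ v v' : List α,
      ∏ m ∈ (List.sublists' v).toFinset, tcoef m φ ^ List.count m (List.sublists' v)
      = ∏ m ∈ (List.sublists' v).toFinset ∪ (List.sublists' v').toFinset,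
          tcoef m φ ^ List.count m (List.sublists' v) := by
    intro v v'
    refine Finset.prod_subset Finset.subset_union_left (fun m _ hm => ?_)
    have : List.count m (List.sublists' v) = 0 := by
      rw [List.count_eq_zero]
      intro hmem
      exact hm (List.mem_toFinset.2 hmem)
    rw [this, pow_zero]
  rw [hexp w, hexp w', hsub w w', hsub w' w, Finset.union_comm (List.sublists' w').toFinset]
  refine Finset.prod_congr rfl (fun m _ => ?_)
  by_cases hm : m.length ≤ n
  · have e1 : List.count m (List.sublists' w) = sw m w :=
      ((List.sublists_perm_sublists' w).count_eq m).symm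
    have e2 : List.count m (List.sublists' w') = sw m w' :=
      ((List.sublists_perm_sublists' w').count_eq m).symm
    rw [e1, e2, pow_eq_pow_mod _ (he _), pow_eq_pow_mod (sw m w') (he _)]
    exact congrArg _ (h m hm)
  · rw [tcoef_deg (n + 1) φ hdeg m (by omega), one_pow, one_pow]

end taylor

section degcalc

variable {α A : Type} [CommGroup A] [DecidableEq α]

/-- the degree computation behind the extraction of one letter in a group of class three -/
theorem deg_extract (a : α) (D : α → A →* A) (hD : ∀ x y k, D x (D y k) = 1) (c : α → A)
    (κ Z : List α → A)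
    (hκ : ∀ y w, κ (y :: w) = κ w * (if y = a then 1 else c y * D y (κ w)))
    (hZ : ∀ x w, Z (x :: w) = Z w * D x (Z w) * (if x = a then κ w else 1)) :
    Deg 4 Z := by
  have s1 : ∀ x, Deg 2 (fun w => D x (κ w)) := by
    intro x y
    have e : ldiff y (fun w => D x (κ w))
        = fun _ => (if y = a then 1 else D x (c y)) := by
      funext w
      show D x (κ (y :: w)) / D x (κ w) = _
      rw [hκ, map_mul, mul_div_cancel_left]
      by_cases hy : y = a
      · rw [if_pos hy, if_pos hy, map_one]
      · rw [if_neg hy, if_neg hy, map_mul, hD, mul_one]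
    rw [e]
    exact Deg.const _
  have s2 : Deg 3 κ := by
    intro y
    have e : ldiff y κ = fun w => (if y = a then 1 else c y) * (if y = a then 1 else D y (κ w)) := by
      funext w
      show κ (y :: w) / κ w = _
      rw [hκ, mul_div_cancel_left]
      by_cases hy : y = a
      · rw [if_pos hy, if_pos hy, if_pos hy, one_mul]
      · rw [if_neg hy, if_neg hy, if_neg hy]
    rw [e]
    refine Deg.mul (Deg.const _).mono ?_
    by_cases hy : y = a
    · simp only [hy, if_true]
      exact (Deg.const _).mono
    · simp only [hy, if_false]
      exact s1 y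
  have s3 : ∀ x, Deg 3 (fun w => D x (Z w)) := by
    intro x y
    have e : ldiff y (fun w => D x (Z w))
        = fun w => (if y = a then D x (κ w) else 1) := by
      funext w
      show D x (Z (y :: w)) / D x (Z w) = _
      rw [hZ, map_mul, map_mul, mul_assoc, mul_div_cancel_left, hD, one_mul]
      by_cases hy : y = a
      · rw [if_pos hy, if_pos hy]
      · rw [if_neg hy, if_neg hy, map_one]
    rw [e]
    by_cases hy : y = a
    · simp only [hy, if_true]
      exact s1 x
    · simp only [hy, if_false]
      exact (Deg.const _).mono
  intro x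
  have e : ldiff x Z = fun w => D x (Z w) * (if x = a then κ w else 1) := by
    funext w
    show Z (x :: w) / Z w = _
    rw [hZ, mul_assoc, mul_div_cancel_left]
  rw [e]
  refine Deg.mul (s3 x) ?_
  by_cases hx : x = a
  · simp only [hx, if_true]
    exact s2
  · simp only [hx, if_false]
    exact ((Deg.const _).mono).mono

end degcalc

end Vale.Agent.Helper10
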