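import Vale.Agent.Helper10.Unip4

/-!
# Two counters: weighted positional sums of degree at most three

Along a word two counters advance, by the weights `jx b` and `jy b` of the letters `b`.  The
sums, over the occurrences of a letter, of the products of binomial coefficients of the two
counters of total degree at most three are determined by positional counts along clocks with
steps `0`, `1` and `-1`.  Consequently, when every letter is sent to `x` or to a power of `y`,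
and the commutator of `x` and `y` lies in an abelian normal subgroup on which all threefold
commutators are trivial, the languages recognised have generalized star height at most one.
-/

namespace Vale.Agent.Helper10

section stat2

variable {α : Type} [DecidableEq α] [Fintype α] (M : ℕ) [NeZero M] (jx jy : α → ℕ)

/-- the sum over the occurrences of `a` of a function of the two weighted counters -/
def gsum2 (a : α) (u : ℕ → ℕ → ℕ) : ℕ → ℕ → List α → ℕ
  | _, _, [] => 0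
  | X, Y, b :: w => (if b = a then u X Y else 0) + gsum2 a u (X + jx b) (Y + jy b) w

omit [NeZero M] in
theorem gsum2_wsum (a : α) (u : ℕ → ℕ → ℕ) (k : ℕ) (F : (α → ZMod M) → ZMod M)
    (hF : ∀ (X Y : ℕ) (c : α → ZMod M), sfun M jx c = (X : ZMod M) →
      sfun M jy c = (Y : ZMod M) → ((k * u X Y : ℕ) : ZMod M) = F c) :
    ∀ (w : List α) (X Y : ℕ) (c : α → ZMod M), sfun M jx c = (X : ZMod M) →
      sfun M jy c = (Y : ZMod M) →
      ((k * gsum2 jx jy a u X Y w : ℕ) : ZMod M) = wsum M a F c w := by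
  intro w
  induction w with
  | nil => intro X Y c _ _; simp [gsum2, wsum]
  | cons b w ih =>
    intro X Y c hX hY
    have h1 : sfun M jx (c + Pi.single b 1) = ((X + jx b : ℕ) : ZMod M) := by
      rw [sfun_step, hX]
      push_cast
      rfl
    have h2 : sfun M jy (c + Pi.single b 1) = ((Y + jy b : ℕ) : ZMod M) := by
      rw [sfun_step, hY]
      push_cast
      rfl
    simp only [gsum2, wsum]
    rw [mul_add, Nat.cast_add, ih (X + jx b) (Y + jy b) _ h1 h2]
    congr 1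
    by_cases hb : b = a
    · rw [if_pos hb, if_pos hb]
      exact hF X Y c hX hY
    · rw [if_neg hb, if_neg hb]
      simp

variable {M} {a : α} {w w' : List α}
variable (hst : ∀ v : α → ZMod M, (∀ x, v x = 0 ∨ v x = 1 ∨ v x = -1) → ∀ t : ZMod M,
    (cnt v (fun b => b = a) t 0 w : ZMod M) = (cnt v (fun b => b = a) t 0 w' : ZMod M))

include hst

theorem Gd.b2 (j j' : α → ℕ) : Gd M a w w' (fun y => 2 * (sfun M j y * sfun M j' y)) := by
  have h : Gd M a w w' (fun y => ∑ x : α, ∑ x' : α,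
      ((j x : ZMod M) * (j' x' : ZMod M)) * (2 * (y x * y x'))) :=
    Gd.sum _ _ (fun x _ => Gd.sum _ _ (fun x' _ => (Gd.mul2 hst x x').smul _))
  refine h.of_eq (fun y => ?_)
  unfold sfun
  rw [Finset.sum_mul_sum, Finset.mul_sum]
  refine Finset.sum_congr rfl (fun x _ => ?_)
  rw [Finset.mul_sum]
  refine Finset.sum_congr rfl (fun x' _ => ?_)
  ring

theorem Gd.b3 (j j' j'' : α → ℕ) :
    Gd M a w w' (fun y => 6 * (sfun M j y * sfun M j' y * sfun M j'' y)) := by
  have h : Gd M a w w' (fun y => ∑ x : α, ∑ x' : α, ∑ x'' : α,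
      ((j x : ZMod M) * (j' x' : ZMod M) * (j'' x'' : ZMod M)) * (6 * (y x * y x' * y x''))) :=
    Gd.sum _ _ (fun x _ => Gd.sum _ _ (fun x' _ => Gd.sum _ _
      (fun x'' _ => (Gd.mul3 hst x x' x'').smul _)))
  refine h.of_eq (fun y => ?_)
  unfold sfun
  rw [Finset.sum_mul_sum, Finset.sum_mul, Finset.mul_sum]
  refine Finset.sum_congr rfl (fun x _ => ?_)
  rw [Finset.sum_mul, Finset.mul_sum]
  refine Finset.sum_congr rfl (fun x' _ => ?_)
  rw [Finset.mul_sum, Finset.mul_sum]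
  refine Finset.sum_congr rfl (fun x'' _ => ?_)
  ring

end stat2

section det2

variable {α : Type} [DecidableEq α] [Fintype α] (E : ℕ) [NeZero (36 * E)] (jx jy : α → ℕ) {a : α}
  {w w' : List α}

omit [NeZero (36 * E)] in
theorem det_aux (k m q : ℕ) (hq : m * k * q = 36) (u : ℕ → ℕ → ℕ)
    (F : (α → ZMod (36 * E)) → ZMod (36 * E))
    (hF : ∀ (X Y : ℕ) (c : α → ZMod (36 * E)), sfun (36 * E) jx c = (X : ZMod (36 * E)) →
      sfun (36 * E) jy c = (Y : ZMod (36 * E)) → ((k * u X Y : ℕ) : ZMod (36 * E)) = F c)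
    (hG : Gd (36 * E) a w w' (fun y => (m : ZMod (36 * E)) * F y)) :
    gsum2 jx jy a u 0 0 w ≡ gsum2 jx jy a u 0 0 w' [MOD E] := by
  have hz : ∀ j : α → ℕ, sfun (36 * E) j 0 = ((0 : ℕ) : ZMod (36 * E)) := by
    intro j
    rw [sfun_zero]
    simp
  have e1 := gsum2_wsum (36 * E) jx jy a u k F hF w 0 0 0 (hz jx) (hz jy)
  have e2 := gsum2_wsum (36 * E) jx jy a u k F hF w' 0 0 0 (hz jx) (hz jy)
  have g : wsum (36 * E) a (fun y => (m : ZMod (36 * E)) * F y) 0 w
      = wsum (36 * E) a (fun y => (m : ZMod (36 * E)) * F y) 0 w' := hG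
  rw [wsum_smul, wsum_smul, ← e1, ← e2] at g
  refine modEq_of_cast E (m * k) q hq _ _ ?_
  push_cast at g ⊢
  linear_combination g

/-- **Products of binomial coefficients of two counters, of total degree at most three**, summed
over the occurrences of a letter, are determined modulo `E` by the positional counts modulo
`36 * E` along the clocks with steps `0`, `1` and `-1`. -/
theorem gsum2_modEq
    (hst : ∀ v : α → ZMod (36 * E), (∀ x, v x = 0 ∨ v x = 1 ∨ v x = -1) → ∀ t : ZMod (36 * E),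
      (cnt v (fun b => b = a) t 0 w : ZMod (36 * E))
        = (cnt v (fun b => b = a) t 0 w' : ZMod (36 * E)))
    (i' i : ℕ) (hi : i' + i ≤ 2) :
    gsum2 jx jy a (fun X Y => X.choose i' * Y.choose (i + 1)) 0 0 w
      ≡ gsum2 jx jy a (fun X Y => X.choose i' * Y.choose (i + 1)) 0 0 w' [MOD E] := by
  have h00 : i' = 0 ∧ i = 0 ∨ i' = 0 ∧ i = 1 ∨ i' = 0 ∧ i = 2 ∨ i' = 1 ∧ i = 0 ∨ i' = 1 ∧ i = 1
      ∨ i' = 2 ∧ i = 0 := by omega
  rcases h00 with ⟨rfl, rfl⟩ | ⟨rfl, rfl⟩ | ⟨rfl, rfl⟩ | ⟨rfl, rfl⟩ | ⟨rfl, rfl⟩ | ⟨rfl, rfl⟩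
  · refine det_aux E jx jy 1 1 36 rfl _ (fun y => sfun (36 * E) jy y) ?_ ?_
    · intro X Y c hX hY
      show ((1 * (X.choose 0 * Y.choose 1) : ℕ) : ZMod (36 * E)) = sfun (36 * E) jy c
      rw [hY]
      simp
    · exact (Gd.s1 (j := jy) hst).of_eq (fun y => by simp)
  · refine det_aux E jx jy 2 2 9 rfl _
      (fun y => sfun (36 * E) jy y * (sfun (36 * E) jy y - 1)) ?_ ?_
    · intro X Y c hX hY
      show ((2 * (X.choose 0 * Y.choose 2) : ℕ) : ZMod (36 * E))
        = sfun (36 * E) jy c * (sfun (36 * E) jy c - 1)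
      rw [hY, Nat.choose_zero_right, one_mul, choose_two_cast]
    · exact (Gd.t2 (j := jy) hst).of_eq (fun y => by simp)
  · refine det_aux E jx jy 6 6 1 rfl _
      (fun y => sfun (36 * E) jy y * (sfun (36 * E) jy y - 1) * (sfun (36 * E) jy y - 2)) ?_ ?_
    · intro X Y c hX hY
      show ((6 * (X.choose 0 * Y.choose 3) : ℕ) : ZMod (36 * E))
        = sfun (36 * E) jy c * (sfun (36 * E) jy c - 1) * (sfun (36 * E) jy c - 2)
      rw [hY, Nat.choose_zero_right, one_mul, choose_three_cast]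
    · exact (Gd.t3 (j := jy) hst).of_eq (fun y => by simp)
  · refine det_aux E jx jy 1 2 18 rfl _
      (fun y => sfun (36 * E) jx y * sfun (36 * E) jy y) ?_ ?_
    · intro X Y c hX hY
      show ((1 * (X.choose 1 * Y.choose 1) : ℕ) : ZMod (36 * E))
        = sfun (36 * E) jx c * sfun (36 * E) jy c
      rw [hX, hY]
      simp
    · exact (Gd.b2 hst jx jy).of_eq (fun y => by simp)
  · refine det_aux E jx jy 2 6 3 rfl _
      (fun y => sfun (36 * E) jx y * (sfun (36 * E) jy y * (sfun (36 * E) jy y - 1))) ?_ ?_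
    · intro X Y c hX hY
      show ((2 * (X.choose 1 * Y.choose 2) : ℕ) : ZMod (36 * E))
        = sfun (36 * E) jx c * (sfun (36 * E) jy c * (sfun (36 * E) jy c - 1))
      rw [hX, hY, ← choose_two_cast, Nat.choose_one_right]
      push_cast
      ring
    · exact ((Gd.b3 hst jx jy jy).add ((Gd.b2 hst jx jy).smul (-3))).of_eq
        (fun y => by push_cast; ring)
  · refine det_aux E jx jy 2 6 3 rfl _
      (fun y => sfun (36 * E) jx y * (sfun (36 * E) jx y - 1) * sfun (36 * E) jy y) ?_ ?_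
    · intro X Y c hX hY
      show ((2 * (X.choose 2 * Y.choose 1) : ℕ) : ZMod (36 * E))
        = sfun (36 * E) jx c * (sfun (36 * E) jx c - 1) * sfun (36 * E) jy c
      rw [hX, hY, ← choose_two_cast, Nat.choose_one_right]
      push_cast
      ring
    · exact ((Gd.b3 hst jx jx jy).add ((Gd.b2 hst jx jy).smul (-3))).of_eq
        (fun y => by push_cast; ring)

end det2

section comm2

variable {K α : Type} [CommGroup K]

/-- the commutator of `y ^ Y` and `x`, written through the conjugation `ψ` by `y` -/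
def mrec (ψ : K → K) (c : K) : ℕ → K
  | 0 => 1
  | Y + 1 => ψ (mrec ψ c Y) * c

theorem map_pow_of_mul (φ : K → K) (hφ : ∀ x y, φ (x * y) = φ x * φ y) (x : K) (n : ℕ) :
    φ (x ^ n) = φ x ^ n :=
  map_pow (MonoidHom.mk' φ hφ) x n

theorem mrec_eq (ψ : K → K) (hψ : ∀ x y, ψ (x * y) = ψ x * ψ y)
    (h4 : ∀ k : K, (fun x => ψ x * x⁻¹)^[4] k = 1) (c : K) (Y : ℕ) :
    mrec ψ c Y = ∏ i ∈ Finset.range 4, ((fun x => ψ x * x⁻¹)^[i] c) ^ (Y.choose (i + 1)) := by
  induction Y with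
  | zero => simp [mrec]
  | succ Y ih =>
    have hp : ∀ (k : K) (n : ℕ), ψ (k ^ n) = ψ k ^ n := map_pow_of_mul ψ hψ
    have c1 : (Y + 1).choose 1 = Y.choose 0 + Y.choose 1 := Nat.choose_succ_succ Y 0
    have c2 : (Y + 1).choose 2 = Y.choose 1 + Y.choose 2 := Nat.choose_succ_succ Y 1
    have c3 : (Y + 1).choose 3 = Y.choose 2 + Y.choose 3 := Nat.choose_succ_succ Y 2
    have c4 : (Y + 1).choose 4 = Y.choose 3 + Y.choose 4 := Nat.choose_succ_succ Y 3
    show ψ (mrec ψ c Y) * c = _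
    rw [ih]
    set D : K → K := fun x => ψ x * x⁻¹ with hD
    have e1 : ∀ k, ψ k = D k * k := by
      intro k
      show ψ k = ψ k * k⁻¹ * k
      rw [inv_mul_cancel_right]
    have h4' : D (D (D (D c))) = 1 := h4 c
    have i0 : ∀ x, D^[0] x = x := fun x => rfl
    have i1 : ∀ x, D^[1] x = D x := fun x => rfl
    have i2 : ∀ x, D^[2] x = D (D x) := fun x => rfl
    have i3 : ∀ x, D^[3] x = D (D (D x)) := fun x => rfl
    simp only [Finset.prod_range_succ, Finset.prod_range_zero, one_mul, i0, i1, i2, i3, hψ, hp,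
      zero_add, Nat.reduceAdd]
    rw [e1 c, e1 (D c), e1 (D (D c)), e1 (D (D (D c))), h4']
    simp only [c1, c2, c3, c4, pow_add, mul_pow, one_mul, Nat.choose_zero_right, pow_one]
    ac_rfl

theorem phi_mrec (φ ψ : K → K) (hφ : ∀ x y, φ (x * y) = φ x * φ y)
    (hψ : ∀ x y, ψ (x * y) = ψ x * ψ y)
    (h4φ : ∀ k : K, (fun x => φ x * x⁻¹)^[4] k = 1)
    (h4ψ : ∀ k : K, (fun x => ψ x * x⁻¹)^[4] k = 1) (c : K) (X Y : ℕ) :
    φ^[X] (mrec ψ c Y) = ∏ i' ∈ Finset.range 4, ∏ i ∈ Finset.range 4,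
      ((fun x => φ x * x⁻¹)^[i'] ((fun x => ψ x * x⁻¹)^[i] c))
        ^ (X.choose i' * Y.choose (i + 1)) := by
  have hDφ : ∀ x y : K, (fun x => φ x * x⁻¹) (x * y)
      = (fun x => φ x * x⁻¹) x * (fun x => φ x * x⁻¹) y := by
    intro x y
    show φ (x * y) * (x * y)⁻¹ = φ x * x⁻¹ * (φ y * y⁻¹)
    rw [hφ, mul_inv]
    ac_rfl
  rw [iter_unip φ hφ h4φ X, mrec_eq ψ hψ h4ψ c Y]
  refine Finset.prod_congr rfl (fun i' _ => ?_)
  have hd : (fun x => φ x * x⁻¹)^[i']
        (∏ i ∈ Finset.range 4, ((fun x => ψ x * x⁻¹)^[i] c) ^ (Y.choose (i + 1)))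
      = ∏ i ∈ Finset.range 4,
        ((fun x => φ x * x⁻¹)^[i'] ((fun x => ψ x * x⁻¹)^[i] c)) ^ (Y.choose (i + 1)) := by
    refine (map_prod (MonoidHom.mk' ((fun x => φ x * x⁻¹)^[i'])
      (iter_mul _ hDφ i')) _ (Finset.range 4)).trans (Finset.prod_congr rfl (fun i _ => ?_))
    exact map_pow (MonoidHom.mk' ((fun x => φ x * x⁻¹)^[i']) (iter_mul _ hDφ i')) _ _
  rw [hd, ← Finset.prod_pow]
  refine Finset.prod_congr rfl (fun i _ => ?_)
  rw [← pow_mul, mul_comm (X.choose i')]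

/-- the product along a word of the commutators collected to the left -/
def kp2 (φ ψ : K → K) (c : K) (jx jy : α → ℕ) : ℕ → ℕ → List α → K
  | _, _, [] => 1
  | X, Y, b :: w => (φ^[X] (mrec ψ c Y)) ^ (jx b) * kp2 φ ψ c jx jy (X + jx b) (Y + jy b) w

theorem kp2_eq [DecidableEq α] [Fintype α] (φ ψ : K → K) (hφ : ∀ x y, φ (x * y) = φ x * φ y)
    (hψ : ∀ x y, ψ (x * y) = ψ x * ψ y)
    (h4φ : ∀ k : K, (fun x => φ x * x⁻¹)^[4] k = 1)
    (h4ψ : ∀ k : K, (fun x => ψ x * x⁻¹)^[4] k = 1) (c : K) (jx jy : α → ℕ) :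
    ∀ (w : List α) (X Y : ℕ), kp2 φ ψ c jx jy X Y w
      = ∏ a : α, ∏ i' ∈ Finset.range 4, ∏ i ∈ Finset.range 4,
        ((fun x => φ x * x⁻¹)^[i'] ((fun x => ψ x * x⁻¹)^[i] c))
          ^ (jx a * gsum2 jx jy a (fun X Y => X.choose i' * Y.choose (i + 1)) X Y w) := by
  intro w
  induction w with
  | nil => intro X Y; simp [kp2, gsum2]
  | cons b w ih =>
    intro X Y
    simp only [kp2, gsum2, mul_add, pow_add, Finset.prod_mul_distrib]
    rw [ih (X + jx b) (Y + jy b)]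
    congr 1
    rw [Finset.prod_eq_single b]
    · simp only [if_true]
      rw [phi_mrec φ ψ hφ hψ h4φ h4ψ c X Y, ← Finset.prod_pow]
      refine Finset.prod_congr rfl (fun i' _ => ?_)
      rw [← Finset.prod_pow]
      refine Finset.prod_congr rfl (fun i _ => ?_)
      rw [← pow_mul, mul_comm (jx b)]
    · intro x _ hx
      have hbx : ¬ b = x := fun h => hx h.symm
      simp [hbx]
    · intro h
      exact absurd (Finset.mem_univ b) h

theorem kp2_congr [DecidableEq α] [Fintype α] (φ ψ : K → K)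
    (hφ : ∀ x y, φ (x * y) = φ x * φ y) (hψ : ∀ x y, ψ (x * y) = ψ x * ψ y)
    (h4φ : ∀ k : K, (fun x => φ x * x⁻¹)^[4] k = 1)
    (h4ψ : ∀ k : K, (fun x => ψ x * x⁻¹)^[4] k = 1) (c : K) (jx jy : α → ℕ) (E : ℕ)
    (hE : ∀ k : K, k ^ E = 1)
    (hmix : ∀ i' i : ℕ, 3 ≤ i' + i →
      (fun x => φ x * x⁻¹)^[i'] ((fun x => ψ x * x⁻¹)^[i] c) = 1)
    (w w' : List α)
    (h : ∀ (a : α) (i' i : ℕ), i' + i ≤ 2 →
      gsum2 jx jy a (fun X Y => X.choose i' * Y.choose (i + 1)) 0 0 w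
        ≡ gsum2 jx jy a (fun X Y => X.choose i' * Y.choose (i + 1)) 0 0 w' [MOD E]) :
    kp2 φ ψ c jx jy 0 0 w = kp2 φ ψ c jx jy 0 0 w' := by
  rw [kp2_eq φ ψ hφ hψ h4φ h4ψ, kp2_eq φ ψ hφ hψ h4φ h4ψ]
  refine Finset.prod_congr rfl (fun a _ => Finset.prod_congr rfl (fun i' _ =>
    Finset.prod_congr rfl (fun i _ => ?_)))
  by_cases hi : 3 ≤ i' + i
  · rw [hmix i' i hi, one_pow, one_pow]
  · rw [pow_eq_pow_mod _ (hE _), pow_eq_pow_mod
      (jx a * gsum2 jx jy a (fun X Y => X.choose i' * Y.choose (i + 1)) 0 0 w') (hE _)]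
    exact congrArg _ ((h a i' i (by omega)).mul_left (jx a))

end comm2

section final2

variable {G α : Type} [Group G]

/-- the commutator map `z ↦ g z g⁻¹ z⁻¹` -/
def cm (g z : G) : G := g * z * g⁻¹ * z⁻¹

theorem cm_one (g : G) : cm g 1 = 1 := by simp [cm]

theorem cm_iter_one (g : G) (k : ℕ) : (cm g)^[k] 1 = 1 := by
  induction k with
  | zero => rfl
  | succ k ih => rw [Function.iterate_succ_apply, cm_one, ih]

theorem mix_one (N : Subgroup G)
    (hD3 : ∀ n ∈ N, ∀ g1 g2 g3 : G, cm g1 (cm g2 (cm g3 n)) = 1) (x y : G) :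
    ∀ (i' i : ℕ), 3 ≤ i' + i → ∀ n ∈ N, (cm x)^[i'] ((cm y)^[i] n) = 1 := by
  intro i' i h n hn
  by_cases h3 : 3 ≤ i
  · obtain ⟨k, rfl⟩ : ∃ k, i = k + 3 := ⟨i - 3, by omega⟩
    rw [Function.iterate_add_apply (cm y) k 3 n,
      show (cm y)^[3] n = 1 from hD3 n hn y y y, cm_iter_one, cm_iter_one]
  · by_cases h2 : i = 2
    · subst h2
      obtain ⟨k, rfl⟩ : ∃ k, i' = k + 1 := ⟨i' - 1, by omega⟩
      rw [Function.iterate_add_apply (cm x) k 1,
        show (cm x)^[1] ((cm y)^[2] n) = 1 from hD3 n hn x y y, cm_iter_one]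
    · by_cases h1 : i = 1
      · subst h1
        obtain ⟨k, rfl⟩ : ∃ k, i' = k + 2 := ⟨i' - 2, by omega⟩
        rw [Function.iterate_add_apply (cm x) k 2,
          show (cm x)^[2] ((cm y)^[1] n) = 1 from hD3 n hn x x y, cm_iter_one]
      · have h0 : i = 0 := by omega
        subst h0
        obtain ⟨k, rfl⟩ : ∃ k, i' = k + 3 := ⟨i' - 3, by omega⟩
        rw [Function.iterate_add_apply (cm x) k 3,
          show (cm x)^[3] ((cm y)^[0] n) = 1 from hD3 n hn x x x, cm_iter_one]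

theorem mix_el3 (x y n : G)
    (hD3 : ∀ g1 g2 g3 : G, cm g1 (cm g2 (cm g3 n)) = 1) :
    ∀ (i' i : ℕ), 3 ≤ i' + i → (cm x)^[i'] ((cm y)^[i] n) = 1 := by
  intro i' i h
  by_cases h3 : 3 ≤ i
  · obtain ⟨k, rfl⟩ : ∃ k, i = k + 3 := ⟨i - 3, by omega⟩
    rw [Function.iterate_add_apply (cm y) k 3 n,
      show (cm y)^[3] n = 1 from hD3 y y y, cm_iter_one, cm_iter_one]
  · by_cases h2 : i = 2
    · subst h2
      obtain ⟨k, rfl⟩ : ∃ k, i' = k + 1 := ⟨i' - 1, by omega⟩
      rw [Function.iterate_add_apply (cm x) k 1,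
        show (cm x)^[1] ((cm y)^[2] n) = 1 from hD3 x y y, cm_iter_one]
    · by_cases h1 : i = 1
      · subst h1
        obtain ⟨k, rfl⟩ : ∃ k, i' = k + 2 := ⟨i' - 2, by omega⟩
        rw [Function.iterate_add_apply (cm x) k 2,
          show (cm x)^[2] ((cm y)^[1] n) = 1 from hD3 x x y, cm_iter_one]
      · have h0 : i = 0 := by omega
        subst h0
        obtain ⟨k, rfl⟩ : ∃ k, i' = k + 3 := ⟨i' - 3, by omega⟩
        rw [Function.iterate_add_apply (cm x) k 3,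
          show (cm x)^[3] ((cm y)^[0] n) = 1 from hD3 x x x, cm_iter_one]

theorem mix_el4 (x y n : G)
    (hD4 : ∀ g1 g2 g3 g4 : G, cm g1 (cm g2 (cm g3 (cm g4 n))) = 1) :
    ∀ (i' i : ℕ), 4 ≤ i' + i → (cm x)^[i'] ((cm y)^[i] n) = 1 := by
  intro i' i h
  by_cases h4 : 4 ≤ i
  · obtain ⟨k, rfl⟩ : ∃ k, i = k + 4 := ⟨i - 4, by omega⟩
    rw [Function.iterate_add_apply (cm y) k 4 n,
      show (cm y)^[4] n = 1 from hD4 y y y y, cm_iter_one, cm_iter_one]
  · by_cases h3 : i = 3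
    · subst h3
      obtain ⟨k, rfl⟩ : ∃ k, i' = k + 1 := ⟨i' - 1, by omega⟩
      rw [Function.iterate_add_apply (cm x) k 1,
        show (cm x)^[1] ((cm y)^[3] n) = 1 from hD4 x y y y, cm_iter_one]
    · by_cases h2 : i = 2
      · subst h2
        obtain ⟨k, rfl⟩ : ∃ k, i' = k + 2 := ⟨i' - 2, by omega⟩
        rw [Function.iterate_add_apply (cm x) k 2,
          show (cm x)^[2] ((cm y)^[2] n) = 1 from hD4 x x y y, cm_iter_one]
      · by_cases h1 : i = 1
        · subst h1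
          obtain ⟨k, rfl⟩ : ∃ k, i' = k + 3 := ⟨i' - 3, by omega⟩
          rw [Function.iterate_add_apply (cm x) k 3,
            show (cm x)^[3] ((cm y)^[1] n) = 1 from hD4 x x x y, cm_iter_one]
        · have h0 : i = 0 := by omega
          subst h0
          obtain ⟨k, rfl⟩ : ∃ k, i' = k + 4 := ⟨i' - 4, by omega⟩
          rw [Function.iterate_add_apply (cm x) k 4,
            show (cm x)^[4] ((cm y)^[0] n) = 1 from hD4 x x x x, cm_iter_one]

/-- the numbers `gsum2` of degree at most three determine the product, for letters sent to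
`x` or to powers of `y` -/
theorem prod_eq_of_gsum2 [DecidableEq α] [Fintype α] (N : Subgroup G) [N.Normal]
    (hab : ∀ a ∈ N, ∀ b ∈ N, a * b = b * a) (x y : G) (hc : y * x * y⁻¹ * x⁻¹ ∈ N)
    (hD3 : ∀ n ∈ N, ∀ g1 g2 g3 : G, cm g1 (cm g2 (cm g3 n)) = 1)
    (E : ℕ) (hE : ∀ z : G, z ^ E = 1) (jx jy : α → ℕ)
    (hj : ∀ b, jx b = 0 ∨ (jx b = 1 ∧ jy b = 0)) (w w' : List α)
    (h : ∀ (a : α) (i' i : ℕ), i' + i ≤ 2 →
      gsum2 jx jy a (fun X Y => X.choose i' * Y.choose (i + 1)) 0 0 w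
        ≡ gsum2 jx jy a (fun X Y => X.choose i' * Y.choose (i + 1)) 0 0 w' [MOD E])
    (hx : (w.map jx).sum ≡ (w'.map jx).sum [MOD E])
    (hy : (w.map jy).sum ≡ (w'.map jy).sum [MOD E]) :
    (w.map (fun b => x ^ jx b * y ^ jy b)).prod
      = (w'.map (fun b => x ^ jx b * y ^ jy b)).prod := by
  classical
  let _ : CommGroup N :=
    { (inferInstance : Group N) with
      mul_comm := fun a b => Subtype.ext (hab a a.2 b b.2) }
  let φ : N → N := fun k => ⟨x * k * x⁻¹, (inferInstance : N.Normal).conj_mem k k.2 x⟩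
  let ψ : N → N := fun k => ⟨y * k * y⁻¹, (inferInstance : N.Normal).conj_mem k k.2 y⟩
  let cN : N := ⟨y * x * y⁻¹ * x⁻¹, hc⟩
  have hφ : ∀ a b : N, φ (a * b) = φ a * φ b := by
    intro a b
    apply Subtype.ext
    show x * ((a * b : N) : G) * x⁻¹ = (x * a * x⁻¹) * (x * b * x⁻¹)
    rw [Subgroup.coe_mul]
    group
  have hψ : ∀ a b : N, ψ (a * b) = ψ a * ψ b := by
    intro a b
    apply Subtype.ext
    show y * ((a * b : N) : G) * y⁻¹ = (y * a * y⁻¹) * (y * b * y⁻¹)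
    rw [Subgroup.coe_mul]
    group
  have hDcφ : ∀ (i : ℕ) (k : N), (((fun z : N => φ z * z⁻¹)^[i] k : N) : G)
      = (cm x)^[i] (k : G) := by
    intro i
    induction i with
    | zero => intro k; rfl
    | succ i ih =>
      intro k
      rw [Function.iterate_succ_apply, Function.iterate_succ_apply, ih]
      rfl
  have hDcψ : ∀ (i : ℕ) (k : N), (((fun z : N => ψ z * z⁻¹)^[i] k : N) : G)
      = (cm y)^[i] (k : G) := by
    intro i
    induction i with
    | zero => intro k; rfl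
    | succ i ih =>
      intro k
      rw [Function.iterate_succ_apply, Function.iterate_succ_apply, ih]
      rfl
  have h4φ : ∀ k : N, (fun z : N => φ z * z⁻¹)^[4] k = 1 := by
    intro k
    apply Subtype.ext
    rw [hDcφ 4 k]
    exact mix_one N hD3 x y 4 0 (by norm_num) k k.2
  have h4ψ : ∀ k : N, (fun z : N => ψ z * z⁻¹)^[4] k = 1 := by
    intro k
    apply Subtype.ext
    rw [hDcψ 4 k]
    exact mix_one N hD3 x y 0 4 (by norm_num) k k.2
  have hmix : ∀ i' i : ℕ, 3 ≤ i' + i →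
      (fun z : N => φ z * z⁻¹)^[i'] ((fun z : N => ψ z * z⁻¹)^[i] cN) = 1 := by
    intro i' i hi
    apply Subtype.ext
    rw [hDcφ i', hDcψ i]
    exact mix_one N hD3 x y i' i hi _ cN.2
  have hiterφ : ∀ (C : ℕ) (k : N), ((φ^[C] k : N) : G) = x ^ C * k * (x ^ C)⁻¹ := by
    intro C
    induction C with
    | zero => intro k; simp
    | succ C ih =>
      intro k
      rw [Function.iterate_succ_apply']
      show x * ((φ^[C] k : N) : G) * x⁻¹ = _
      rw [ih, pow_succ']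
      group
  have hm : ∀ Y : ℕ, ((mrec ψ cN Y : N) : G) = y ^ Y * x * (y ^ Y)⁻¹ * x⁻¹ := by
    intro Y
    induction Y with
    | zero => simp [mrec]
    | succ Y ih =>
      show y * ((mrec ψ cN Y : N) : G) * y⁻¹ * (y * x * y⁻¹ * x⁻¹) = _
      rw [ih, pow_succ']
      group
  have key : ∀ (u : List α) (X Y : ℕ),
      x ^ X * y ^ Y * (u.map (fun b => x ^ jx b * y ^ jy b)).prod
        = ((kp2 φ ψ cN jx jy X Y u : N) : G)
          * (x ^ (X + (u.map jx).sum) * y ^ (Y + (u.map jy).sum)) := by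
    intro u
    induction u with
    | nil => intro X Y; simp [kp2]
    | cons b u ih =>
      intro X Y
      simp only [List.map_cons, List.prod_cons, List.sum_cons, kp2]
      rcases hj b with h0 | ⟨h1, h0⟩
      · rw [h0]
        simp only [pow_zero, one_mul, add_zero, zero_add]
        rw [← add_assoc Y, ← ih X (Y + jy b), pow_add]
        simp only [mul_assoc]
      · rw [h1, h0]
        simp only [pow_one, pow_zero, mul_one, add_zero, zero_add]
        rw [Subgroup.coe_mul, hiterφ, hm, ← add_assoc X 1, mul_assoc _ _ (x ^ _ * _),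
          ← ih (X + 1) Y, pow_succ]
        group
  have hEN : ∀ k : N, k ^ E = 1 := fun k => Subtype.ext (by
    rw [Subgroup.coe_pow, hE]
    rfl)
  have e1 : kp2 φ ψ cN jx jy 0 0 w = kp2 φ ψ cN jx jy 0 0 w' :=
    kp2_congr φ ψ hφ hψ h4φ h4ψ cN jx jy E hEN hmix w w' h
  have e2 : x ^ (w.map jx).sum = x ^ (w'.map jx).sum := by
    rw [pow_eq_pow_mod _ (hE x), pow_eq_pow_mod (w'.map jx).sum (hE x)]
    exact congrArg _ hx
  have e3 : y ^ (w.map jy).sum = y ^ (w'.map jy).sum := by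
    rw [pow_eq_pow_mod _ (hE y), pow_eq_pow_mod (w'.map jy).sum (hE y)]
    exact congrArg _ hy
  have k1 := key w 0 0
  have k2 := key w' 0 0
  simp only [pow_zero, one_mul, zero_add] at k1 k2
  rw [k1, k2, e1, e2, e3]

end final2

section main2

theorem sum_modEq {α : Type} [DecidableEq α] [Fintype α] (E : ℕ) [NeZero (36 * E)] (j : α → ℕ)
    {w w' : List α}
    (hst : ∀ (a : α) (v : α → ZMod (36 * E)), (∀ x, v x = 0 ∨ v x = 1 ∨ v x = -1) →
      ∀ t : ZMod (36 * E), (cnt v (fun b => b = a) t 0 w : ZMod (36 * E))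
        = (cnt v (fun b => b = a) t 0 w' : ZMod (36 * E))) :
    (w.map j).sum ≡ (w'.map j).sum [MOD E] := by
  rw [map_sum_gsum j w 0, map_sum_gsum j w' 0, ← ZMod.natCast_eq_natCast_iff]
  push_cast
  refine Finset.sum_congr rfl (fun a _ => ?_)
  rw [(ZMod.natCast_eq_natCast_iff _ _ _).mpr (gsum_modEq E j (hst a) 0 (by norm_num))]

/-- **One letter value and the powers of a second element, commutator in an abelian normal
subgroup with trivial threefold commutators.**  Let `G` be a group of finite exponent, `N` an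
abelian normal subgroup on which all threefold commutators are trivial, and `x`, `y` elements
whose commutator lies in `N`.  If every letter is sent to `x` or to a power of `y`, then the
languages recognised through the letter map have generalized star height at most one. -/
theorem two4_gsh_exp {G α : Type} [Group G] (E : ℕ) (hEpos : 0 < E) (hE : ∀ z : G, z ^ E = 1)
    [Finite α] (N : Subgroup G) [N.Normal]
    (hab : ∀ a ∈ N, ∀ b ∈ N, a * b = b * a) (x y : G) (hc : y * x * y⁻¹ * x⁻¹ ∈ N)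
    (hD3 : ∀ n ∈ N, ∀ g1 g2 g3 : G, cm g1 (cm g2 (cm g3 n)) = 1)
    (f : α → G) (hf : ∀ a, f a = x ∨ ∃ k : ℕ, f a = y ^ k) (T : Set G) :
    HasGSH 1 (fun w : List α => (w.map f).prod ∈ T) := by
  classical
  cases nonempty_fintype α
  have hf' : ∀ a, ∃ p : ℕ × ℕ, f a = x ^ p.1 * y ^ p.2 ∧ (p.1 = 0 ∨ (p.1 = 1 ∧ p.2 = 0)) := by
    intro a
    rcases hf a with h | ⟨k, h⟩
    · exact ⟨(1, 0), by simp [h], Or.inr ⟨rfl, rfl⟩⟩
    · exact ⟨(0, k), by simp [h], Or.inl rfl⟩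
  choose p hp hj using hf'
  have hfn : f = fun b => x ^ (p b).1 * y ^ (p b).2 := funext hp
  have : NeZero (36 * E) := ⟨by omega⟩
  let V : Type := {v : α → ZMod (36 * E) // ∀ x, v x = 0 ∨ v x = 1 ∨ v x = -1}
  let F : α × V × ZMod (36 * E) → List α → ZMod (36 * E) := fun i w =>
    (cnt i.2.1.1 (fun b => b = i.1) i.2.2 0 w : ZMod (36 * E))
  have hF : ∀ i b, HasGSH 1 (fun w => F i w = b) := fun i b =>
    count_pm α (36 * E) i.2.1.1 i.2.1.2 (fun b => b = i.1) (36 * E) i.2.2 b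
  refine HasGSH.of_fun (fun w => (fun i => F i w)) (fun S => HasGSH.pi F hF S) _ ?_
  intro w w' hww' hw
  have hst : ∀ (a : α) (v : α → ZMod (36 * E)), (∀ x, v x = 0 ∨ v x = 1 ∨ v x = -1) →
      ∀ t : ZMod (36 * E), (cnt v (fun b => b = a) t 0 w : ZMod (36 * E))
        = (cnt v (fun b => b = a) t 0 w' : ZMod (36 * E)) :=
    fun a v hv t => congrFun hww' (a, ⟨v, hv⟩, t)
  have hprod : (w.map f).prod = (w'.map f).prod := by
    rw [hfn]
    exact prod_eq_of_gsum2 N hab x y hc hD3 E hE (fun b => (p b).1) (fun b => (p b).2) hj w w'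
      (fun a i' i hi => gsum2_modEq E _ _ (hst a) i' i hi) (sum_modEq E _ hst)
      (sum_modEq E _ hst)
  rw [← hprod]
  exact hw

/-- **Nilpotent groups of class at most four, one letter value and the powers of a second
element.**  If `G` is a finite nilpotent group of class at most four and every letter is sent
to `x` or to a power of `y` (in particular: if the letter map has at most two values other than
the identity), then the languages recognised have generalized star height at most one. -/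
theorem class4_two_gsh {G α : Type} [Group G] [Finite G] [hG : Group.IsNilpotent G]
    (hc : Group.nilpotencyClass G ≤ 4) [Finite α] (x y : G)
    (f : α → G) (hf : ∀ a, f a = x ∨ ∃ k : ℕ, f a = y ^ k) (T : Set G) :
    HasGSH 1 (fun w : List α => (w.map f).prod ∈ T) := by
  have h4 : Subgroup.lowerCentralSeries (⊤ : Subgroup G) 4 = ⊥ :=
    Subgroup.lowerCentralSeries_eq_bot_iff_nilpotencyClass_le.2 hc
  have h4' : ⁅⁅Subgroup.lowerCentralSeries (⊤ : Subgroup G) 2, (⊤ : Subgroup G)⁆,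
      (⊤ : Subgroup G)⁆ = ⊥ := h4
  have hKL : ⁅⁅(⊤ : Subgroup G), (⊤ : Subgroup G)⁆,
      Subgroup.lowerCentralSeries (⊤ : Subgroup G) 2⁆ = ⊥ := by
    have h1 : ⁅⁅(⊤ : Subgroup G), Subgroup.lowerCentralSeries (⊤ : Subgroup G) 2⁆,
        (⊤ : Subgroup G)⁆ = ⊥ := by
      rw [Subgroup.commutator_comm (⊤ : Subgroup G)]
      exact h4'
    exact Subgroup.commutator_commutator_eq_bot_of_rotate h1 h4'
  have hcen : ∀ k ∈ Subgroup.lowerCentralSeries (⊤ : Subgroup G) 1,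
      ∀ d ∈ Subgroup.lowerCentralSeries (⊤ : Subgroup G) 2, Commute k d := by
    intro k hk d hd
    have h1 := Subgroup.commutator_eq_bot_iff_le_centralizer.1 hKL hk
    exact (Subgroup.mem_centralizer_iff.1 h1 d hd).symm
  have h21 : Subgroup.lowerCentralSeries (⊤ : Subgroup G) 2
      ≤ Subgroup.lowerCentralSeries (⊤ : Subgroup G) 1 :=
    Subgroup.lowerCentralSeries_antitone _ (by norm_num)
  have hstep : ∀ (i : ℕ) (g z : G), z ∈ Subgroup.lowerCentralSeries (⊤ : Subgroup G) i →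
      cm g z ∈ Subgroup.lowerCentralSeries (⊤ : Subgroup G) (i + 1) := by
    intro i g z hz
    have h1 : z * g * z⁻¹ * g⁻¹ ∈ ⁅Subgroup.lowerCentralSeries (⊤ : Subgroup G) i,
        (⊤ : Subgroup G)⁆ := Subgroup.commutator_mem_commutator hz (Subgroup.mem_top g)
    have e : cm g z = (z * g * z⁻¹ * g⁻¹)⁻¹ := by
      unfold cm
      group
    rw [e]
    exact Subgroup.inv_mem _ h1
  have hc1 : y * x * y⁻¹ * x⁻¹ ∈ Subgroup.lowerCentralSeries (⊤ : Subgroup G) 1 :=
    Subgroup.commutator_mem_commutator (Subgroup.mem_top y) (Subgroup.mem_top x)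
  have hex : ∀ c : G, c ∈ Subgroup.lowerCentralSeries (⊤ : Subgroup G) 1 →
      ∃ N : Subgroup G, N.Normal ∧ (∀ a ∈ N, ∀ b ∈ N, a * b = b * a) ∧ c ∈ N
        ∧ N ≤ Subgroup.lowerCentralSeries (⊤ : Subgroup G) 1 := by
    intro c hc1
    have hz1 : Subgroup.zpowers c ≤ Subgroup.lowerCentralSeries (⊤ : Subgroup G) 1 :=
      (Subgroup.zpowers_le).2 hc1
    have hmem : ∀ n : G, n ∈ Subgroup.zpowers c ⊔ Subgroup.lowerCentralSeries (⊤ : Subgroup G) 2
        ↔ ∃ a ∈ Subgroup.zpowers c, ∃ d ∈ Subgroup.lowerCentralSeries (⊤ : Subgroup G) 2,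
          a * d = n :=
      fun n => Subgroup.mem_sup_of_normal_right
    refine ⟨Subgroup.zpowers c ⊔ Subgroup.lowerCentralSeries (⊤ : Subgroup G) 2, ?_, ?_,
      Subgroup.mem_sup_left (Subgroup.mem_zpowers c), sup_le hz1 h21⟩
    · refine ⟨fun n hn g => ?_⟩
      obtain ⟨a, ha, d, hd, rfl⟩ := (hmem n).1 hn
      have ha1 : a ∈ Subgroup.lowerCentralSeries (⊤ : Subgroup G) 1 := hz1 ha
      have h1 : a⁻¹ * g * a⁻¹⁻¹ * g⁻¹ ∈ ⁅Subgroup.lowerCentralSeries (⊤ : Subgroup G) 1,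
          (⊤ : Subgroup G)⁆ :=
        Subgroup.commutator_mem_commutator (Subgroup.inv_mem _ ha1) (Subgroup.mem_top g)
      have h2 : g * d * g⁻¹ ∈ Subgroup.lowerCentralSeries (⊤ : Subgroup G) 2 :=
        (inferInstance : (Subgroup.lowerCentralSeries (⊤ : Subgroup G) 2).Normal).conj_mem d hd g
      have e : g * (a * d) * g⁻¹ = a * ((a⁻¹ * g * a⁻¹⁻¹ * g⁻¹) * (g * d * g⁻¹)) := by group
      rw [e]
      exact (hmem _).2 ⟨a, ha, _, Subgroup.mul_mem _ h1 h2, rfl⟩
    · intro n hn n' hn'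
      obtain ⟨a, ha, d, hd, rfl⟩ := (hmem n).1 hn
      obtain ⟨a', ha', d', hd', rfl⟩ := (hmem n').1 hn'
      have c1 : Commute a a' := by
        obtain ⟨k, rfl⟩ := Subgroup.mem_zpowers_iff.1 ha
        obtain ⟨l, rfl⟩ := Subgroup.mem_zpowers_iff.1 ha'
        exact (Commute.refl c).zpow_zpow k l
      have c2 : Commute a d' := hcen a (hz1 ha) d' hd'
      have c3 : Commute d a' := (hcen a' (hz1 ha') d hd).symm
      have c4 : Commute d d' := hcen d (h21 hd) d' hd'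
      exact ((c1.mul_right c2).mul_left (c3.mul_right c4)).eq
  obtain ⟨N, hnorm, hab, hcN, hN1⟩ := hex _ hc1
  have hD3 : ∀ n ∈ N, ∀ g1 g2 g3 : G, cm g1 (cm g2 (cm g3 n)) = 1 := by
    intro n hn g1 g2 g3
    have h : cm g1 (cm g2 (cm g3 n)) ∈ Subgroup.lowerCentralSeries (⊤ : Subgroup G) 4 :=
      hstep 3 g1 _ (hstep 2 g2 _ (hstep 1 g3 n (hN1 hn)))
    rw [h4] at h
    exact Subgroup.mem_bot.mp h
  exact two4_gsh_exp (Nat.card G) Nat.card_pos (fun _ => pow_card_eq_one') N hab x y hcN hD3 f hf T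

end main2

section det3

variable {α : Type} [DecidableEq α] [Fintype α] (E : ℕ) [NeZero (36 * E)] (jx jy : α → ℕ) {a : α}
  {w w' : List α}

/-- the products of binomial coefficients of the two counters of total degree at most three -/
theorem gsum2_modEq'
    (hst : ∀ v : α → ZMod (36 * E), (∀ x, v x = 0 ∨ v x = 1 ∨ v x = -1) → ∀ t : ZMod (36 * E),
      (cnt v (fun b => b = a) t 0 w : ZMod (36 * E))
        = (cnt v (fun b => b = a) t 0 w' : ZMod (36 * E)))
    (i' i : ℕ) (hi : i' + i ≤ 3) :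
    gsum2 jx jy a (fun X Y => X.choose i' * Y.choose i) 0 0 w
      ≡ gsum2 jx jy a (fun X Y => X.choose i' * Y.choose i) 0 0 w' [MOD E] := by
  by_cases h0 : i = 0
  · subst h0
    have h00 : i' = 3 ∨ i' = 0 ∨ i' = 1 ∨ i' = 2 := by omega
    rcases h00 with rfl | rfl | rfl | rfl
    · refine det_aux E jx jy 6 6 1 rfl _
        (fun y => sfun (36 * E) jx y * (sfun (36 * E) jx y - 1) * (sfun (36 * E) jx y - 2))
        ?_ ?_
      · intro X Y c hX hY
        show ((6 * (X.choose 3 * Y.choose 0) : ℕ) : ZMod (36 * E))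
          = sfun (36 * E) jx c * (sfun (36 * E) jx c - 1) * (sfun (36 * E) jx c - 2)
        rw [hX, Nat.choose_zero_right, mul_one, choose_three_cast]
      · exact (Gd.t3 (j := jx) hst).of_eq (fun y => by simp)
    · refine det_aux E jx jy 1 1 36 rfl _ (fun _ => 1) ?_ ?_
      · intro X Y c hX hY
        simp
      · exact (Gd.one hst a (fun _ => 1)).of_eq (fun y => by simp)
    · refine det_aux E jx jy 1 1 36 rfl _ (fun y => sfun (36 * E) jx y) ?_ ?_
      · intro X Y c hX hY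
        show ((1 * (X.choose 1 * Y.choose 0) : ℕ) : ZMod (36 * E)) = sfun (36 * E) jx c
        rw [hX]
        simp
      · exact (Gd.s1 (j := jx) hst).of_eq (fun y => by simp)
    · refine det_aux E jx jy 2 2 9 rfl _
        (fun y => sfun (36 * E) jx y * (sfun (36 * E) jx y - 1)) ?_ ?_
      · intro X Y c hX hY
        show ((2 * (X.choose 2 * Y.choose 0) : ℕ) : ZMod (36 * E))
          = sfun (36 * E) jx c * (sfun (36 * E) jx c - 1)
        rw [hX, Nat.choose_zero_right, mul_one, choose_two_cast]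
      · exact (Gd.t2 (j := jx) hst).of_eq (fun y => by simp)
  · obtain ⟨k, rfl⟩ : ∃ k, i = k + 1 := ⟨i - 1, by omega⟩
    exact gsum2_modEq E jx jy hst i' k (by omega)

end det3

section comm3

variable {K α : Type} [CommGroup K]

theorem D_prod (φ : K → K) (hφ : ∀ x y, φ (x * y) = φ x * φ y) (i' : ℕ) (s : Finset ℕ)
    (b : ℕ → K) (e : ℕ → ℕ) :
    (fun x => φ x * x⁻¹)^[i'] (∏ i ∈ s, b i ^ e i)
      = ∏ i ∈ s, ((fun x => φ x * x⁻¹)^[i'] (b i)) ^ e i := by
  have hDφ : ∀ x y : K, (fun x => φ x * x⁻¹) (x * y)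
      = (fun x => φ x * x⁻¹) x * (fun x => φ x * x⁻¹) y := by
    intro x y
    show φ (x * y) * (x * y)⁻¹ = φ x * x⁻¹ * (φ y * y⁻¹)
    rw [hφ, mul_inv]
    ac_rfl
  refine (map_prod (MonoidHom.mk' ((fun x => φ x * x⁻¹)^[i'])
    (iter_mul _ hDφ i')) _ s).trans (Finset.prod_congr rfl (fun i _ => ?_))
  exact map_pow (MonoidHom.mk' ((fun x => φ x * x⁻¹)^[i']) (iter_mul _ hDφ i')) _ _

theorem phi_prod (φ : K → K) (hφ : ∀ x y, φ (x * y) = φ x * φ y)
    (h4φ : ∀ k : K, (fun x => φ x * x⁻¹)^[4] k = 1) (b : ℕ → K) (e : ℕ → ℕ) (X : ℕ) :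
    φ^[X] (∏ i ∈ Finset.range 4, b i ^ e i)
      = ∏ i' ∈ Finset.range 4, ∏ i ∈ Finset.range 4,
        ((fun x => φ x * x⁻¹)^[i'] (b i)) ^ (X.choose i' * e i) := by
  rw [iter_unip φ hφ h4φ X]
  refine Finset.prod_congr rfl (fun i' _ => ?_)
  rw [D_prod φ hφ i', ← Finset.prod_pow]
  refine Finset.prod_congr rfl (fun i _ => ?_)
  rw [← pow_mul, mul_comm (e i)]

/-- the hockey stick identity for the powers of a map whose fourth difference vanishes -/
theorem prange_eq (φ : K → K) (hφ : ∀ x y, φ (x * y) = φ x * φ y)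
    (h4 : ∀ k : K, (fun x => φ x * x⁻¹)^[4] k = 1) (m : K) (J : ℕ) :
    ∏ s ∈ Finset.range J, φ^[s] m
      = ∏ i ∈ Finset.range 4, ((fun x => φ x * x⁻¹)^[i] m) ^ (J.choose (i + 1)) := by
  induction J with
  | zero => simp
  | succ J ih =>
    rw [Finset.prod_range_succ, ih, iter_unip φ hφ h4 J m, ← Finset.prod_mul_distrib]
    refine Finset.prod_congr rfl (fun i _ => ?_)
    rw [← pow_add]
    congr 1
    rw [Nat.choose_succ_succ' J i]
    omega

theorem phi_psi (φ ψ : K → K) (hφ : ∀ x y, φ (x * y) = φ x * φ y)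
    (hψ : ∀ x y, ψ (x * y) = ψ x * ψ y)
    (h4φ : ∀ k : K, (fun x => φ x * x⁻¹)^[4] k = 1)
    (h4ψ : ∀ k : K, (fun x => ψ x * x⁻¹)^[4] k = 1) (n : K) (X Y : ℕ) :
    φ^[X] (ψ^[Y] n) = ∏ i' ∈ Finset.range 4, ∏ i ∈ Finset.range 4,
      ((fun x => φ x * x⁻¹)^[i'] ((fun x => ψ x * x⁻¹)^[i] n)) ^ (X.choose i' * Y.choose i) := by
  rw [iter_unip ψ hψ h4ψ Y n]
  exact phi_prod φ hφ h4φ (fun i => (fun x => ψ x * x⁻¹)^[i] n) (fun i => Y.choose i) X

theorem phi_triple (φ ψ : K → K) (hφ : ∀ x y, φ (x * y) = φ x * φ y)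
    (hψ : ∀ x y, ψ (x * y) = ψ x * ψ y)
    (h4φ : ∀ k : K, (fun x => φ x * x⁻¹)^[4] k = 1)
    (h4ψ : ∀ k : K, (fun x => ψ x * x⁻¹)^[4] k = 1) (c : K) (J X Y : ℕ) :
    φ^[X] (∏ s ∈ Finset.range J, φ^[s] (mrec ψ c Y))
      = ∏ i' ∈ Finset.range 4, ∏ i'' ∈ Finset.range 4, ∏ i ∈ Finset.range 4,
        ((fun x => φ x * x⁻¹)^[i'] ((fun x => φ x * x⁻¹)^[i''] ((fun x => ψ x * x⁻¹)^[i] c)))
          ^ (J.choose (i'' + 1) * (X.choose i' * Y.choose (i + 1))) := by
  rw [prange_eq φ hφ h4φ, phi_prod φ hφ h4φ (fun i'' => (fun x => φ x * x⁻¹)^[i''] (mrec ψ c Y))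
    (fun i'' => J.choose (i'' + 1)) X]
  refine Finset.prod_congr rfl (fun i' _ => Finset.prod_congr rfl (fun i'' _ => ?_))
  rw [mrec_eq ψ hψ h4ψ c Y, D_prod φ hφ i'', D_prod φ hφ i', ← Finset.prod_pow]
  refine Finset.prod_congr rfl (fun i _ => ?_)
  rw [← pow_mul]
  congr 1
  ring

/-- the contributions of the parts of the letters in the abelian normal subgroup -/
def kpA (φ ψ : K → K) (n : α → K) (jx jy : α → ℕ) : ℕ → ℕ → List α → K
  | _, _, [] => 1
  | X, Y, b :: w => φ^[X] (ψ^[Y] (n b)) * kpA φ ψ n jx jy (X + jx b) (Y + jy b) w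

/-- the contributions of the commutators of the powers of the two elements -/
def kpB (φ ψ : K → K) (c : K) (jx jy : α → ℕ) : ℕ → ℕ → List α → K
  | _, _, [] => 1
  | X, Y, b :: w => φ^[X] (∏ s ∈ Finset.range (jx b), φ^[s] (mrec ψ c Y))
      * kpB φ ψ c jx jy (X + jx b) (Y + jy b) w

theorem kpA_eq [DecidableEq α] [Fintype α] (φ ψ : K → K) (hφ : ∀ x y, φ (x * y) = φ x * φ y)
    (hψ : ∀ x y, ψ (x * y) = ψ x * ψ y)
    (h4φ : ∀ k : K, (fun x => φ x * x⁻¹)^[4] k = 1)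
    (h4ψ : ∀ k : K, (fun x => ψ x * x⁻¹)^[4] k = 1) (n : α → K) (jx jy : α → ℕ) :
    ∀ (w : List α) (X Y : ℕ), kpA φ ψ n jx jy X Y w
      = ∏ a : α, ∏ i' ∈ Finset.range 4, ∏ i ∈ Finset.range 4,
        ((fun x => φ x * x⁻¹)^[i'] ((fun x => ψ x * x⁻¹)^[i] (n a)))
          ^ (gsum2 jx jy a (fun X Y => X.choose i' * Y.choose i) X Y w) := by
  intro w
  induction w with
  | nil => intro X Y; simp [kpA, gsum2]
  | cons b w ih =>
    intro X Y
    simp only [kpA, gsum2, pow_add, Finset.prod_mul_distrib]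
    rw [ih (X + jx b) (Y + jy b)]
    congr 1
    rw [Finset.prod_eq_single b]
    · simp only [if_true]
      exact phi_psi φ ψ hφ hψ h4φ h4ψ (n b) X Y
    · intro x _ hx
      have hbx : ¬ b = x := fun h => hx h.symm
      simp [hbx]
    · intro h
      exact absurd (Finset.mem_univ b) h

theorem kpB_eq [DecidableEq α] [Fintype α] (φ ψ : K → K) (hφ : ∀ x y, φ (x * y) = φ x * φ y)
    (hψ : ∀ x y, ψ (x * y) = ψ x * ψ y)
    (h4φ : ∀ k : K, (fun x => φ x * x⁻¹)^[4] k = 1)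
    (h4ψ : ∀ k : K, (fun x => ψ x * x⁻¹)^[4] k = 1) (c : K) (jx jy : α → ℕ) :
    ∀ (w : List α) (X Y : ℕ), kpB φ ψ c jx jy X Y w
      = ∏ a : α, ∏ i' ∈ Finset.range 4, ∏ i'' ∈ Finset.range 4, ∏ i ∈ Finset.range 4,
        ((fun x => φ x * x⁻¹)^[i'] ((fun x => φ x * x⁻¹)^[i''] ((fun x => ψ x * x⁻¹)^[i] c)))
          ^ ((jx a).choose (i'' + 1)
            * gsum2 jx jy a (fun X Y => X.choose i' * Y.choose (i + 1)) X Y w) := by
  intro w
  induction w with
  | nil => intro X Y; simp [kpB, gsum2]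
  | cons b w ih =>
    intro X Y
    simp only [kpB, gsum2, mul_add, pow_add, Finset.prod_mul_distrib]
    rw [ih (X + jx b) (Y + jy b)]
    congr 1
    rw [Finset.prod_eq_single b]
    · simp only [if_true]
      exact phi_triple φ ψ hφ hψ h4φ h4ψ c (jx b) X Y
    · intro x _ hx
      have hbx : ¬ b = x := fun h => hx h.symm
      simp [hbx]
    · intro h
      exact absurd (Finset.mem_univ b) h

theorem kpA_congr [DecidableEq α] [Fintype α] (φ ψ : K → K)
    (hφ : ∀ x y, φ (x * y) = φ x * φ y) (hψ : ∀ x y, ψ (x * y) = ψ x * ψ y)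
    (h4φ : ∀ k : K, (fun x => φ x * x⁻¹)^[4] k = 1)
    (h4ψ : ∀ k : K, (fun x => ψ x * x⁻¹)^[4] k = 1) (n : α → K) (jx jy : α → ℕ) (E : ℕ)
    (hE : ∀ k : K, k ^ E = 1)
    (hmix : ∀ (a : α) (i' i : ℕ), 4 ≤ i' + i →
      (fun x => φ x * x⁻¹)^[i'] ((fun x => ψ x * x⁻¹)^[i] (n a)) = 1)
    (w w' : List α)
    (h : ∀ (a : α) (i' i : ℕ), i' + i ≤ 3 →
      gsum2 jx jy a (fun X Y => X.choose i' * Y.choose i) 0 0 w
        ≡ gsum2 jx jy a (fun X Y => X.choose i' * Y.choose i) 0 0 w' [MOD E]) :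
    kpA φ ψ n jx jy 0 0 w = kpA φ ψ n jx jy 0 0 w' := by
  rw [kpA_eq φ ψ hφ hψ h4φ h4ψ, kpA_eq φ ψ hφ hψ h4φ h4ψ]
  refine Finset.prod_congr rfl (fun a _ => Finset.prod_congr rfl (fun i' _ =>
    Finset.prod_congr rfl (fun i _ => ?_)))
  by_cases hi : 4 ≤ i' + i
  · rw [hmix a i' i hi, one_pow, one_pow]
  · rw [pow_eq_pow_mod _ (hE _), pow_eq_pow_mod
      (gsum2 jx jy a (fun X Y => X.choose i' * Y.choose i) 0 0 w') (hE _)]
    exact congrArg _ (h a i' i (by omega))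

theorem kpB_congr [DecidableEq α] [Fintype α] (φ ψ : K → K)
    (hφ : ∀ x y, φ (x * y) = φ x * φ y) (hψ : ∀ x y, ψ (x * y) = ψ x * ψ y)
    (h4φ : ∀ k : K, (fun x => φ x * x⁻¹)^[4] k = 1)
    (h4ψ : ∀ k : K, (fun x => ψ x * x⁻¹)^[4] k = 1) (c : K) (jx jy : α → ℕ) (E : ℕ)
    (hE : ∀ k : K, k ^ E = 1)
    (hmix : ∀ i' i'' i : ℕ, 3 ≤ i' + i'' + i →
      (fun x => φ x * x⁻¹)^[i'] ((fun x => φ x * x⁻¹)^[i''] ((fun x => ψ x * x⁻¹)^[i] c)) = 1)
    (w w' : List α)
    (h : ∀ (a : α) (i' i : ℕ), i' + i ≤ 2 →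
      gsum2 jx jy a (fun X Y => X.choose i' * Y.choose (i + 1)) 0 0 w
        ≡ gsum2 jx jy a (fun X Y => X.choose i' * Y.choose (i + 1)) 0 0 w' [MOD E]) :
    kpB φ ψ c jx jy 0 0 w = kpB φ ψ c jx jy 0 0 w' := by
  rw [kpB_eq φ ψ hφ hψ h4φ h4ψ, kpB_eq φ ψ hφ hψ h4φ h4ψ]
  refine Finset.prod_congr rfl (fun a _ => Finset.prod_congr rfl (fun i' _ =>
    Finset.prod_congr rfl (fun i'' _ => Finset.prod_congr rfl (fun i _ => ?_))))
  by_cases hi : 3 ≤ i' + i'' + i
  · rw [hmix i' i'' i hi, one_pow, one_pow]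
  · rw [pow_eq_pow_mod _ (hE _), pow_eq_pow_mod ((jx a).choose (i'' + 1)
      * gsum2 jx jy a (fun X Y => X.choose i' * Y.choose (i + 1)) 0 0 w') (hE _)]
    exact congrArg _ ((h a i' i (by omega)).mul_left ((jx a).choose (i'' + 1)))

end comm3

section final3

variable {G α : Type} [Group G]

/-- the numbers `gsum2` of degree at most three determine the product, for letters of the form
`n x ^ i y ^ j` with `n` in the abelian normal subgroup -/
theorem prod_eq_of_gsum3 [DecidableEq α] [Fintype α] (N : Subgroup G) [N.Normal]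
    (hab : ∀ a ∈ N, ∀ b ∈ N, a * b = b * a) (x y : G) (hc : y * x * y⁻¹ * x⁻¹ ∈ N)
    (hD4 : ∀ n ∈ N, ∀ g1 g2 g3 g4 : G, cm g1 (cm g2 (cm g3 (cm g4 n))) = 1)
    (hD3 : ∀ g1 g2 g3 : G, cm g1 (cm g2 (cm g3 (y * x * y⁻¹ * x⁻¹))) = 1)
    (E : ℕ) (hE : ∀ z : G, z ^ E = 1) (n : α → N) (jx jy : α → ℕ) (w w' : List α)
    (hA : ∀ (a : α) (i' i : ℕ), i' + i ≤ 3 →
      gsum2 jx jy a (fun X Y => X.choose i' * Y.choose i) 0 0 w
        ≡ gsum2 jx jy a (fun X Y => X.choose i' * Y.choose i) 0 0 w' [MOD E])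
    (hB : ∀ (a : α) (i' i : ℕ), i' + i ≤ 2 →
      gsum2 jx jy a (fun X Y => X.choose i' * Y.choose (i + 1)) 0 0 w
        ≡ gsum2 jx jy a (fun X Y => X.choose i' * Y.choose (i + 1)) 0 0 w' [MOD E])
    (hx : (w.map jx).sum ≡ (w'.map jx).sum [MOD E])
    (hy : (w.map jy).sum ≡ (w'.map jy).sum [MOD E]) :
    (w.map (fun b => (n b : G) * (x ^ jx b * y ^ jy b))).prod
      = (w'.map (fun b => (n b : G) * (x ^ jx b * y ^ jy b))).prod := by
  classical
  let _ : CommGroup N :=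
    { (inferInstance : Group N) with
      mul_comm := fun a b => Subtype.ext (hab a a.2 b b.2) }
  let φ : N → N := fun k => ⟨x * k * x⁻¹, (inferInstance : N.Normal).conj_mem k k.2 x⟩
  let ψ : N → N := fun k => ⟨y * k * y⁻¹, (inferInstance : N.Normal).conj_mem k k.2 y⟩
  let cN : N := ⟨y * x * y⁻¹ * x⁻¹, hc⟩
  have hφ : ∀ a b : N, φ (a * b) = φ a * φ b := by
    intro a b
    apply Subtype.ext
    show x * ((a * b : N) : G) * x⁻¹ = (x * a * x⁻¹) * (x * b * x⁻¹)
    rw [Subgroup.coe_mul]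
    group
  have hψ : ∀ a b : N, ψ (a * b) = ψ a * ψ b := by
    intro a b
    apply Subtype.ext
    show y * ((a * b : N) : G) * y⁻¹ = (y * a * y⁻¹) * (y * b * y⁻¹)
    rw [Subgroup.coe_mul]
    group
  have hDcφ : ∀ (i : ℕ) (k : N), (((fun z : N => φ z * z⁻¹)^[i] k : N) : G)
      = (cm x)^[i] (k : G) := by
    intro i
    induction i with
    | zero => intro k; rfl
    | succ i ih =>
      intro k
      rw [Function.iterate_succ_apply, Function.iterate_succ_apply, ih]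
      rfl
  have hDcψ : ∀ (i : ℕ) (k : N), (((fun z : N => ψ z * z⁻¹)^[i] k : N) : G)
      = (cm y)^[i] (k : G) := by
    intro i
    induction i with
    | zero => intro k; rfl
    | succ i ih =>
      intro k
      rw [Function.iterate_succ_apply, Function.iterate_succ_apply, ih]
      rfl
  have h4φ : ∀ k : N, (fun z : N => φ z * z⁻¹)^[4] k = 1 := by
    intro k
    apply Subtype.ext
    rw [hDcφ 4 k]
    exact mix_el4 x y k (hD4 k k.2) 4 0 (by norm_num)
  have h4ψ : ∀ k : N, (fun z : N => ψ z * z⁻¹)^[4] k = 1 := by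
    intro k
    apply Subtype.ext
    rw [hDcψ 4 k]
    exact mix_el4 x y k (hD4 k k.2) 0 4 (by norm_num)
  have hmix : ∀ (k : N) (i' i : ℕ), 4 ≤ i' + i →
      (fun z : N => φ z * z⁻¹)^[i'] ((fun z : N => ψ z * z⁻¹)^[i] k) = 1 := by
    intro k i' i hi
    apply Subtype.ext
    rw [hDcφ i', hDcψ i]
    exact mix_el4 x y k (hD4 k k.2) i' i hi
  have hmixc : ∀ (i' i : ℕ), 3 ≤ i' + i →
      (fun z : N => φ z * z⁻¹)^[i'] ((fun z : N => ψ z * z⁻¹)^[i] cN) = 1 := by
    intro i' i hi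
    apply Subtype.ext
    rw [hDcφ i', hDcψ i]
    exact mix_el3 x y _ hD3 i' i hi
  have hmixB : ∀ i' i'' i : ℕ, 3 ≤ i' + i'' + i →
      (fun z : N => φ z * z⁻¹)^[i'] ((fun z : N => φ z * z⁻¹)^[i'']
        ((fun z : N => ψ z * z⁻¹)^[i] cN)) = 1 := by
    intro i' i'' i hi
    rw [← Function.iterate_add_apply]
    exact hmixc (i' + i'') i hi
  have hiterφ : ∀ (C : ℕ) (k : N), ((φ^[C] k : N) : G) = x ^ C * k * (x ^ C)⁻¹ := by
    intro C
    induction C with
    | zero => intro k; simp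
    | succ C ih =>
      intro k
      rw [Function.iterate_succ_apply']
      show x * ((φ^[C] k : N) : G) * x⁻¹ = _
      rw [ih, pow_succ']
      group
  have hiterψ : ∀ (C : ℕ) (k : N), ((ψ^[C] k : N) : G) = y ^ C * k * (y ^ C)⁻¹ := by
    intro C
    induction C with
    | zero => intro k; simp
    | succ C ih =>
      intro k
      rw [Function.iterate_succ_apply']
      show y * ((ψ^[C] k : N) : G) * y⁻¹ = _
      rw [ih, pow_succ']
      group
  have hm : ∀ Y : ℕ, ((mrec ψ cN Y : N) : G) = y ^ Y * x * (y ^ Y)⁻¹ * x⁻¹ := by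
    intro Y
    induction Y with
    | zero => simp [mrec]
    | succ Y ih =>
      show y * ((mrec ψ cN Y : N) : G) * y⁻¹ * (y * x * y⁻¹ * x⁻¹) = _
      rw [ih, pow_succ']
      group
  have hM : ∀ J Y : ℕ, ((∏ s ∈ Finset.range J, φ^[s] (mrec ψ cN Y) : N) : G)
      = y ^ Y * x ^ J * (y ^ Y)⁻¹ * (x ^ J)⁻¹ := by
    intro J Y
    induction J with
    | zero => simp
    | succ J ih =>
      rw [Finset.prod_range_succ, Subgroup.coe_mul, ih, hiterφ, hm, pow_succ]
      group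
  have step : ∀ (b : α) (X Y : ℕ),
      x ^ X * y ^ Y * ((n b : G) * (x ^ jx b * y ^ jy b))
        = ((φ^[X] (ψ^[Y] (n b))
            * φ^[X] (∏ s ∈ Finset.range (jx b), φ^[s] (mrec ψ cN Y)) : N) : G)
          * (x ^ (X + jx b) * y ^ (Y + jy b)) := by
    intro b X Y
    rw [Subgroup.coe_mul, hiterφ, hiterφ, hiterψ, hM, pow_add, pow_add]
    group
  have key : ∀ (u : List α) (X Y : ℕ),
      x ^ X * y ^ Y * (u.map (fun b => (n b : G) * (x ^ jx b * y ^ jy b))).prod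
        = ((kpA φ ψ n jx jy X Y u * kpB φ ψ cN jx jy X Y u : N) : G)
          * (x ^ (X + (u.map jx).sum) * y ^ (Y + (u.map jy).sum)) := by
    intro u
    induction u with
    | nil => intro X Y; simp [kpA, kpB]
    | cons b u ih =>
      intro X Y
      have e : kpA φ ψ n jx jy X Y (b :: u) * kpB φ ψ cN jx jy X Y (b :: u)
          = (φ^[X] (ψ^[Y] (n b)) * φ^[X] (∏ s ∈ Finset.range (jx b), φ^[s] (mrec ψ cN Y)))
            * (kpA φ ψ n jx jy (X + jx b) (Y + jy b) u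
              * kpB φ ψ cN jx jy (X + jx b) (Y + jy b) u) := mul_mul_mul_comm _ _ _ _
      have hstep := step b X Y
      have hih := ih (X + jx b) (Y + jy b)
      rw [e, Subgroup.coe_mul]
      simp only [List.map_cons, List.prod_cons, List.sum_cons]
      rw [← mul_assoc (x ^ X * y ^ Y), hstep, mul_assoc, hih, ← mul_assoc, add_assoc, add_assoc]
  have hEN : ∀ k : N, k ^ E = 1 := fun k => Subtype.ext (by
    rw [Subgroup.coe_pow, hE]
    rfl)
  have e1 : kpA φ ψ n jx jy 0 0 w = kpA φ ψ n jx jy 0 0 w' :=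
    kpA_congr φ ψ hφ hψ h4φ h4ψ n jx jy E hEN (fun a => hmix (n a)) w w' hA
  have e1' : kpB φ ψ cN jx jy 0 0 w = kpB φ ψ cN jx jy 0 0 w' :=
    kpB_congr φ ψ hφ hψ h4φ h4ψ cN jx jy E hEN hmixB w w' hB
  have e2 : x ^ (w.map jx).sum = x ^ (w'.map jx).sum := by
    rw [pow_eq_pow_mod _ (hE x), pow_eq_pow_mod (w'.map jx).sum (hE x)]
    exact congrArg _ hx
  have e3 : y ^ (w.map jy).sum = y ^ (w'.map jy).sum := by
    rw [pow_eq_pow_mod _ (hE y), pow_eq_pow_mod (w'.map jy).sum (hE y)]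
    exact congrArg _ hy
  have k1 := key w 0 0
  have k2 := key w' 0 0
  simp only [pow_zero, one_mul, zero_add] at k1 k2
  rw [k1, k2, e1, e1', e2, e3]

/-- every element of the subgroup generated by `x` and `y` lies in a coset `N x ^ i y ^ j` -/
theorem closure_two_mem (E : ℕ) (hEpos : 0 < E) (hE : ∀ z : G, z ^ E = 1)
    (N : Subgroup G) [hN : N.Normal] (x y : G) (hc : y * x * y⁻¹ * x⁻¹ ∈ N) (h : G)
    (hh : h ∈ Subgroup.closure ({x, y} : Set G)) : ∃ i j : ℕ, h * (x ^ i * y ^ j)⁻¹ ∈ N := by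
  have hm1 : ∀ Y : ℕ, y ^ Y * x * (y ^ Y)⁻¹ * x⁻¹ ∈ N := by
    intro Y
    induction Y with
    | zero => simp
    | succ Y ih =>
      have e : y ^ (Y + 1) * x * (y ^ (Y + 1))⁻¹ * x⁻¹
          = (y * (y ^ Y * x * (y ^ Y)⁻¹ * x⁻¹) * y⁻¹) * (y * x * y⁻¹ * x⁻¹) := by
        rw [pow_succ']
        group
      rw [e]
      exact N.mul_mem (hN.conj_mem _ ih y) hc
  have hm : ∀ J Y : ℕ, y ^ Y * x ^ J * (y ^ Y)⁻¹ * (x ^ J)⁻¹ ∈ N := by
    intro J Y
    induction J with
    | zero => simp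
    | succ J ih =>
      have e : y ^ Y * x ^ (J + 1) * (y ^ Y)⁻¹ * (x ^ (J + 1))⁻¹
          = (y ^ Y * x ^ J * (y ^ Y)⁻¹ * (x ^ J)⁻¹)
            * (x ^ J * (y ^ Y * x * (y ^ Y)⁻¹ * x⁻¹) * (x ^ J)⁻¹) := by
        rw [pow_succ]
        group
      rw [e]
      exact N.mul_mem ih (hN.conj_mem _ (hm1 Y) _)
  have hmul : ∀ h1 h2 : G, (∃ i j : ℕ, h1 * (x ^ i * y ^ j)⁻¹ ∈ N) →
      (∃ i j : ℕ, h2 * (x ^ i * y ^ j)⁻¹ ∈ N) →
      ∃ i j : ℕ, h1 * h2 * (x ^ i * y ^ j)⁻¹ ∈ N := by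
    rintro h1 h2 ⟨i, j, h1m⟩ ⟨i', j', h2m⟩
    refine ⟨i + i', j + j', ?_⟩
    have e : h1 * h2 * (x ^ (i + i') * y ^ (j + j'))⁻¹
        = (h1 * (x ^ i * y ^ j)⁻¹)
          * ((x ^ i * y ^ j) * (h2 * (x ^ i' * y ^ j')⁻¹) * (x ^ i * y ^ j)⁻¹)
          * (x ^ i * (y ^ j * x ^ i' * (y ^ j)⁻¹ * (x ^ i')⁻¹) * (x ^ i)⁻¹) := by
      rw [pow_add, pow_add]
      group
    rw [e]
    exact N.mul_mem (N.mul_mem h1m (hN.conj_mem _ h2m _)) (hN.conj_mem _ (hm i' j) _)
  have hpow : ∀ (h1 : G), (∃ i j : ℕ, h1 * (x ^ i * y ^ j)⁻¹ ∈ N) →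
      ∀ k : ℕ, ∃ i j : ℕ, h1 ^ k * (x ^ i * y ^ j)⁻¹ ∈ N := by
    intro h1 hh1 k
    induction k with
    | zero => exact ⟨0, 0, by simp⟩
    | succ k ih =>
      rw [pow_succ]
      exact hmul _ _ ih hh1
  refine Subgroup.closure_induction (p := fun h _ => ∃ i j : ℕ, h * (x ^ i * y ^ j)⁻¹ ∈ N)
    ?_ ?_ ?_ ?_ hh
  · intro z hz
    rcases hz with rfl | rfl
    · exact ⟨1, 0, by simp⟩
    · exact ⟨0, 1, by simp⟩
  · exact ⟨0, 0, by simp⟩
  · intro a b _ _ ha hb
    exact hmul a b ha hb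
  · intro a _ ha
    have e : a⁻¹ = a ^ (E - 1) := by
      apply inv_eq_of_mul_eq_one_right
      rw [← pow_succ', Nat.sub_add_cancel hEpos, hE]
    rw [e]
    exact hpow a ha (E - 1)

end final3

section main3

/-- **Two elements commuting modulo an abelian normal subgroup.**  Let `G` be a group of
finite exponent, `N` an abelian normal subgroup on which all fourfold commutators are trivial,
and `x`, `y` elements whose commutator lies in `N` and has trivial threefold commutators.  If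
every letter is sent into a coset `N x ^ i y ^ j`, then the languages recognised through the
letter map have generalized star height at most one. -/
theorem two_gen_gsh_exp {G α : Type} [Group G] (E : ℕ) (hEpos : 0 < E)
    (hE : ∀ z : G, z ^ E = 1) [Finite α] (N : Subgroup G) [N.Normal]
    (hab : ∀ a ∈ N, ∀ b ∈ N, a * b = b * a) (x y : G) (hc : y * x * y⁻¹ * x⁻¹ ∈ N)
    (hD4 : ∀ n ∈ N, ∀ g1 g2 g3 g4 : G, cm g1 (cm g2 (cm g3 (cm g4 n))) = 1)
    (hD3 : ∀ g1 g2 g3 : G, cm g1 (cm g2 (cm g3 (y * x * y⁻¹ * x⁻¹))) = 1)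
    (f : α → G) (hf : ∀ a, ∃ i j : ℕ, f a * (x ^ i * y ^ j)⁻¹ ∈ N) (T : Set G) :
    HasGSH 1 (fun w : List α => (w.map f).prod ∈ T) := by
  classical
  cases nonempty_fintype α
  choose jx jy hj using hf
  let n : α → N := fun a => ⟨f a * (x ^ jx a * y ^ jy a)⁻¹, hj a⟩
  have hfn : f = fun b => (n b : G) * (x ^ jx b * y ^ jy b) := by
    funext b
    show f b = f b * (x ^ jx b * y ^ jy b)⁻¹ * (x ^ jx b * y ^ jy b)
    rw [inv_mul_cancel_right]
  have : NeZero (36 * E) := ⟨by omega⟩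
  let V : Type := {v : α → ZMod (36 * E) // ∀ x, v x = 0 ∨ v x = 1 ∨ v x = -1}
  let F : α × V × ZMod (36 * E) → List α → ZMod (36 * E) := fun i w =>
    (cnt i.2.1.1 (fun b => b = i.1) i.2.2 0 w : ZMod (36 * E))
  have hF : ∀ i b, HasGSH 1 (fun w => F i w = b) := fun i b =>
    count_pm α (36 * E) i.2.1.1 i.2.1.2 (fun b => b = i.1) (36 * E) i.2.2 b
  refine HasGSH.of_fun (fun w => (fun i => F i w)) (fun S => HasGSH.pi F hF S) _ ?_
  intro w w' hww' hw
  have hst : ∀ (a : α) (v : α → ZMod (36 * E)), (∀ x, v x = 0 ∨ v x = 1 ∨ v x = -1) →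
      ∀ t : ZMod (36 * E), (cnt v (fun b => b = a) t 0 w : ZMod (36 * E))
        = (cnt v (fun b => b = a) t 0 w' : ZMod (36 * E)) :=
    fun a v hv t => congrFun hww' (a, ⟨v, hv⟩, t)
  have hprod : (w.map f).prod = (w'.map f).prod := by
    rw [hfn]
    exact prod_eq_of_gsum3 N hab x y hc hD4 hD3 E hE n jx jy w w'
      (fun a i' i hi => gsum2_modEq' E _ _ (hst a) i' i hi)
      (fun a i' i hi => gsum2_modEq E _ _ (hst a) i' i hi) (sum_modEq E _ hst)
      (sum_modEq E _ hst)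
  rw [← hprod]
  exact hw

/-- **Nilpotent groups of class at most four, two elements commuting modulo an abelian normal
subgroup.**  If `G` is a finite nilpotent group of class at most four, `N` an abelian normal
subgroup and `x`, `y` elements whose commutator lies in `N`, and every letter is sent into a
coset `N x ^ i y ^ j`, then the languages recognised have generalized star height at most
one. -/
theorem class4_two_coset_gsh {G α : Type} [Group G] [Finite G] [hG : Group.IsNilpotent G]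
    (hc : Group.nilpotencyClass G ≤ 4) [Finite α] (N : Subgroup G) [N.Normal]
    (hab : ∀ a ∈ N, ∀ b ∈ N, a * b = b * a) (x y : G) (hcN : y * x * y⁻¹ * x⁻¹ ∈ N)
    (f : α → G) (hf : ∀ a, ∃ i j : ℕ, f a * (x ^ i * y ^ j)⁻¹ ∈ N) (T : Set G) :
    HasGSH 1 (fun w : List α => (w.map f).prod ∈ T) := by
  have h4 : Subgroup.lowerCentralSeries (⊤ : Subgroup G) 4 = ⊥ :=
    Subgroup.lowerCentralSeries_eq_bot_iff_nilpotencyClass_le.2 hc
  have hstep : ∀ (i : ℕ) (g z : G), z ∈ Subgroup.lowerCentralSeries (⊤ : Subgroup G) i →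
      cm g z ∈ Subgroup.lowerCentralSeries (⊤ : Subgroup G) (i + 1) := by
    intro i g z hz
    have h1 : z * g * z⁻¹ * g⁻¹ ∈ ⁅Subgroup.lowerCentralSeries (⊤ : Subgroup G) i,
        (⊤ : Subgroup G)⁆ := Subgroup.commutator_mem_commutator hz (Subgroup.mem_top g)
    have e : cm g z = (z * g * z⁻¹ * g⁻¹)⁻¹ := by
      unfold cm
      group
    rw [e]
    exact Subgroup.inv_mem _ h1
  have hc1 : y * x * y⁻¹ * x⁻¹ ∈ Subgroup.lowerCentralSeries (⊤ : Subgroup G) 1 :=
    Subgroup.commutator_mem_commutator (Subgroup.mem_top y) (Subgroup.mem_top x)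
  have hD4 : ∀ n ∈ N, ∀ g1 g2 g3 g4 : G, cm g1 (cm g2 (cm g3 (cm g4 n))) = 1 := by
    intro n _ g1 g2 g3 g4
    have h : cm g1 (cm g2 (cm g3 (cm g4 n))) ∈ Subgroup.lowerCentralSeries (⊤ : Subgroup G) 4 :=
      hstep 3 g1 _ (hstep 2 g2 _ (hstep 1 g3 _ (hstep 0 g4 n (Subgroup.mem_top n))))
    rw [h4] at h
    exact Subgroup.mem_bot.mp h
  have hD3 : ∀ g1 g2 g3 : G, cm g1 (cm g2 (cm g3 (y * x * y⁻¹ * x⁻¹))) = 1 := by
    intro g1 g2 g3
    have h : cm g1 (cm g2 (cm g3 (y * x * y⁻¹ * x⁻¹)))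
        ∈ Subgroup.lowerCentralSeries (⊤ : Subgroup G) 4 :=
      hstep 3 g1 _ (hstep 2 g2 _ (hstep 1 g3 _ hc1))
    rw [h4] at h
    exact Subgroup.mem_bot.mp h
  exact two_gen_gsh_exp (Nat.card G) Nat.card_pos (fun _ => pow_card_eq_one') N hab x y hcN hD4
    hD3 f hf T

/-- in a nilpotent group of class at most four every commutator lies in an abelian normal
subgroup -/
theorem class4_exists_abelian {G : Type} [Group G] [hG : Group.IsNilpotent G]
    (hc : Group.nilpotencyClass G ≤ 4) (x y : G) :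
    ∃ N : Subgroup G, N.Normal ∧ (∀ a ∈ N, ∀ b ∈ N, a * b = b * a) ∧ y * x * y⁻¹ * x⁻¹ ∈ N := by
  have h4 : Subgroup.lowerCentralSeries (⊤ : Subgroup G) 4 = ⊥ :=
    Subgroup.lowerCentralSeries_eq_bot_iff_nilpotencyClass_le.2 hc
  have h4' : ⁅⁅Subgroup.lowerCentralSeries (⊤ : Subgroup G) 2, (⊤ : Subgroup G)⁆,
      (⊤ : Subgroup G)⁆ = ⊥ := h4
  have hKL : ⁅⁅(⊤ : Subgroup G), (⊤ : Subgroup G)⁆,
      Subgroup.lowerCentralSeries (⊤ : Subgroup G) 2⁆ = ⊥ := by
    have h1 : ⁅⁅(⊤ : Subgroup G), Subgroup.lowerCentralSeries (⊤ : Subgroup G) 2⁆,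
        (⊤ : Subgroup G)⁆ = ⊥ := by
      rw [Subgroup.commutator_comm (⊤ : Subgroup G)]
      exact h4'
    exact Subgroup.commutator_commutator_eq_bot_of_rotate h1 h4'
  have hcen : ∀ k ∈ Subgroup.lowerCentralSeries (⊤ : Subgroup G) 1,
      ∀ d ∈ Subgroup.lowerCentralSeries (⊤ : Subgroup G) 2, Commute k d := by
    intro k hk d hd
    have h1 := Subgroup.commutator_eq_bot_iff_le_centralizer.1 hKL hk
    exact (Subgroup.mem_centralizer_iff.1 h1 d hd).symm
  have h21 : Subgroup.lowerCentralSeries (⊤ : Subgroup G) 2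
      ≤ Subgroup.lowerCentralSeries (⊤ : Subgroup G) 1 :=
    Subgroup.lowerCentralSeries_antitone _ (by norm_num)
  have hc1 : y * x * y⁻¹ * x⁻¹ ∈ Subgroup.lowerCentralSeries (⊤ : Subgroup G) 1 :=
    Subgroup.commutator_mem_commutator (Subgroup.mem_top y) (Subgroup.mem_top x)
  have hz1 : Subgroup.zpowers (y * x * y⁻¹ * x⁻¹)
      ≤ Subgroup.lowerCentralSeries (⊤ : Subgroup G) 1 := (Subgroup.zpowers_le).2 hc1
  have hmem : ∀ n : G, n ∈ Subgroup.zpowers (y * x * y⁻¹ * x⁻¹)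
        ⊔ Subgroup.lowerCentralSeries (⊤ : Subgroup G) 2
      ↔ ∃ a ∈ Subgroup.zpowers (y * x * y⁻¹ * x⁻¹),
        ∃ d ∈ Subgroup.lowerCentralSeries (⊤ : Subgroup G) 2, a * d = n :=
    fun n => Subgroup.mem_sup_of_normal_right
  refine ⟨Subgroup.zpowers (y * x * y⁻¹ * x⁻¹) ⊔ Subgroup.lowerCentralSeries (⊤ : Subgroup G) 2,
    ?_, ?_, Subgroup.mem_sup_left (Subgroup.mem_zpowers _)⟩
  · refine ⟨fun n hn g => ?_⟩
    obtain ⟨a, ha, d, hd, rfl⟩ := (hmem n).1 hn
    have ha1 : a ∈ Subgroup.lowerCentralSeries (⊤ : Subgroup G) 1 := hz1 ha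
    have h1 : a⁻¹ * g * a⁻¹⁻¹ * g⁻¹ ∈ ⁅Subgroup.lowerCentralSeries (⊤ : Subgroup G) 1,
        (⊤ : Subgroup G)⁆ :=
      Subgroup.commutator_mem_commutator (Subgroup.inv_mem _ ha1) (Subgroup.mem_top g)
    have h2 : g * d * g⁻¹ ∈ Subgroup.lowerCentralSeries (⊤ : Subgroup G) 2 :=
      (inferInstance : (Subgroup.lowerCentralSeries (⊤ : Subgroup G) 2).Normal).conj_mem d hd g
    have e : g * (a * d) * g⁻¹ = a * ((a⁻¹ * g * a⁻¹⁻¹ * g⁻¹) * (g * d * g⁻¹)) := by group
    rw [e]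
    exact (hmem _).2 ⟨a, ha, _, Subgroup.mul_mem _ h1 h2, rfl⟩
  · intro n hn n' hn'
    obtain ⟨a, ha, d, hd, rfl⟩ := (hmem n).1 hn
    obtain ⟨a', ha', d', hd', rfl⟩ := (hmem n').1 hn'
    have c1 : Commute a a' := by
      obtain ⟨k, rfl⟩ := Subgroup.mem_zpowers_iff.1 ha
      obtain ⟨l, rfl⟩ := Subgroup.mem_zpowers_iff.1 ha'
      exact (Commute.refl _).zpow_zpow k l
    have c2 : Commute a d' := hcen a (hz1 ha) d' hd'
    have c3 : Commute d a' := (hcen a' (hz1 ha') d hd).symm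
    have c4 : Commute d d' := hcen d (h21 hd) d' hd'
    exact ((c1.mul_right c2).mul_left (c3.mul_right c4)).eq

/-- **Nilpotent groups of class at most four, letters in a two-generator subgroup.**  If `G`
is a finite nilpotent group of class at most four and all letters are sent into the subgroup
generated by two elements, then the languages recognised have generalized star height at most
one.  In particular this holds for every finite nilpotent group of class at most four that is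
generated by two elements, with arbitrary letter maps. -/
theorem class4_two_gen_gsh {G α : Type} [Group G] [Finite G] [hG : Group.IsNilpotent G]
    (hc : Group.nilpotencyClass G ≤ 4) [Finite α] (x y : G)
    (f : α → G) (hf : ∀ a, f a ∈ Subgroup.closure ({x, y} : Set G)) (T : Set G) :
    HasGSH 1 (fun w : List α => (w.map f).prod ∈ T) := by
  obtain ⟨N, hnorm, hab, hcN⟩ := class4_exists_abelian hc x y
  exact class4_two_coset_gsh hc N hab x y hcN f
    (fun a => closure_two_mem (Nat.card G) Nat.card_pos (fun _ => pow_card_eq_one') N x y hcN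
      (f a) (hf a)) T

end main3

end Vale.Agent.Helper10
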