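import Vale.Agent.Helper10.PMFinal

/-!
# Weighted positional sums of degree at most three

Along a word, every letter `b` advances a counter by a weight `j b`.  The sum, over the
occurrences of a letter `a`, of a binomial coefficient of degree at most three of the counter
is determined by positional counts along clocks with steps `0`, `1` and `-1`.  Consequently
the languages recognised through a letter map into the cosets `N g ^ k` of an abelian normal
subgroup `N` have generalized star height at most one as soon as the fourth iterated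
commutator with `g` is trivial on `N`.
-/

namespace Vale.Agent.Helper10

section wsum

variable {α : Type} [DecidableEq α] (M : ℕ) (a : α)

/-- the sum over the occurrences of the letter `a` of a function of the vector of the numbers
(modulo `M`) of the earlier letters -/
def wsum (F : (α → ZMod M) → ZMod M) : (α → ZMod M) → List α → ZMod M
  | _, [] => 0
  | c, b :: w => (if b = a then F c else 0) + wsum F (c + Pi.single b 1) w

theorem wsum_add (F F' : (α → ZMod M) → ZMod M) : ∀ (w : List α) (c : α → ZMod M),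
    wsum M a (fun y => F y + F' y) c w = wsum M a F c w + wsum M a F' c w := by
  intro w
  induction w with
  | nil => intro c; simp [wsum]
  | cons b w ih =>
    intro c
    simp only [wsum, ih]
    split_ifs <;> ring

theorem wsum_smul (k : ZMod M) (F : (α → ZMod M) → ZMod M) : ∀ (w : List α) (c : α → ZMod M),
    wsum M a (fun y => k * F y) c w = k * wsum M a F c w := by
  intro w
  induction w with
  | nil => intro c; simp [wsum]
  | cons b w ih =>
    intro c
    simp only [wsum, ih]
    split_ifs <;> ring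

theorem wsum_zero : ∀ (w : List α) (c : α → ZMod M),
    wsum M a (fun _ => 0) c w = 0 := by
  intro w
  induction w with
  | nil => intro c; simp [wsum]
  | cons b w ih =>
    intro c
    simp only [wsum, ih]
    split_ifs <;> ring

theorem wsum_ridge [NeZero M] (lam : (α → ZMod M) →+ ZMod M) (h : ZMod M → ZMod M) :
    ∀ (w : List α) (c : α → ZMod M),
    wsum M a (fun y => h (lam y)) c w
      = ∑ t : ZMod M, h t *
          (cnt (fun b => lam (Pi.single b 1)) (fun b => b = a) t (lam c) w : ZMod M) := by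
  intro w
  induction w with
  | nil => intro c; simp [wsum, cnt]
  | cons b w ih =>
    intro c
    simp only [wsum, cnt, ih, map_add]
    push_cast
    simp only [mul_add, Finset.sum_add_distrib]
    congr 1
    by_cases hb : b = a
    · simp [hb]
    · simp [hb]

end wsum

section good

variable {α : Type} [DecidableEq α] (M : ℕ) [NeZero M] (a : α) (w w' : List α)

/-- the functions whose positional sums agree on the two words -/
def Gd (F : (α → ZMod M) → ZMod M) : Prop := wsum M a F 0 w = wsum M a F 0 w'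

variable {M a w w'}

theorem Gd.add {F F' : (α → ZMod M) → ZMod M} (h : Gd M a w w' F) (h' : Gd M a w w' F') :
    Gd M a w w' (fun y => F y + F' y) := by
  unfold Gd at *
  rw [wsum_add, wsum_add, h, h']

theorem Gd.smul (k : ZMod M) {F : (α → ZMod M) → ZMod M} (h : Gd M a w w' F) :
    Gd M a w w' (fun y => k * F y) := by
  unfold Gd at *
  rw [wsum_smul, wsum_smul, h]

theorem Gd.of_eq {F F' : (α → ZMod M) → ZMod M} (h : Gd M a w w' F) (e : ∀ y, F' y = F y) :
    Gd M a w w' F' := by
  have : F' = F := funext e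
  rw [this]
  exact h

theorem Gd.sum {ι : Type} (s : Finset ι) (F : ι → (α → ZMod M) → ZMod M)
    (h : ∀ i ∈ s, Gd M a w w' (F i)) : Gd M a w w' (fun y => ∑ i ∈ s, F i y) := by
  classical
  induction s using Finset.induction_on with
  | empty =>
    simp only [Finset.sum_empty]
    unfold Gd
    rw [wsum_zero, wsum_zero]
  | insert i s hi ih =>
    have h1 := h i (Finset.mem_insert_self i s)
    have h2 := ih (fun k hk => h k (Finset.mem_insert_of_mem hk))
    exact (h1.add h2).of_eq (fun y => Finset.sum_insert hi)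

theorem ev_single (b x : α) :
    (Pi.evalAddMonoidHom (fun _ : α => ZMod M) b) (Pi.single x 1) = if b = x then 1 else 0 := by
  simp [Pi.single_apply]

variable (hst : ∀ v : α → ZMod M, (∀ x, v x = 0 ∨ v x = 1 ∨ v x = -1) → ∀ t : ZMod M,
    (cnt v (fun b => b = a) t 0 w : ZMod M) = (cnt v (fun b => b = a) t 0 w' : ZMod M))

include hst

theorem Gd.ridge (lam : (α → ZMod M) →+ ZMod M)
    (hl : ∀ x, lam (Pi.single x 1) = 0 ∨ lam (Pi.single x 1) = 1 ∨ lam (Pi.single x 1) = -1)
    (h : ZMod M → ZMod M) : Gd M a w w' (fun y => h (lam y)) := by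
  unfold Gd
  rw [wsum_ridge, wsum_ridge, map_zero]
  exact Finset.sum_congr rfl (fun t _ => by rw [hst _ hl t])

/-- functions of one coordinate -/
theorem Gd.one (b : α) (h : ZMod M → ZMod M) : Gd M a w w' (fun y => h (y b)) := by
  refine (Gd.ridge hst (Pi.evalAddMonoidHom (fun _ : α => ZMod M) b) ?_ h).of_eq (fun y => rfl)
  intro x
  rw [ev_single]
  by_cases h1 : b = x
  · exact Or.inr (Or.inl (if_pos h1))
  · exact Or.inl (if_neg h1)

/-- functions of the sum of two coordinates -/
theorem Gd.two (b b' : α) (hne : b ≠ b') (h : ZMod M → ZMod M) :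
    Gd M a w w' (fun y => h (y b + y b')) := by
  refine (Gd.ridge hst (Pi.evalAddMonoidHom (fun _ : α => ZMod M) b
    + Pi.evalAddMonoidHom (fun _ : α => ZMod M) b') ?_ h).of_eq (fun y => rfl)
  intro x
  rw [AddMonoidHom.add_apply, ev_single, ev_single]
  by_cases h1 : b = x
  · have h2 : ¬ b' = x := fun h2 => hne (h1.trans h2.symm)
    rw [if_pos h1, if_neg h2, add_zero]
    exact Or.inr (Or.inl rfl)
  · by_cases h2 : b' = x
    · rw [if_neg h1, if_pos h2, zero_add]
      exact Or.inr (Or.inl rfl)
    · rw [if_neg h1, if_neg h2, add_zero]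
      exact Or.inl rfl

/-- functions of the difference of two coordinates -/
theorem Gd.diff (b b' : α) (hne : b ≠ b') (h : ZMod M → ZMod M) :
    Gd M a w w' (fun y => h (y b - y b')) := by
  refine (Gd.ridge hst (Pi.evalAddMonoidHom (fun _ : α => ZMod M) b
    - Pi.evalAddMonoidHom (fun _ : α => ZMod M) b') ?_ h).of_eq (fun y => rfl)
  intro x
  rw [AddMonoidHom.sub_apply, ev_single, ev_single]
  by_cases h1 : b = x
  · have h2 : ¬ b' = x := fun h2 => hne (h1.trans h2.symm)
    rw [if_pos h1, if_neg h2, sub_zero]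
    exact Or.inr (Or.inl rfl)
  · by_cases h2 : b' = x
    · rw [if_neg h1, if_pos h2, zero_sub]
      exact Or.inr (Or.inr rfl)
    · rw [if_neg h1, if_neg h2, sub_zero]
      exact Or.inl rfl

/-- functions of the sum of three coordinates -/
theorem Gd.three (b b' b'' : α) (h12 : b ≠ b') (h13 : b ≠ b'') (h23 : b' ≠ b'')
    (h : ZMod M → ZMod M) : Gd M a w w' (fun y => h (y b + y b' + y b'')) := by
  refine (Gd.ridge hst (Pi.evalAddMonoidHom (fun _ : α => ZMod M) b
    + Pi.evalAddMonoidHom (fun _ : α => ZMod M) b'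
    + Pi.evalAddMonoidHom (fun _ : α => ZMod M) b'') ?_ h).of_eq (fun y => rfl)
  intro x
  rw [AddMonoidHom.add_apply, AddMonoidHom.add_apply, ev_single, ev_single, ev_single]
  by_cases h1 : b = x
  · have h2 : ¬ b' = x := fun h2 => h12 (h1.trans h2.symm)
    have h3 : ¬ b'' = x := fun h3 => h13 (h1.trans h3.symm)
    rw [if_pos h1, if_neg h2, if_neg h3, add_zero, add_zero]
    exact Or.inr (Or.inl rfl)
  · by_cases h2 : b' = x
    · have h3 : ¬ b'' = x := fun h3 => h23 (h2.trans h3.symm)
      rw [if_neg h1, if_pos h2, if_neg h3, zero_add, add_zero]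
      exact Or.inr (Or.inl rfl)
    · by_cases h3 : b'' = x
      · rw [if_neg h1, if_neg h2, if_pos h3, zero_add, zero_add]
        exact Or.inr (Or.inl rfl)
      · rw [if_neg h1, if_neg h2, if_neg h3, add_zero, add_zero]
        exact Or.inl rfl

/-- twice a product of two coordinates -/
theorem Gd.mul2 (b b' : α) : Gd M a w w' (fun y => 2 * (y b * y b')) := by
  by_cases hne : b = b'
  · subst hne
    exact Gd.one hst b (fun t => 2 * (t * t))
  · have h1 := Gd.two hst b b' hne (fun t => t * t)
    have h2 := (Gd.one hst b (fun t => t * t)).smul (-1)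
    have h3 := (Gd.one hst b' (fun t => t * t)).smul (-1)
    exact ((h1.add h2).add h3).of_eq (fun y => by ring)

/-- six times the product of a square and a coordinate -/
theorem Gd.sqmul (b b' : α) (hne : b ≠ b') : Gd M a w w' (fun y => 6 * (y b * y b * y b')) := by
  have h1 := Gd.two hst b b' hne (fun t => t * t * t)
  have h2 := (Gd.diff hst b b' hne (fun t => t * t * t)).smul (-1)
  have h3 := (Gd.one hst b' (fun t => t * t * t)).smul (-2)
  exact ((h1.add h2).add h3).of_eq (fun y => by ring)

/-- six times a product of three coordinates -/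
theorem Gd.mul3 (b b' b'' : α) : Gd M a w w' (fun y => 6 * (y b * y b' * y b'')) := by
  by_cases h12 : b = b'
  · subst h12
    by_cases h13 : b = b''
    · subst h13
      exact Gd.one hst b (fun t => 6 * (t * t * t))
    · exact Gd.sqmul hst b b'' h13
  · by_cases h13 : b = b''
    · subst h13
      exact (Gd.sqmul hst b b' h12).of_eq (fun y => by ring)
    · by_cases h23 : b' = b''
      · subst h23
        exact (Gd.sqmul hst b' b (fun h => h12 h.symm)).of_eq (fun y => by ring)
      · have k1 := Gd.three hst b b' b'' h12 h13 h23 (fun t => t * t * t)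
        have k2 := (Gd.two hst b b' h12 (fun t => t * t * t)).smul (-1)
        have k3 := (Gd.two hst b b'' h13 (fun t => t * t * t)).smul (-1)
        have k4 := (Gd.two hst b' b'' h23 (fun t => t * t * t)).smul (-1)
        have k5 := Gd.one hst b (fun t => t * t * t)
        have k6 := Gd.one hst b' (fun t => t * t * t)
        have k7 := Gd.one hst b'' (fun t => t * t * t)
        exact ((((((k1.add k2).add k3).add k4).add k5).add k6).add k7).of_eq (fun y => by ring)

end good

section target

variable {α : Type} [DecidableEq α] [Fintype α] (M : ℕ) [NeZero M] (j : α → ℕ)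

/-- the weighted counter as a function of the vector of the numbers of letters -/
def sfun (y : α → ZMod M) : ZMod M := ∑ x : α, (j x : ZMod M) * y x

omit [DecidableEq α] [NeZero M] in
theorem sfun_zero : sfun M j 0 = 0 := by simp [sfun]

omit [NeZero M] in
theorem sfun_step (c : α → ZMod M) (b : α) :
    sfun M j (c + Pi.single b 1) = sfun M j c + (j b : ZMod M) := by
  unfold sfun
  simp only [Pi.add_apply, mul_add, Finset.sum_add_distrib, Pi.single_apply, mul_ite, mul_one,
    mul_zero]
  rw [Finset.sum_ite_eq']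
  simp

/-- the sum over the occurrences of `a` of a function of the weighted counter -/
def gsum (a : α) (u : ℕ → ℕ) : ℕ → List α → ℕ
  | _, [] => 0
  | C, b :: w => (if b = a then u C else 0) + gsum a u (C + j b) w

omit [NeZero M] in
theorem gsum_wsum (a : α) (u : ℕ → ℕ) (k : ℕ) (F : (α → ZMod M) → ZMod M)
    (hF : ∀ (C : ℕ) (c : α → ZMod M), sfun M j c = (C : ZMod M) →
      ((k * u C : ℕ) : ZMod M) = F c) :
    ∀ (w : List α) (C : ℕ) (c : α → ZMod M), sfun M j c = (C : ZMod M) →
      ((k * gsum j a u C w : ℕ) : ZMod M) = wsum M a F c w := by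
  intro w
  induction w with
  | nil => intro C c _; simp [gsum, wsum]
  | cons b w ih =>
    intro C c hc
    have h1 : sfun M j (c + Pi.single b 1) = ((C + j b : ℕ) : ZMod M) := by
      rw [sfun_step, hc]
      push_cast
      rfl
    simp only [gsum, wsum]
    rw [mul_add, Nat.cast_add, ih (C + j b) _ h1]
    congr 1
    by_cases hb : b = a
    · rw [if_pos hb, if_pos hb]
      exact hF C c hc
    · rw [if_neg hb, if_neg hb]
      simp

theorem choose_two_cast (R : Type) [CommRing R] (C : ℕ) :
    ((2 * Nat.choose C 2 : ℕ) : R) = (C : R) * ((C : R) - 1) := by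
  induction C with
  | zero => simp
  | succ C ih =>
    rw [Nat.choose_succ_succ, Nat.choose_one_right, mul_add, Nat.cast_add, ih]
    push_cast
    ring

theorem choose_three_cast (R : Type) [CommRing R] (C : ℕ) :
    ((6 * Nat.choose C 3 : ℕ) : R) = (C : R) * ((C : R) - 1) * ((C : R) - 2) := by
  induction C with
  | zero => simp
  | succ C ih =>
    have h2 := choose_two_cast R C
    rw [Nat.choose_succ_succ, mul_add, Nat.cast_add, ih]
    have h3 : ((6 * Nat.choose C 2 : ℕ) : R) = 3 * ((2 * Nat.choose C 2 : ℕ) : R) := by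
      push_cast
      ring
    rw [h3, h2]
    push_cast
    ring

variable {M j} {a : α} {w w' : List α}
variable (hst : ∀ v : α → ZMod M, (∀ x, v x = 0 ∨ v x = 1 ∨ v x = -1) → ∀ t : ZMod M,
    (cnt v (fun b => b = a) t 0 w : ZMod M) = (cnt v (fun b => b = a) t 0 w' : ZMod M))

include hst

theorem Gd.s1 : Gd M a w w' (sfun M j) :=
  (Gd.sum Finset.univ (fun x y => (j x : ZMod M) * y x)
    (fun x _ => (Gd.one hst x (fun t => t)).smul (j x : ZMod M))).of_eq (fun _ => rfl)

theorem Gd.s2 : Gd M a w w' (fun y => 2 * (sfun M j y * sfun M j y)) := by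
  have h : Gd M a w w' (fun y => ∑ x : α, ∑ x' : α,
      ((j x : ZMod M) * (j x' : ZMod M)) * (2 * (y x * y x'))) :=
    Gd.sum _ _ (fun x _ => Gd.sum _ _ (fun x' _ => (Gd.mul2 hst x x').smul _))
  refine h.of_eq (fun y => ?_)
  unfold sfun
  rw [Finset.sum_mul_sum, Finset.mul_sum]
  refine Finset.sum_congr rfl (fun x _ => ?_)
  rw [Finset.mul_sum]
  refine Finset.sum_congr rfl (fun x' _ => ?_)
  ring

theorem Gd.s3 : Gd M a w w' (fun y => 6 * (sfun M j y * sfun M j y * sfun M j y)) := by
  have h : Gd M a w w' (fun y => ∑ x : α, ∑ x' : α, ∑ x'' : α,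
      ((j x : ZMod M) * (j x' : ZMod M) * (j x'' : ZMod M)) * (6 * (y x * y x' * y x''))) :=
    Gd.sum _ _ (fun x _ => Gd.sum _ _ (fun x' _ => Gd.sum _ _
      (fun x'' _ => (Gd.mul3 hst x x' x'').smul _)))
  refine h.of_eq (fun y => ?_)
  unfold sfun
  rw [Finset.sum_mul_sum, Finset.sum_mul, Finset.mul_sum]
  refine Finset.sum_congr rfl (fun x _ => ?_)
  rw [Finset.sum_mul, Finset.mul_sum]
  refine Finset.sum_congr rfl (fun x' _ => ?_)
  rw [Finset.mul_sum, Finset.mul_sum]
  refine Finset.sum_congr rfl (fun x'' _ => ?_)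
  ring

theorem Gd.t2 : Gd M a w w' (fun y => 2 * (sfun M j y * (sfun M j y - 1))) :=
  ((Gd.s2 (j := j) hst).add ((Gd.s1 (j := j) hst).smul (-2))).of_eq (fun y => by ring)

theorem Gd.t3 :
    Gd M a w w' (fun y => 6 * (sfun M j y * (sfun M j y - 1) * (sfun M j y - 2))) :=
  (((Gd.s3 (j := j) hst).add ((Gd.s2 (j := j) hst).smul (-9))).add
    ((Gd.s1 (j := j) hst).smul 12)).of_eq (fun y => by ring)

end target

section det

variable {α : Type} [DecidableEq α] [Fintype α] (E : ℕ) [NeZero (36 * E)] (j : α → ℕ) {a : α}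
  {w w' : List α}

omit [NeZero (36 * E)] in
theorem modEq_of_cast (K q : ℕ) (hK : K * q = 36) (n n' : ℕ)
    (h : ((K * n : ℕ) : ZMod (36 * E)) = ((K * n' : ℕ) : ZMod (36 * E))) : n ≡ n' [MOD E] := by
  have h1 := (ZMod.natCast_eq_natCast_iff _ _ _).mp h
  have hK0 : K ≠ 0 := by
    rintro rfl
    simp at hK
  have h2 : 36 * E = K * (q * E) := by
    rw [← hK]
    ring
  rw [h2] at h1
  exact Nat.ModEq.of_mul_left q (Nat.ModEq.mul_left_cancel' hK0 h1)

/-- **Weighted positional binomial sums of degree at most three** are determined modulo `E`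
by the positional counts modulo `36 * E` along the clocks with steps `0`, `1` and `-1`. -/
theorem gsum_modEq
    (hst : ∀ v : α → ZMod (36 * E), (∀ x, v x = 0 ∨ v x = 1 ∨ v x = -1) → ∀ t : ZMod (36 * E),
      (cnt v (fun b => b = a) t 0 w : ZMod (36 * E))
        = (cnt v (fun b => b = a) t 0 w' : ZMod (36 * E)))
    (i : ℕ) (hi : i < 4) :
    gsum j a (fun C => Nat.choose C i) 0 w ≡ gsum j a (fun C => Nat.choose C i) 0 w' [MOD E] := by
  have hz : sfun (36 * E) j 0 = ((0 : ℕ) : ZMod (36 * E)) := by
    rw [sfun_zero]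
    simp
  interval_cases i
  · have hF : ∀ (C : ℕ) (c : α → ZMod (36 * E)), sfun (36 * E) j c = (C : ZMod (36 * E)) →
        ((1 * Nat.choose C 0 : ℕ) : ZMod (36 * E)) = (fun _ => (1 : ZMod (36 * E))) c := by
      intro C c _
      simp
    have e1 := gsum_wsum (36 * E) j a _ 1 _ hF w 0 0 hz
    have e2 := gsum_wsum (36 * E) j a _ 1 _ hF w' 0 0 hz
    have g : wsum (36 * E) a (fun _ => (1 : ZMod (36 * E))) 0 w
        = wsum (36 * E) a (fun _ => (1 : ZMod (36 * E))) 0 w' :=
      Gd.one hst a (fun _ => 1)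
    exact modEq_of_cast E 1 36 rfl _ _ (e1.trans (g.trans e2.symm))
  · have hF : ∀ (C : ℕ) (c : α → ZMod (36 * E)), sfun (36 * E) j c = (C : ZMod (36 * E)) →
        ((1 * Nat.choose C 1 : ℕ) : ZMod (36 * E)) = sfun (36 * E) j c := by
      intro C c hc
      rw [hc]
      simp
    have e1 := gsum_wsum (36 * E) j a _ 1 _ hF w 0 0 hz
    have e2 := gsum_wsum (36 * E) j a _ 1 _ hF w' 0 0 hz
    have g : wsum (36 * E) a (sfun (36 * E) j) 0 w = wsum (36 * E) a (sfun (36 * E) j) 0 w' :=
      Gd.s1 (j := j) hst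
    exact modEq_of_cast E 1 36 rfl _ _ (e1.trans (g.trans e2.symm))
  · have hF : ∀ (C : ℕ) (c : α → ZMod (36 * E)), sfun (36 * E) j c = (C : ZMod (36 * E)) →
        ((2 * Nat.choose C 2 : ℕ) : ZMod (36 * E))
          = (fun y => sfun (36 * E) j y * (sfun (36 * E) j y - 1)) c := by
      intro C c hc
      rw [choose_two_cast]
      show _ = sfun (36 * E) j c * (sfun (36 * E) j c - 1)
      rw [hc]
    have e1 := gsum_wsum (36 * E) j a _ 2 _ hF w 0 0 hz
    have e2 := gsum_wsum (36 * E) j a _ 2 _ hF w' 0 0 hz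
    have g : wsum (36 * E) a (fun y => 2 * (sfun (36 * E) j y * (sfun (36 * E) j y - 1))) 0 w
        = wsum (36 * E) a (fun y => 2 * (sfun (36 * E) j y * (sfun (36 * E) j y - 1))) 0 w' :=
      Gd.t2 (j := j) hst
    rw [wsum_smul, wsum_smul, ← e1, ← e2] at g
    refine modEq_of_cast E 4 9 rfl _ _ ?_
    push_cast at g ⊢
    linear_combination g
  · have hF : ∀ (C : ℕ) (c : α → ZMod (36 * E)), sfun (36 * E) j c = (C : ZMod (36 * E)) →
        ((6 * Nat.choose C 3 : ℕ) : ZMod (36 * E))
          = (fun y => sfun (36 * E) j y * (sfun (36 * E) j y - 1) * (sfun (36 * E) j y - 2)) c := by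
      intro C c hc
      rw [choose_three_cast]
      show _ = sfun (36 * E) j c * (sfun (36 * E) j c - 1) * (sfun (36 * E) j c - 2)
      rw [hc]
    have e1 := gsum_wsum (36 * E) j a _ 6 _ hF w 0 0 hz
    have e2 := gsum_wsum (36 * E) j a _ 6 _ hF w' 0 0 hz
    have g : wsum (36 * E) a (fun y => 6 * (sfun (36 * E) j y * (sfun (36 * E) j y - 1)
          * (sfun (36 * E) j y - 2))) 0 w
        = wsum (36 * E) a (fun y => 6 * (sfun (36 * E) j y * (sfun (36 * E) j y - 1)
          * (sfun (36 * E) j y - 2))) 0 w' :=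
      Gd.t3 (j := j) hst
    rw [wsum_smul, wsum_smul, ← e1, ← e2] at g
    refine modEq_of_cast E 36 1 rfl _ _ ?_
    push_cast at g ⊢
    linear_combination g

end det

section comm

variable {K α : Type} [CommGroup K]

theorem iter_mul (φ : K → K) (hφ : ∀ x y, φ (x * y) = φ x * φ y) (C : ℕ) (x y : K) :
    φ^[C] (x * y) = φ^[C] x * φ^[C] y := by
  induction C generalizing x y with
  | zero => rfl
  | succ C ih => rw [Function.iterate_succ_apply, Function.iterate_succ_apply,
      Function.iterate_succ_apply, hφ, ih]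

/-- the binomial expansion of the powers of a map whose fourth difference vanishes -/
theorem iter_unip (φ : K → K) (hφ : ∀ x y, φ (x * y) = φ x * φ y)
    (h4 : ∀ k : K, (fun x => φ x * x⁻¹)^[4] k = 1) (C : ℕ) (k : K) :
    φ^[C] k = ∏ i ∈ Finset.range 4, ((fun x => φ x * x⁻¹)^[i] k) ^ (C.choose i) := by
  induction C generalizing k with
  | zero => simp [Finset.prod_range_succ]
  | succ C ih =>
    set D : K → K := fun x => φ x * x⁻¹ with hD
    have e1 : φ k = D k * k := by
      show φ k = φ k * k⁻¹ * k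
      rw [inv_mul_cancel_right]
    have c1 : (C + 1).choose 1 = C.choose 0 + C.choose 1 := Nat.choose_succ_succ C 0
    have c2 : (C + 1).choose 2 = C.choose 1 + C.choose 2 := Nat.choose_succ_succ C 1
    have c3 : (C + 1).choose 3 = C.choose 2 + C.choose 3 := Nat.choose_succ_succ C 2
    have h4' : D (D (D (D k))) = 1 := h4 k
    have i0 : ∀ x, D^[0] x = x := fun x => rfl
    have i1 : ∀ x, D^[1] x = D x := fun x => rfl
    have i2 : ∀ x, D^[2] x = D (D x) := fun x => rfl
    have i3 : ∀ x, D^[3] x = D (D (D x)) := fun x => rfl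
    rw [Function.iterate_succ_apply, e1, iter_mul φ hφ, ih, ih]
    simp only [Finset.prod_range_succ, Finset.prod_range_zero, one_mul, i0, i1, i2, i3, h4',
      one_pow, mul_one, c1, c2, c3, pow_add, Nat.choose_zero_right, pow_one]
    ac_rfl

/-- the product along a word of the images of the letters under the powers of `φ` -/
def kp (φ : K → K) (n : α → K) (j : α → ℕ) : ℕ → List α → K
  | _, [] => 1
  | C, b :: w => φ^[C] (n b) * kp φ n j (C + j b) w

theorem kp_eq [DecidableEq α] [Fintype α] (φ : K → K) (hφ : ∀ x y, φ (x * y) = φ x * φ y)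
    (h4 : ∀ k : K, (fun x => φ x * x⁻¹)^[4] k = 1) (n : α → K) (j : α → ℕ) :
    ∀ (w : List α) (C : ℕ), kp φ n j C w = ∏ x : α, ∏ i ∈ Finset.range 4,
      ((fun y => φ y * y⁻¹)^[i] (n x)) ^ (gsum j x (fun C => Nat.choose C i) C w) := by
  intro w
  induction w with
  | nil => intro C; simp [kp, gsum]
  | cons b w ih =>
    intro C
    simp only [kp, gsum, pow_add, Finset.prod_mul_distrib]
    rw [ih (C + j b)]
    congr 1
    rw [Finset.prod_eq_single b]
    · simp only [if_true]
      exact iter_unip φ hφ h4 C (n b)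
    · intro x _ hx
      have hbx : ¬ b = x := fun h => hx h.symm
      simp [hbx]
    · intro h
      exact absurd (Finset.mem_univ b) h

theorem kp_congr [DecidableEq α] [Fintype α] (φ : K → K) (hφ : ∀ x y, φ (x * y) = φ x * φ y)
    (h4 : ∀ k : K, (fun x => φ x * x⁻¹)^[4] k = 1) (n : α → K) (j : α → ℕ) (E : ℕ)
    (hE : ∀ k : K, k ^ E = 1) (w w' : List α)
    (h : ∀ (x : α) (i : ℕ), i < 4 → gsum j x (fun C => Nat.choose C i) 0 w
      ≡ gsum j x (fun C => Nat.choose C i) 0 w' [MOD E]) :
    kp φ n j 0 w = kp φ n j 0 w' := by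
  rw [kp_eq φ hφ h4, kp_eq φ hφ h4]
  refine Finset.prod_congr rfl (fun x _ => Finset.prod_congr rfl (fun i hi => ?_))
  rw [pow_eq_pow_mod _ (hE _), pow_eq_pow_mod (gsum j x (fun C => Nat.choose C i) 0 w') (hE _)]
  exact congrArg _ (h x i (Finset.mem_range.mp hi))

end comm

section final

variable {G α : Type} [Group G]

theorem map_sum_gsum [DecidableEq α] [Fintype α] (j : α → ℕ) : ∀ (w : List α) (C : ℕ),
    (w.map j).sum = ∑ x : α, j x * gsum j x (fun C => Nat.choose C 0) C w := by
  intro w
  induction w with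
  | nil => intro C; simp [gsum]
  | cons b w ih =>
    intro C
    simp only [List.map_cons, List.sum_cons, gsum, mul_add,
      Finset.sum_add_distrib, mul_ite, mul_zero]
    rw [← ih (C + j b), Finset.sum_ite_eq]
    simp

/-- the numbers `gsum` of degree at most three determine the product, for letters in the
cosets `N g ^ k` of an abelian normal subgroup on which the fourth iterated commutator with `g`
is trivial -/
theorem prod_eq_of_gsum [DecidableEq α] [Fintype α] (N : Subgroup G) [N.Normal]
    (hab : ∀ a ∈ N, ∀ b ∈ N, a * b = b * a) (g : G)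
    (hD : ∀ n ∈ N, (fun x => g * x * g⁻¹ * x⁻¹)^[4] n = 1)
    (E : ℕ) (hE : ∀ x : G, x ^ E = 1) (n : α → N) (j : α → ℕ) (w w' : List α)
    (h : ∀ (x : α) (i : ℕ), i < 4 → gsum j x (fun C => Nat.choose C i) 0 w
      ≡ gsum j x (fun C => Nat.choose C i) 0 w' [MOD E]) :
    (w.map (fun b => (n b : G) * g ^ j b)).prod
      = (w'.map (fun b => (n b : G) * g ^ j b)).prod := by
  classical
  let _ : CommGroup N :=
    { (inferInstance : Group N) with
      mul_comm := fun a b => Subtype.ext (hab a a.2 b b.2) }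
  let φ : N → N := fun k => ⟨g * k * g⁻¹, (inferInstance : N.Normal).conj_mem k k.2 g⟩
  have hφ : ∀ x y : N, φ (x * y) = φ x * φ y := by
    intro x y
    apply Subtype.ext
    show g * ((x * y : N) : G) * g⁻¹ = (g * x * g⁻¹) * (g * y * g⁻¹)
    rw [Subgroup.coe_mul]
    group
  have hDc : ∀ (i : ℕ) (k : N), (((fun x : N => φ x * x⁻¹)^[i] k : N) : G)
      = (fun x : G => g * x * g⁻¹ * x⁻¹)^[i] (k : G) := by
    intro i
    induction i with
    | zero => intro k; rfl
    | succ i ih =>
      intro k
      rw [Function.iterate_succ_apply, Function.iterate_succ_apply, ih]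
      rfl
  have h4 : ∀ k : N, (fun x : N => φ x * x⁻¹)^[4] k = 1 := by
    intro k
    apply Subtype.ext
    rw [hDc 4 k]
    exact hD k k.2
  have hiter : ∀ (C : ℕ) (k : N), ((φ^[C] k : N) : G) = g ^ C * k * (g ^ C)⁻¹ := by
    intro C
    induction C with
    | zero => intro k; simp
    | succ C ih =>
      intro k
      rw [Function.iterate_succ_apply']
      show g * ((φ^[C] k : N) : G) * g⁻¹ = _
      rw [ih, pow_succ']
      group
  have key : ∀ (u : List α) (C : ℕ), g ^ C * (u.map (fun b => (n b : G) * g ^ j b)).prod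
      = ((kp φ n j C u : N) : G) * g ^ (C + (u.map j).sum) := by
    intro u
    induction u with
    | nil => intro C; simp [kp]
    | cons b u ih =>
      intro C
      simp only [List.map_cons, List.prod_cons, List.sum_cons, kp]
      rw [Subgroup.coe_mul, hiter, ← add_assoc, mul_assoc _ _ (g ^ _), ← ih (C + j b), pow_add]
      group
  have hEN : ∀ k : N, k ^ E = 1 := fun k => Subtype.ext (by
    rw [Subgroup.coe_pow, hE]
    rfl)
  have e1 : kp φ n j 0 w = kp φ n j 0 w' := kp_congr φ hφ h4 n j E hEN w w' h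
  have e2 : g ^ (w.map j).sum = g ^ (w'.map j).sum := by
    have hs : (w.map j).sum ≡ (w'.map j).sum [MOD E] := by
      rw [map_sum_gsum j w 0, map_sum_gsum j w' 0, ← ZMod.natCast_eq_natCast_iff]
      push_cast
      refine Finset.sum_congr rfl (fun x _ => ?_)
      rw [(ZMod.natCast_eq_natCast_iff _ _ _).mpr (h x 0 (by norm_num))]
    rw [pow_eq_pow_mod _ (hE g), pow_eq_pow_mod (w'.map j).sum (hE g)]
    exact congrArg _ hs
  have k1 := key w 0
  have k2 := key w' 0
  simp only [pow_zero, one_mul, zero_add] at k1 k2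
  rw [k1, k2, e1, e2]

end final

section main

/-- **Abelian normal subgroup, cosets of the powers of one element, trivial fourth iterated
commutator.**  Let `G` be a group of finite exponent (`x ^ E = 1` for all `x`), `N` an abelian
normal subgroup and `g` an element of `G` such that the fourth iterated commutator with `g` is
trivial on `N`.  If every letter is sent into a coset `N g ^ k`, then the languages recognised
through the letter map have generalized star height at most one. -/
theorem unip4_gsh_exp {G α : Type} [Group G] (E : ℕ) (hEpos : 0 < E) (hE : ∀ x : G, x ^ E = 1)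
    [Finite α] (N : Subgroup G) [N.Normal]
    (hab : ∀ a ∈ N, ∀ b ∈ N, a * b = b * a) (g : G)
    (hD : ∀ n ∈ N, (fun x => g * x * g⁻¹ * x⁻¹)^[4] n = 1)
    (f : α → G) (hf : ∀ a, ∃ k : ℕ, f a * (g ^ k)⁻¹ ∈ N) (T : Set G) :
    HasGSH 1 (fun w : List α => (w.map f).prod ∈ T) := by
  classical
  cases nonempty_fintype α
  choose j hj using hf
  let n : α → N := fun a => ⟨f a * (g ^ j a)⁻¹, hj a⟩
  have hfn : f = fun b => (n b : G) * g ^ j b := by
    funext b
    show f b = f b * (g ^ j b)⁻¹ * g ^ j b
    rw [inv_mul_cancel_right]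
  have : NeZero (36 * E) := ⟨by omega⟩
  let V : Type := {v : α → ZMod (36 * E) // ∀ x, v x = 0 ∨ v x = 1 ∨ v x = -1}
  let F : α × V × ZMod (36 * E) → List α → ZMod (36 * E) := fun i w =>
    (cnt i.2.1.1 (fun b => b = i.1) i.2.2 0 w : ZMod (36 * E))
  have hF : ∀ i b, HasGSH 1 (fun w => F i w = b) := fun i b =>
    count_pm α (36 * E) i.2.1.1 i.2.1.2 (fun b => b = i.1) (36 * E) i.2.2 b
  refine HasGSH.of_fun (fun w => (fun i => F i w)) (fun S => HasGSH.pi F hF S) _ ?_
  intro w w' hww' hw
  have hprod : (w.map f).prod = (w'.map f).prod := by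
    rw [hfn]
    refine prod_eq_of_gsum N hab g hD E hE n j w w' (fun x i hi => ?_)
    refine gsum_modEq E j (fun v hv t => ?_) i hi
    exact congrFun hww' (x, ⟨v, hv⟩, t)
  rw [← hprod]
  exact hw

/-- the same for finite groups -/
theorem unip4_gsh {G α : Type} [Group G] [Finite G] [Finite α] (N : Subgroup G) [N.Normal]
    (hab : ∀ a ∈ N, ∀ b ∈ N, a * b = b * a) (g : G)
    (hD : ∀ n ∈ N, (fun x => g * x * g⁻¹ * x⁻¹)^[4] n = 1)
    (f : α → G) (hf : ∀ a, ∃ k : ℕ, f a * (g ^ k)⁻¹ ∈ N) (T : Set G) :
    HasGSH 1 (fun w : List α => (w.map f).prod ∈ T) :=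
  unip4_gsh_exp (Nat.card G) Nat.card_pos (fun _ => pow_card_eq_one') N hab g hD f hf T

end main

section nilp

/-- Nilpotent groups of class at most four, letters in the cosets `N g ^ k` of an abelian
normal subgroup `N`. -/
theorem class4_coset_gsh {G α : Type} [Group G] [Finite G] [hG : Group.IsNilpotent G]
    (hc : Group.nilpotencyClass G ≤ 4) [Finite α] (N : Subgroup G) [N.Normal]
    (hab : ∀ a ∈ N, ∀ b ∈ N, a * b = b * a) (g : G)
    (f : α → G) (hf : ∀ a, ∃ k : ℕ, f a * (g ^ k)⁻¹ ∈ N) (T : Set G) :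
    HasGSH 1 (fun w : List α => (w.map f).prod ∈ T) := by
  have h4 : Subgroup.lowerCentralSeries (⊤ : Subgroup G) 4 = ⊥ :=
    Subgroup.lowerCentralSeries_eq_bot_iff_nilpotencyClass_le.2 hc
  have hmem : ∀ (i : ℕ) (x : G), (fun x => g * x * g⁻¹ * x⁻¹)^[i] x
      ∈ Subgroup.lowerCentralSeries (⊤ : Subgroup G) i := by
    intro i
    induction i with
    | zero =>
      intro x
      rw [Subgroup.lowerCentralSeries_zero]
      exact Subgroup.mem_top _
    | succ i ih =>
      intro x
      rw [Function.iterate_succ_apply']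
      have h1 : (fun x => g * x * g⁻¹ * x⁻¹)^[i] x * g * ((fun x => g * x * g⁻¹ * x⁻¹)^[i] x)⁻¹
          * g⁻¹ ∈ ⁅Subgroup.lowerCentralSeries (⊤ : Subgroup G) i, (⊤ : Subgroup G)⁆ :=
        Subgroup.commutator_mem_commutator (ih x) (Subgroup.mem_top g)
      have e : ∀ y : G, g * y * g⁻¹ * y⁻¹ = (y * g * y⁻¹ * g⁻¹)⁻¹ := fun y => by group
      show g * _ * g⁻¹ * _⁻¹ ∈ _
      rw [e]
      exact Subgroup.inv_mem _ h1
  refine unip4_gsh N hab g (fun n _ => ?_) f hf T
  have h := hmem 4 n
  rw [h4] at h
  exact Subgroup.mem_bot.mp h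

end nilp

end Vale.Agent.Helper10
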