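import Vale.Agent.Helper10.GenCount

namespace Vale.Agent.Helper10

/-- counting the marked transitions modulo `M`, when the automaton without its marked
transitions is counter-free -/
theorem bcount_gsh' {I α : Type} (δ : I → α → I) (bad : I → α → Bool) (i0 : I) (M : ℕ)
    [Finite I] [Finite α] [NeZero M] (hcf : CounterFree (gOpt δ bad))
    (h0 : ∀ i a, bad i a = true → δ i a = i0) (i : I) (r : ZMod M) :
    HasGSH 1 (fun w : List α => (bcount δ bad i w : ZMod M) = r) := by
  classical
  have hcf' := gStep_cf δ bad i0 M hcf
  refine HasGSH.of_fun (fun w : List α => run (gStep δ bad i0 M) ((0 : ZMod M), i) w) ?_ _ ?_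
  · intro q
    exact one_base _ _ hcf' _ q
  · intro w w' hF hw
    rw [gStep_run δ bad i0 M h0, gStep_run δ bad i0 M h0] at hF
    have := congrArg Prod.fst hF
    simp only [zero_add] at this
    rw [← this]
    exact hw

/-- the degree function which is `1` on the letters satisfying `stp` and `0` elsewhere -/
def dgOf {α : Type} (m : ℕ) (stp : α → Prop) [DecidablePred stp] : α → ZMod m :=
  fun a => if stp a then 1 else 0

section unit

variable {α : Type} (m : ℕ) [NeZero m] (stp : α → Prop) [DecidablePred stp]
  (sp : α → Prop) [DecidablePred sp] (x : ZMod m)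

/-- the class automaton: a letter satisfying `stp` advances the class by one -/
def uStep : ZMod m → α → ZMod m := fun c a => c + dgOf m stp a

/-- marked transitions: a special letter read at class `x`, or a step into the class `x` -/
def uBad1 : ZMod m → α → Bool := fun c a => decide ((sp a ∧ c = x) ∨ (stp a ∧ c + 1 = x))

/-- marked transitions: a step into the class `x` -/
def uBad2 : ZMod m → α → Bool := fun c a => decide (stp a ∧ c + 1 = x)

theorem uOpt_cf (bad : ZMod m → α → Bool)
    (hbad : ∀ c a, stp a → c + 1 = x → bad c a = true) :
    CounterFree (gOpt (uStep m stp) bad) := by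
  refine cf_of_proj _ (fun (u : Unit) (_ : α) => u)
    (fun q : Option (ZMod m) => match q with
      | none => m
      | some c => (c - x).val)
    (fun _ => ()) ?_ ?_ ?_ ?_
  · intro q a
    cases q with
    | none => exact le_rfl
    | some c =>
      by_cases hb : bad c a = true
      · have : gOpt (uStep m stp) bad (some c) a = none := by simp [gOpt, hb]
        rw [this]
        exact (ZMod.val_lt (c - x)).le
      · have : gOpt (uStep m stp) bad (some c) a = some (uStep m stp c a) := by
          simp [gOpt, hb]
        rw [this]
        show (c - x).val ≤ (uStep m stp c a - x).val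
        unfold uStep dgOf
        by_cases hs : stp a
        · rw [if_pos hs]
          have hne : c + 1 ≠ x := fun h => hb (hbad c a hs h)
          have h1 : (c - x) + 1 ≠ 0 := by
            intro h
            apply hne
            linear_combination h
          have h2 : c + 1 - x = (c - x) + 1 := by ring
          rw [h2, zmod_val_succ m (c - x) h1]
          omega
        · rw [if_neg hs, add_zero]
  · intro q a _
    rfl
  · intro q q' h1 _
    cases q with
    | none =>
      cases q' with
      | none => rfl
      | some c' =>
        exfalso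
        have := ZMod.val_lt (c' - x)
        simp only at h1
        omega
    | some c =>
      cases q' with
      | none =>
        exfalso
        have := ZMod.val_lt (c - x)
        simp only at h1
        omega
      | some c' =>
        simp only at h1
        have h2 : c - x = c' - x := ZMod.val_injective m h1
        have h3 : c = c' := by linear_combination h2
        rw [h3]
  · intro w q n _ _
    rfl

omit [NeZero m] in
theorem ubcount_rel (hd : ∀ a, sp a → ¬ stp a) : ∀ (w : List α) (c : ZMod m),
    bcount (uStep m stp) (uBad1 m stp sp x) c w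
      = cnt (dgOf m stp) sp x c w + bcount (uStep m stp) (uBad2 m stp x) c w := by
  intro w
  induction w with
  | nil => intro c; simp [bcount, cnt]
  | cons a w ih =>
    intro c
    simp only [bcount, cnt, ih]
    have e : uStep m stp c a = c + dgOf m stp a := rfl
    rw [e]
    have key : (if uBad1 m stp sp x c a = true then 1 else 0)
        = (if sp a ∧ c = x then 1 else 0) + (if uBad2 m stp x c a = true then 1 else 0) := by
      unfold uBad1 uBad2
      by_cases h1 : sp a ∧ c = x
      · have h2 : ¬ (stp a ∧ c + 1 = x) := fun h => hd a h1.1 h.1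
        rw [if_pos (decide_eq_true (Or.inl h1)), if_pos h1, if_neg (by simpa using h2)]
      · by_cases h2 : stp a ∧ c + 1 = x
        · rw [if_pos (decide_eq_true (Or.inr h2)), if_neg h1, if_pos (decide_eq_true h2)]
        · rw [if_neg (by simpa using (not_or.2 ⟨h1, h2⟩)), if_neg h1,
            if_neg (by simpa using h2)]
    rw [key]
    ring

/-- unit-step positional counting: the number (modulo `e`) of special letters read while
the number of stepping letters read so far is congruent to a given class modulo `m` -/
theorem cnt_unit_gsh [Finite α] (hd : ∀ a, sp a → ¬ stp a) (e : ℕ) [NeZero e]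
    (c : ZMod m) (r : ZMod e) :
    HasGSH 1 (fun w : List α => (cnt (dgOf m stp) sp x c w : ZMod e) = r) := by
  have hcf1 : CounterFree (gOpt (uStep m stp) (uBad1 m stp sp x)) :=
    uOpt_cf m stp x _ (fun c a hs hc => by simp [uBad1, hs, hc])
  have hcf2 : CounterFree (gOpt (uStep m stp) (uBad2 m stp x)) :=
    uOpt_cf m stp x _ (fun c a hs hc => by simp [uBad2, hs, hc])
  have h01 : ∀ i a, uBad1 m stp sp x i a = true → uStep m stp i a = x := by
    intro i a hb
    have hb' : (sp a ∧ i = x) ∨ (stp a ∧ i + 1 = x) := by simpa [uBad1] using hb
    unfold uStep dgOf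
    rcases hb' with ⟨h1, h2⟩ | ⟨h1, h2⟩
    · rw [if_neg (hd a h1), add_zero, h2]
    · rw [if_pos h1, h2]
  have h02 : ∀ i a, uBad2 m stp x i a = true → uStep m stp i a = x := by
    intro i a hb
    have hb' : stp a ∧ i + 1 = x := by simpa [uBad2] using hb
    unfold uStep dgOf
    rw [if_pos hb'.1, hb'.2]
  have g1 := fun s : ZMod e => bcount_gsh' (uStep m stp) (uBad1 m stp sp x) x e hcf1 h01 c s
  have g2 := fun s : ZMod e => bcount_gsh' (uStep m stp) (uBad2 m stp x) x e hcf2 h02 c s
  refine HasGSH.of_fun (fun w : List α =>
    (((bcount (uStep m stp) (uBad1 m stp sp x) c w : ℕ) : ZMod e),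
      ((bcount (uStep m stp) (uBad2 m stp x) c w : ℕ) : ZMod e))) ?_ _ ?_
  · rintro ⟨s1, s2⟩
    exact ((g1 s1).and (g2 s2)).congr (fun w => by simp [Prod.ext_iff])
  · intro w w' hF hw
    simp only [Prod.mk.injEq] at hF
    have r1 := ubcount_rel m stp sp x hd w c
    have r2 := ubcount_rel m stp sp x hd w' c
    have e1 : ((cnt (dgOf m stp) sp x c w : ℕ) : ZMod e)
        = ((cnt (dgOf m stp) sp x c w' : ℕ) : ZMod e) := by
      have r1' := congrArg (fun n : ℕ => (n : ZMod e)) r1
      have r2' := congrArg (fun n : ℕ => (n : ZMod e)) r2
      simp only [Nat.cast_add] at r1' r2'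
      rw [hF.1, hF.2] at r1'
      rw [r2'] at r1'
      exact (add_right_cancel r1').symm
    rw [← e1]
    exact hw

end unit

/-- positional sum: read `w` with a running class starting at `c` and advanced by `dg`;
every special letter contributes the value of `F` at the class of the preceding prefix -/
def psum {α R : Type} [AddCommMonoid R] {m : ℕ} (F : ZMod m → R) (dg : α → ZMod m)
    (sp : α → Prop) [DecidablePred sp] : ZMod m → List α → R
  | _, [] => 0
  | c, a :: w => (if sp a then F c else 0) + psum F dg sp (c + dg a) w

theorem psum_eq_sum {α : Type} {m e : ℕ} [NeZero m] (F : ZMod m → ZMod e) (dg : α → ZMod m)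
    (sp : α → Prop) [DecidablePred sp] : ∀ (w : List α) (c : ZMod m),
    psum F dg sp c w = ∑ y : ZMod m, (cnt dg sp y c w : ZMod e) * F y := by
  intro w
  induction w with
  | nil => intro c; simp [psum, cnt]
  | cons a w ih =>
    intro c
    simp only [psum, cnt, ih, Nat.cast_add, add_mul, Finset.sum_add_distrib]
    congr 1
    by_cases hs : sp a
    · simp [hs]
    · simp [hs]

/-- the level sets of a positional sum along a unit-step class have star height at most one -/
theorem psum_gsh {α : Type} [Finite α] (m e : ℕ) [NeZero m] [NeZero e] (stp sp : α → Prop)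
    [DecidablePred stp] [DecidablePred sp] (hd : ∀ a, sp a → ¬ stp a) (F : ZMod m → ZMod e)
    (c : ZMod m) (r : ZMod e) :
    HasGSH 1 (fun w : List α => psum F (dgOf m stp) sp c w = r) := by
  refine HasGSH.of_fun (fun (w : List α) (y : ZMod m) =>
    ((cnt (dgOf m stp) sp y c w : ℕ) : ZMod e))
    (fun T => HasGSH.pi _ (fun y s => cnt_unit_gsh m stp sp y hd e c s) T) _ ?_
  intro w w' hF hw
  rw [psum_eq_sum] at hw ⊢
  rw [← hw]
  exact Finset.sum_congr rfl (fun y _ => by rw [← congr_fun hF y])

end Vale.Agent.Helper10
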