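import Vale.Agent.Helper10.PMFinal
import Vale.Agent.Helper4.P329Radon
import Vale.Agent.Helper2.P329Prod

/-!
# Clocks modulo four with arbitrary steps, counted modulo two

For a degree map into `ZMod 4` with arbitrary values, the number of letters of a given kind
read at the running class `x`, counted modulo two, is a combination of positional counts
along clocks with steps `0`, `1` and `-1` modulo four.  Consequently every language recognised
by a group with a homomorphism to the cyclic group of order four whose kernel is commutative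
and of exponent two has generalized star height at most one.
-/

namespace Vale.Agent.Helper10

open Vale.Agent.Helper2.P329 Vale.Agent.Helper4.P329

section prod

/-- Counts modulo an exponent of the kernel, together with the total class, determine the
product. -/
theorem prod_eq_of_cnt_exp {G A α : Type} [Group G] [AddCommGroup A] [Finite A]
    [DecidableEq A] [DecidableEq α] [Finite α]
    (ψ : G →* Multiplicative A) (hker : ∀ a b : G, ψ a = 1 → ψ b = 1 → a * b = b * a)
    (e : ℕ) (hexp : ∀ a : G, ψ a = 1 → a ^ e = 1)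
    (f : α → G) (w w' : List α)
    (h : ∀ (a : α) (x : A),
      cnt (fun b => Multiplicative.toAdd (ψ (f b))) (fun b => b = a) x 0 w
        ≡ cnt (fun b => Multiplicative.toAdd (ψ (f b))) (fun b => b = a) x 0 w' [MOD e])
    (hsum : (w.map (fun b => Multiplicative.toAdd (ψ (f b)))).sum
      = (w'.map (fun b => Multiplicative.toAdd (ψ (f b)))).sum) :
    (w.map f).prod = (w'.map f).prod := by
  classical
  cases nonempty_fintype A
  cases nonempty_fintype α
  set dg : α → A := fun b => Multiplicative.toAdd (ψ (f b)) with hdg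
  have hdg' : ∀ a, ψ (f a) = Multiplicative.ofAdd (dg a) := fun a => rfl
  let K : Subgroup G := ψ.ker
  let _ : CommGroup K :=
    { (inferInstance : Group K) with
      mul_comm := fun a b =>
        Subtype.ext (hker a b (MonoidHom.mem_ker.mp a.2) (MonoidHom.mem_ker.mp b.2)) }
  let r : A → G := fun c => if hc : ∃ g, ψ g = Multiplicative.ofAdd c then hc.choose else 1
  have hr : ∀ c, (∃ g, ψ g = Multiplicative.ofAdd c) → ψ (r c) = Multiplicative.ofAdd c := by
    intro c hc
    simp only [r, dif_pos hc]
    exact hc.choose_spec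
  have hstep : ∀ c a, (∃ g, ψ g = Multiplicative.ofAdd c) →
      ∃ g, ψ g = Multiplicative.ofAdd (c + dg a) := by
    rintro c a ⟨g, hg⟩
    exact ⟨g * f a, by rw [map_mul, hg, hdg', ofAdd_add]⟩
  let gam : A → α → K := fun x a =>
    if hx : ψ (r x * f a * (r (x + dg a))⁻¹) = 1 then ⟨_, MonoidHom.mem_ker.mpr hx⟩ else 1
  have hgam : ∀ x a, (∃ g, ψ g = Multiplicative.ofAdd x) →
      (gam x a : G) = r x * f a * (r (x + dg a))⁻¹ := by
    intro x a hx
    have h2 : ψ (r x * f a * (r (x + dg a))⁻¹) = 1 := by
      rw [map_mul, map_mul, map_inv, hr x hx, hr _ (hstep x a hx), hdg', ofAdd_add]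
      exact mul_inv_cancel _
    simp only [gam, dif_pos h2]
  have key : ∀ (u : List α) (c : A), (∃ g, ψ g = Multiplicative.ofAdd c) →
      r c * (u.map f).prod = ((pathProd dg gam c u : K) : G) * r (c + (u.map dg).sum) := by
    intro u
    induction u with
    | nil =>
      intro c _
      simp [pathProd]
    | cons a u ih =>
      intro c hc
      simp only [List.map_cons, List.prod_cons, List.sum_cons, pathProd]
      rw [Subgroup.coe_mul, hgam c a hc, ← add_assoc, mul_assoc _ _ (r _), ← ih _ (hstep c a hc)]
      group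
  have e1 : pathProd dg gam 0 w = pathProd dg gam 0 w' := by
    refine pathProd_congr dg gam e (fun x a => ?_) 0 w w' h
    exact Subtype.ext (by
      rw [Subgroup.coe_pow]
      exact hexp _ (MonoidHom.mem_ker.mp (gam x a).2))
  have h0 : ∃ g, ψ g = Multiplicative.ofAdd (0 : A) := ⟨1, by simp⟩
  have k1 := key w 0 h0
  have k2 := key w' 0 h0
  rw [e1, hsum, ← k2] at k1
  exact mul_left_cancel k1

/-- the weighted path product of the classes of the letters is the total class, whatever the
running class is -/
theorem pathProd_ofAdd' {α A B : Type} [AddCommGroup A] [AddCommGroup B] (dg0 : α → A)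
    (dg : α → B) (c : A) (w : List α) :
    pathProd dg0 (fun (_ : A) (a : α) => Multiplicative.ofAdd (dg a)) c w
      = Multiplicative.ofAdd ((w.map dg).sum) := by
  induction w generalizing c with
  | nil => simp [pathProd]
  | cons b w ih =>
    rw [pathProd, ih]
    simp [ofAdd_add]

end prod

section clock

/-- the master state: the numbers modulo four of the letters of the classes one, two, three -/
abbrev Z4M : Type := ZMod 4 × ZMod 4 × ZMod 4

/-- the master step of a class -/
def z4Step (t : ZMod 4) : Z4M :=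
  if t = 1 then (1, 0, 0) else if t = 2 then (0, 1, 0) else if t = 3 then (0, 0, 1) else 0

/-- the linear functional with coefficients `c` -/
def z4lin (c : Z4M) : Z4M →+ ZMod 4 where
  toFun y := c.1 * y.1 + c.2.1 * y.2.1 + c.2.2 * y.2.2
  map_zero' := by simp
  map_add' y z := by
    simp only [Prod.fst_add, Prod.snd_add]
    ring

/-- the coefficients of the six auxiliary clocks -/
def z4cs : Fin 6 → Z4M
  | 0 => (1, 0, 3)
  | 1 => (0, 1, 0)
  | 2 => (1, 1, 0)
  | 3 => (1, 0, 0)
  | 4 => (0, 1, 1)
  | 5 => (0, 0, 1)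

theorem z4lin_step : ∀ t : ZMod 4, z4lin (1, 2, 3) (z4Step t) = t := by decide

theorem z4cs_pm : ∀ (j : Fin 6) (t : ZMod 4),
    z4lin (z4cs j) (z4Step t) = 0 ∨ z4lin (z4cs j) (z4Step t) = 1 ∨ z4lin (z4cs j) (z4Step t) = -1 := by decide

/-- the combination of the auxiliary counts -/
def z4comb (x : ZMod 4) (S : Fin 6 → ZMod 4 → ZMod 2) : ZMod 2 :=
  S 0 x + (if x = 0 ∨ x = 2 then S 1 1 + S 1 3 else 0) + S 2 2 + S 2 3 + S 3 2 + S 3 3
    + S 4 2 + S 4 3 + S 5 2 + S 5 3

theorem z4comb_pt : ∀ (x : ZMod 4) (y : Z4M) (v : ZMod 2),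
    (if z4lin (1, 2, 3) y = x then v else 0)
      = z4comb x (fun j t => if z4lin (z4cs j) y = t then v else 0) := by decide

end clock

section count

variable {α : Type}

/-- the master degree map -/
def z4D (dg : α → ZMod 4) : α → Z4M := fun a => z4Step (dg a)

theorem cnt_z4lin (dg : α → ZMod 4) (sp : α → Prop) [DecidablePred sp] (c : Z4M) (t : ZMod 4)
    (w : List α) :
    (cnt (fun a => z4lin c (z4D dg a)) sp t 0 w : ZMod 2)
      = ∑ y : Z4M, if z4lin c y = t then (cnt (z4D dg) sp y 0 w : ZMod 2) else 0 := by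
  have h := cnt_comp (z4lin c) (z4D dg) sp t 0 w
  rw [map_zero] at h
  rw [h, Nat.cast_sum, Finset.sum_filter]

theorem z4comb_sum {ι : Type} (s : Finset ι) (x : ZMod 4) (g : ι → Fin 6 → ZMod 4 → ZMod 2) :
    z4comb x (fun j t => ∑ y ∈ s, g y j t) = ∑ y ∈ s, z4comb x (g y) := by
  unfold z4comb
  by_cases hx : x = 0 ∨ x = 2
  · simp only [if_pos hx, Finset.sum_add_distrib]
  · simp only [if_neg hx, Finset.sum_add_distrib, Finset.sum_const_zero]

/-- **Clocks modulo four with arbitrary steps, counted modulo two.** -/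
theorem cnt_z4 (dg : α → ZMod 4) (sp : α → Prop) [DecidablePred sp] (x : ZMod 4) (w : List α) :
    (cnt dg sp x 0 w : ZMod 2)
      = z4comb x (fun j t => (cnt (fun a => z4lin (z4cs j) (z4D dg a)) sp t 0 w : ZMod 2)) := by
  have h0 : (fun a => z4lin (1, 2, 3) (z4D dg a)) = dg := funext (fun a => z4lin_step (dg a))
  have h1 := cnt_z4lin dg sp (1, 2, 3) x w
  rw [h0] at h1
  rw [h1]
  simp only [cnt_z4lin]
  rw [z4comb_sum]
  exact Finset.sum_congr rfl (fun y _ => z4comb_pt x y _)

end count

section group

theorem z4_pow_four : ∀ t : ZMod 4, Multiplicative.ofAdd t ^ 4 = 1 := by decide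

/-- **Groups with a homomorphism to the cyclic group of order four whose kernel is commutative
and of exponent two.**  Every language recognised through a letter map into such a group has
generalized star height at most one. -/
theorem z4_gsh {G α : Type} [Group G] [Finite α] (ψ : G →* Multiplicative (ZMod 4))
    (hker : ∀ a b : G, ψ a = 1 → ψ b = 1 → a * b = b * a)
    (hsq : ∀ a : G, ψ a = 1 → a * a = 1) (f : α → G) (T : Set G) :
    HasGSH 1 (fun w : List α => (w.map f).prod ∈ T) := by
  classical
  cases nonempty_fintype α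
  let dg : α → ZMod 4 := fun b => Multiplicative.toAdd (ψ (f b))
  let F1 : α × Fin 6 × ZMod 4 → List α → ZMod 2 := fun i w =>
    (cnt (fun b => z4lin (z4cs i.2.1) (z4D dg b)) (fun b => b = i.1) i.2.2 0 w : ZMod 2)
  let F2 : α × ZMod 4 → List α → ZMod 4 := fun i w =>
    (cnt (fun _ : α => (0 : ZMod 4)) (fun b => b = i.1) i.2 0 w : ZMod 4)
  have hF1 : ∀ i b, HasGSH 1 (fun w => F1 i w = b) := fun i b =>
    count_pm α 4 _ (fun a => z4cs_pm i.2.1 (dg a)) (fun b => b = i.1) 2 i.2.2 b
  have hF2 : ∀ i b, HasGSH 1 (fun w => F2 i w = b) := fun i b =>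
    count_pm α 4 _ (fun _ => Or.inl rfl) (fun b => b = i.1) 4 i.2 b
  refine HasGSH.of_fun (fun w => ((fun i => F1 i w), (fun i => F2 i w)))
    (fun S => ((HasGSH.pi F1 hF1 S.1).and (HasGSH.pi F2 hF2 S.2)).congr
      (fun w => by simp [Prod.ext_iff])) _ ?_
  intro w w' hww' hw
  have h1 : ∀ i, F1 i w = F1 i w' := fun i => congrFun (congrArg Prod.fst hww') i
  have h2 : ∀ i, F2 i w = F2 i w' := fun i => congrFun (congrArg Prod.snd hww') i
  have hprod : (w.map f).prod = (w'.map f).prod := by
    refine prod_eq_of_cnt_exp ψ hker 2 (fun a ha => by rw [pow_two]; exact hsq a ha) f w w'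
      (fun a x => ?_) ?_
    · have e1 := cnt_z4 dg (fun b => b = a) x w
      have e2 := cnt_z4 dg (fun b => b = a) x w'
      have e3 : (cnt dg (fun b => b = a) x 0 w : ZMod 2)
          = (cnt dg (fun b => b = a) x 0 w' : ZMod 2) := by
        rw [e1, e2]
        congr 1
        funext j t
        exact h1 (a, j, t)
      exact (ZMod.natCast_eq_natCast_iff _ _ _).mp e3
    · have e3 := pathProd_congr (fun _ : α => (0 : ZMod 4))
        (fun (_ : ZMod 4) (a : α) => Multiplicative.ofAdd (dg a)) 4
        (fun _ a => z4_pow_four (dg a)) 0 w w'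
        (fun a x => (ZMod.natCast_eq_natCast_iff _ _ _).mp (h2 (a, x)))
      rw [pathProd_ofAdd', pathProd_ofAdd'] at e3
      exact Multiplicative.ofAdd.injective e3
  rw [← hprod]
  exact hw

end group

end Vale.Agent.Helper10
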